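import Mathlib.Probability.ProductMeasure
import Mathlib.Probability.Independence.InfinitePi
import Mathlib.Probability.Independence.Integration
import Mathlib.MeasureTheory.Measure.SeparableMeasure

/-! # Absolute continuity of infinite product measures with bounded second moments of densities -/

open Set Filter Topology MeasureTheory ProbabilityTheory
open scoped NNReal ENNReal symmDiff

namespace Vale.Agent.P139.R3.H156

variable {ι E : Type*} [MeasurableSpace E] {γ : Measure E} [IsProbabilityMeasure γ]

theorem lintegral_box (f : ι → E → ℝ≥0∞) (hf : ∀ i, Measurable (f i)) (s : Finset ι) :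
    ∫⁻ x, ∏ i ∈ s, f i (x i) ∂(Measure.infinitePi fun _ : ι => γ) =
      ∏ i ∈ s, ∫⁻ y, f i y ∂γ := by
  have h1 : iIndepFun (fun i (x : ι → E) => f i (x i)) (Measure.infinitePi fun _ : ι => γ) :=
    iIndepFun_infinitePi hf
  rw [lintegral_prod_eq_prod_lintegral_of_indepFun s _ h1
    (fun i => (hf i).comp (measurable_pi_apply i))]
  refine Finset.prod_congr rfl fun i _ => ?_
  exact (measurePreserving_eval_infinitePi (fun _ : ι => γ) i).lintegral_comp (hf i)

theorem pi_eq_map (ν : ι → Measure E) [∀ i, IsProbabilityMeasure (ν i)] (m : ι → E → ℝ≥0∞)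
    (hm : ∀ i, Measurable (m i)) (hν : ∀ i, ν i = γ.withDensity (m i)) (s : Finset ι) :
    (Measure.pi fun i : s => ν i) =
      ((Measure.infinitePi fun _ : ι => γ).withDensity fun x => ∏ i ∈ s, m i (x i)).map
        s.restrict := by
  classical
  refine Measure.pi_eq fun t ht => ?_
  set t' : ι → Set E := fun i => if h : i ∈ s then t ⟨i, h⟩ else univ with ht'
  have hmt' : ∀ i, MeasurableSet (t' i) := fun i => by
    simp only [ht']
    split_ifs with h
    · exact ht _
    · exact MeasurableSet.univ
  have hpre : (s.restrict : (ι → E) → (s → E)) ⁻¹' (univ.pi t) = (s : Set ι).pi t' := by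
    ext x
    simp only [mem_preimage, Set.mem_pi, mem_univ, true_implies, Finset.mem_coe]
    constructor
    · intro h i hi
      have := h ⟨i, hi⟩
      simp only [ht', hi, dif_pos]
      exact this
    · rintro h ⟨i, hi⟩
      have := h i hi
      simp only [ht', hi, dif_pos] at this
      exact this
  have hmeas : MeasurableSet ((s : Set ι).pi t') :=
    MeasurableSet.pi s.countable_toSet fun i _ => hmt' i
  rw [Measure.map_apply (Finset.measurable_restrict s) (MeasurableSet.univ_pi ht), hpre,
    withDensity_apply _ hmeas, ← lintegral_indicator hmeas]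
  have h1 : ∀ x : ι → E, ((s : Set ι).pi t').indicator (fun x => ∏ i ∈ s, m i (x i)) x =
      ∏ i ∈ s, (t' i).indicator (m i) (x i) := by
    intro x
    by_cases hx : x ∈ (s : Set ι).pi t'
    · rw [indicator_of_mem hx]
      refine Finset.prod_congr rfl fun i hi => ?_
      rw [indicator_of_mem (hx i hi)]
    · rw [indicator_of_notMem hx]
      have : ∃ i ∈ s, x i ∉ t' i := by
        by_contra hcon
        push Not at hcon
        exact hx fun i hi => hcon i hi
      obtain ⟨i, hi, hxi⟩ := this
      symm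
      exact Finset.prod_eq_zero hi (indicator_of_notMem hxi _)
  simp_rw [h1]
  rw [lintegral_box _ (fun i => (hm i).indicator (hmt' i)), ← Finset.prod_coe_sort]
  refine Finset.prod_congr rfl fun i _ => ?_
  rw [lintegral_indicator (hmt' i), hν i, withDensity_apply _ (ht i)]
  simp only [ht', i.2, dif_pos]

theorem cyl_le (ν : ι → Measure E) [∀ i, IsProbabilityMeasure (ν i)] (m : ι → E → ℝ≥0∞)
    (hm : ∀ i, Measurable (m i)) (hν : ∀ i, ν i = γ.withDensity (m i)) {K : ℝ≥0∞}
    (hsq : ∀ s : Finset ι, ∏ i ∈ s, ∫⁻ x, m i x ^ 2 ∂γ ≤ K) {C : Set (ι → E)}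
    (hC : C ∈ measurableCylinders fun _ : ι => E) {L : ℝ≥0∞} (hL0 : L ≠ 0) (hL : L ≠ ∞) :
    Measure.infinitePi ν C ≤ L * (Measure.infinitePi fun _ : ι => γ) C + K / L := by
  have hCm : MeasurableSet C := MeasurableSet.of_mem_measurableCylinders hC
  obtain ⟨s, S, hS, rfl⟩ := (mem_measurableCylinders C).1 hC
  have h1 : Measure.infinitePi ν (cylinder s S) =
      ∫⁻ x in cylinder s S, ∏ i ∈ s, m i (x i) ∂(Measure.infinitePi fun _ : ι => γ) := by
    rw [cylinder, ← Measure.map_apply (Finset.measurable_restrict s) hS,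
      Measure.infinitePi_map_restrict, pi_eq_map ν m hm hν s,
      Measure.map_apply (Finset.measurable_restrict s) hS]
    exact withDensity_apply _ hCm
  have hpt : ∀ x : ι → E, ∏ i ∈ s, m i (x i) ≤ L + (∏ i ∈ s, m i (x i) ^ 2) / L := by
    intro x
    rcases le_or_gt (∏ i ∈ s, m i (x i)) L with h | h
    · exact h.trans le_self_add
    · refine le_trans ?_ le_add_self
      rw [ENNReal.le_div_iff_mul_le (Or.inl hL0) (Or.inl hL), Finset.prod_pow, sq]
      gcongr
  rw [h1]
  calc ∫⁻ x in cylinder s S, ∏ i ∈ s, m i (x i) ∂(Measure.infinitePi fun _ : ι => γ)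
      ≤ ∫⁻ x in cylinder s S, (L + (∏ i ∈ s, m i (x i) ^ 2) / L)
          ∂(Measure.infinitePi fun _ : ι => γ) := lintegral_mono fun x => hpt x
    _ = L * (Measure.infinitePi fun _ : ι => γ) (cylinder s S) +
        (∫⁻ x in cylinder s S, ∏ i ∈ s, m i (x i) ^ 2
          ∂(Measure.infinitePi fun _ : ι => γ)) / L := by
        rw [lintegral_add_left measurable_const, setLIntegral_const]
        congr 1
        simp_rw [div_eq_mul_inv]
        rw [lintegral_mul_const' _ _ (ENNReal.inv_ne_top.2 hL0)]
    _ ≤ L * (Measure.infinitePi fun _ : ι => γ) (cylinder s S) + K / L := by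
        gcongr
        refine (setLIntegral_le_lintegral _ _).trans ?_
        rw [lintegral_box (fun i y => m i y ^ 2) (fun i => (hm i).pow_const 2)]
        exact hsq s

/-- Kakutani / Cameron-Martin: a product of laws with densities whose second moments have bounded
products is absolutely continuous. -/
theorem infinitePi_ac (ν : ι → Measure E) [∀ i, IsProbabilityMeasure (ν i)] (m : ι → E → ℝ≥0∞)
    (hm : ∀ i, Measurable (m i)) (hν : ∀ i, ν i = γ.withDensity (m i)) {K : ℝ≥0∞} (hK : K ≠ ∞)
    (hsq : ∀ s : Finset ι, ∏ i ∈ s, ∫⁻ x, m i x ^ 2 ∂γ ≤ K) :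
    Measure.infinitePi ν ≪ Measure.infinitePi fun _ : ι => γ := by
  set μ := Measure.infinitePi fun _ : ι => γ with hμ
  refine Measure.AbsolutelyContinuous.mk fun A hA hA0 => ?_
  have halg : IsSetAlgebra (measurableCylinders fun _ : ι => E) :=
    { empty_mem := empty_mem_measurableCylinders _
      compl_mem := fun _ h => compl_mem_measurableCylinders h
      union_mem := fun _ _ h h' => union_mem_measurableCylinders h h' }
  have hdense := Measure.MeasureDense.of_generateFrom_isSetAlgebra_finite
    (μ + Measure.infinitePi ν) halg generateFrom_measurableCylinders.symm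
  have hbound : ∀ n : ℕ, Measure.infinitePi ν A ≤ (1 + K) * ((n : ℝ≥0∞) + 1)⁻¹ := by
    intro n
    set L : ℝ≥0∞ := (n : ℝ≥0∞) + 1 with hL
    have hL0 : L ≠ 0 := by simp [hL]
    have hLt : L ≠ ∞ := by simp [hL]
    set ε : ℝ := 1 / (((n : ℝ) + 1) * ((n : ℝ) + 2)) with hε
    have hε0 : 0 < ε := by positivity
    obtain ⟨C, hC, hAC⟩ := hdense.approx A hA (measure_ne_top _ _) ε hε0
    rw [Measure.add_apply] at hAC
    have h1 : μ (A ∆ C) ≤ ENNReal.ofReal ε := le_self_add.trans hAC.le
    have h2 : Measure.infinitePi ν (A ∆ C) ≤ ENNReal.ofReal ε := le_add_self.trans hAC.le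
    have h3 : μ C ≤ ENNReal.ofReal ε := by
      calc μ C ≤ μ (A ∪ (A ∆ C)) := measure_mono fun x hx => by
            by_cases h : x ∈ A
            · exact Or.inl h
            · exact Or.inr (Or.inr ⟨hx, h⟩)
        _ ≤ μ A + μ (A ∆ C) := measure_union_le _ _
        _ ≤ ENNReal.ofReal ε := by rw [hA0, zero_add]; exact h1
    have h4 : Measure.infinitePi ν A ≤ Measure.infinitePi ν C + ENNReal.ofReal ε := by
      calc Measure.infinitePi ν A ≤ Measure.infinitePi ν (C ∪ (A ∆ C)) :=
            measure_mono fun x hx => by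
              by_cases h : x ∈ C
              · exact Or.inl h
              · exact Or.inr (Or.inl ⟨hx, h⟩)
        _ ≤ Measure.infinitePi ν C + Measure.infinitePi ν (A ∆ C) := measure_union_le _ _
        _ ≤ _ := by gcongr
    have h5 := cyl_le ν m hm hν hsq hC hL0 hLt
    have h6 : L * ENNReal.ofReal ε + ENNReal.ofReal ε ≤ L⁻¹ := by
      have e1 : L = ENNReal.ofReal ((n : ℝ) + 1) := by
        rw [hL, ENNReal.ofReal_add (by positivity) (by norm_num)]
        simp
      rw [e1, ← ENNReal.ofReal_inv_of_pos (by positivity), ← ENNReal.ofReal_mul (by positivity),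
        ← ENNReal.ofReal_add (by positivity) (by positivity)]
      apply ENNReal.ofReal_le_ofReal
      rw [hε]
      apply le_of_eq
      field_simp
      ring
    calc Measure.infinitePi ν A ≤ Measure.infinitePi ν C + ENNReal.ofReal ε := h4
      _ ≤ (L * μ C + K / L) + ENNReal.ofReal ε := by gcongr
      _ ≤ (L * ENNReal.ofReal ε + K / L) + ENNReal.ofReal ε := by gcongr
      _ = (L * ENNReal.ofReal ε + ENNReal.ofReal ε) + K / L := by ring
      _ ≤ L⁻¹ + K / L := by gcongr
      _ = (1 + K) * L⁻¹ := by rw [div_eq_mul_inv]; ring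
  have hlim : Tendsto (fun n : ℕ => (1 + K) * ((n : ℝ≥0∞) + 1)⁻¹) atTop (𝓝 ((1 + K) * 0)) := by
    refine ENNReal.Tendsto.const_mul ?_ (Or.inr (ENNReal.add_ne_top.2 ⟨ENNReal.one_ne_top, hK⟩))
    have h := (tendsto_add_atTop_iff_nat 1).2 ENNReal.tendsto_inv_nat_nhds_zero
    refine h.congr fun n => ?_
    push_cast
    rfl
  rw [mul_zero] at hlim
  exact le_antisymm (ge_of_tendsto' hlim hbound) bot_le

end Vale.Agent.P139.R3.H156
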