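import Vale.Agent.P139.A.Defs

/-! # P139: families of Gaussians, smooth profiles, rational trigonometric polynomials -/

open MeasureTheory ProbabilityTheory

namespace Vale.Agent.P139.R3.H156

open Vale.Agent.P139.A

/-- `g` is a family of independent standard complex Gaussians on the probability space `(Ω, P)`. -/
structure StdFamily {d : ℕ} {Ω : Type*} [MeasurableSpace Ω] (P : Measure Ω)
    (g : (Fin d → ℤ) → Ω → ℂ) : Prop where
  prob : IsProbabilityMeasure P
  meas : ∀ n, Measurable (g n)
  indep : iIndepFun g P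
  law : ∀ n, P.map (g n) = stdComplexGaussian

/-- The profile with Fourier coefficients `v` is in `H^α` of the torus, for a real `α`:
`∑ (1+|n|²)^α |v_n|² < ∞`. -/
def Profile {d : ℕ} (α : ℝ) (v : (Fin d → ℤ) → ℂ) : Prop :=
  Summable fun n => (1 + sqNorm n) ^ α * ‖v n‖ ^ 2

/-- The Fourier coefficients of the trigonometric polynomial with rational coefficients `r`. -/
noncomputable def ratSeq {d : ℕ} (r : (Fin d → ℤ) →₀ ℚ × ℚ) (n : Fin d → ℤ) : ℂ :=
  (((r n).1 : ℝ) : ℂ) + (((r n).2 : ℝ) : ℂ) * Complex.I

end Vale.Agent.P139.R3.H156
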