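import Vale.Agent.P139.R3.H156.FullSupp
import Vale.Agent.P139.R3.H156.EPDefs

/-! # P139: rational trigonometric polynomials are dense, and the datum is almost surely in `H^k` -/

open Set Filter Topology MeasureTheory ProbabilityTheory
open scoped NNReal ENNReal

namespace Vale.Agent.P139.R3.H156

open Vale.Agent.P139.A Vale.Agent.P139.H203

variable {d k : ℕ}

theorem ratSeq_of_notMem {r : (Fin d → ℤ) →₀ ℚ × ℚ} {n : Fin d → ℤ} (h : n ∉ r.support) :
    ratSeq r n = 0 := by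
  have : r n = 0 := Finsupp.notMem_support_iff.1 h
  simp [ratSeq, this]

theorem exists_rat_near (z : ℂ) {η : ℝ} (hη : 0 < η) :
    ∃ q : ℚ × ℚ, ‖(((q.1 : ℝ) : ℂ) + ((q.2 : ℝ) : ℂ) * Complex.I) + z‖ ^ 2 < η := by
  set ε : ℝ := Real.sqrt (η / 2) with hε
  have hε0 : 0 < ε := Real.sqrt_pos.2 (by positivity)
  obtain ⟨r, hr1, hr2⟩ := exists_rat_btwn (show -z.re - ε < -z.re + ε by linarith)
  obtain ⟨s, hs1, hs2⟩ := exists_rat_btwn (show -z.im - ε < -z.im + ε by linarith)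
  refine ⟨(r, s), ?_⟩
  have h1 : ((r : ℝ) + z.re) ^ 2 < ε ^ 2 := by
    apply sq_lt_sq' <;> linarith
  have h2 : ((s : ℝ) + z.im) ^ 2 < ε ^ 2 := by
    apply sq_lt_sq' <;> linarith
  have h3 : ε ^ 2 = η / 2 := Real.sq_sqrt (by positivity)
  rw [← Complex.normSq_eq_norm_sq, Complex.normSq_apply]
  simp only [Complex.add_re, Complex.add_im, Complex.mul_re, Complex.mul_im, Complex.ofReal_re,
    Complex.ofReal_im, Complex.I_re, Complex.I_im]
  nlinarith [h1, h2, h3]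

theorem mem_ratSeq_add {a : Lat d → ℂ} (ha : MemSobolev k a) (r : (Fin d → ℤ) →₀ ℚ × ℚ) :
    MemSobolev k (fun n => ratSeq r n + a n) := by
  unfold MemSobolev at ha ⊢
  refine (summable_congr_cofinite ?_).1 ha
  have : ∀ᶠ n in (cofinite : Filter (Lat d)), n ∉ r.support :=
    r.support.finite_toSet.compl_mem_cofinite
  filter_upwards [this] with n hn
  rw [ratSeq_of_notMem hn, zero_add]

theorem exists_rat_close {a : Lat d → ℂ} (ha : MemSobolev k a) {δ : ℝ} (hδ : 0 < δ) :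
    ∃ r : (Fin d → ℤ) →₀ ℚ × ℚ, sobolevSq k (fun n => ratSeq r n + a n) < δ := by
  classical
  have hs1 : ∀ n : Lat d, 0 < 1 + sqNorm n := fun n => by
    have : 0 ≤ sqNorm n := Finset.sum_nonneg fun j _ => sq_nonneg _
    linarith
  have h2 : Tendsto (fun s : Finset (Lat d) => ∑' n : {n // n ∉ s}, (1 + sqNorm n.1) ^ k * ‖a n.1‖ ^ 2)
      atTop (𝓝 0) := tendsto_tsum_compl_atTop_zero fun n => (1 + sqNorm n) ^ k * ‖a n‖ ^ 2
  obtain ⟨s, hs⟩ := ((tendsto_order.1 h2).2 (δ / 2) (by positivity)).exists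
  have h3 : ∀ n : Lat d, ∃ q : ℚ × ℚ, (1 + sqNorm n) ^ k *
      ‖(((q.1 : ℝ) : ℂ) + ((q.2 : ℝ) : ℂ) * Complex.I) + a n‖ ^ 2 < δ / (2 * (s.card + 1)) := by
    intro n
    have hw : 0 < (1 + sqNorm n) ^ k := pow_pos (hs1 n) k
    obtain ⟨q, hq⟩ := exists_rat_near (a n) (η := δ / (2 * (s.card + 1)) / (1 + sqNorm n) ^ k)
      (by positivity)
    refine ⟨q, ?_⟩
    rw [lt_div_iff₀ hw] at hq
    linarith
  choose q hq using h3
  set r : (Fin d → ℤ) →₀ ℚ × ℚ := Finsupp.onFinset s (fun n => if n ∈ s then q n else 0)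
    (fun n hn => by
      by_contra h
      exact hn (by simp [h])) with hr
  refine ⟨r, ?_⟩
  have hrs : ∀ n ∈ s, ratSeq r n = (((q n).1 : ℝ) : ℂ) + (((q n).2 : ℝ) : ℂ) * Complex.I := by
    intro n hn
    simp [ratSeq, hr, hn]
  have hrc : ∀ n, n ∉ s → ratSeq r n = 0 := by
    intro n hn
    simp [ratSeq, hr, hn]
  have hsum := mem_ratSeq_add ha r
  unfold MemSobolev at hsum
  unfold sobolevSq
  rw [← hsum.sum_add_tsum_compl (s := s)]
  have h4 : ∑' n : ↑((s : Set (Lat d))ᶜ), (1 + sqNorm n.1) ^ k * ‖ratSeq r n.1 + a n.1‖ ^ 2 =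
      ∑' n : {n // n ∉ s}, (1 + sqNorm n.1) ^ k * ‖a n.1‖ ^ 2 := by
    refine tsum_congr fun n => ?_
    have : n.1 ∉ s := n.2
    rw [hrc _ this, zero_add]
  rw [h4]
  have h5 : ∑ n ∈ s, (1 + sqNorm n) ^ k * ‖ratSeq r n + a n‖ ^ 2 ≤
      ∑ _n ∈ s, δ / (2 * (s.card + 1)) := Finset.sum_le_sum fun n hn => by
    rw [hrs n hn]
    exact (hq n).le
  rw [Finset.sum_const, nsmul_eq_mul] at h5
  have h6 : (s.card : ℝ) * (δ / (2 * (s.card + 1))) ≤ δ / 2 := by
    rw [mul_div_assoc', div_le_div_iff₀ (by positivity) (by norm_num)]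
    nlinarith [hδ, (Nat.cast_nonneg s.card : (0 : ℝ) ≤ s.card)]
  linarith

/-- The datum is almost surely in `H^k` when `α > k + d / 2`. -/
theorem ae_mem {Ω : Type*} [MeasurableSpace Ω] (P : Measure Ω) [IsProbabilityMeasure P]
    (g : Lat d → Ω → ℂ) (hm : ∀ n, Measurable (g n))
    (hg : ∀ n, P.map (g n) = stdComplexGaussian) {α : ℝ} (hα : (k : ℝ) + d / 2 < α) :
    ∀ᵐ ω ∂P, MemSobolev k (datum g α ω) := by
  have hs1 : ∀ n : Lat d, 0 < 1 + sqNorm n := fun n => by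
    have : 0 ≤ sqNorm n := Finset.sum_nonneg fun j _ => sq_nonneg _
    linarith
  have hs0 : ∀ n : Lat d, 0 < Real.sqrt (1 + sqNorm n) := fun n => Real.sqrt_pos.2 (hs1 n)
  set q : Lat d → ℝ := fun n => (1 + sqNorm n) ^ k * (Real.sqrt (1 + sqNorm n) ^ (-α)) ^ 2 with hq
  have hq0 : ∀ n, 0 ≤ q n := fun n => by
    have := hs1 n
    positivity
  have hqs : Summable q := by
    refine (summable_rpow_weight (d := d) (β := 2 * α - 2 * k) (by linarith)).congr fun n => ?_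
    have e1 : (1 + sqNorm n) ^ k = Real.sqrt (1 + sqNorm n) ^ (2 * (k : ℝ)) := by
      rw [Real.rpow_mul (hs0 n).le, Real.rpow_natCast]
      congr 1
      rw [show (2 : ℝ) = ((2 : ℕ) : ℝ) by norm_num, Real.rpow_natCast, Real.sq_sqrt (hs1 n).le]
    have e2 : (Real.sqrt (1 + sqNorm n) ^ (-α)) ^ 2 = Real.sqrt (1 + sqNorm n) ^ (-α * 2) := by
      rw [Real.rpow_mul (hs0 n).le, show (2 : ℝ) = ((2 : ℕ) : ℝ) by norm_num, Real.rpow_natCast]
    rw [hq]
    simp only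
    rw [e1, e2, ← Real.rpow_add (hs0 n), ← Real.rpow_neg (hs0 n).le]
    congr 1
    ring
  have hF : Measurable fun ω => ∑' n, ENNReal.ofReal (q n) * ‖g n ω‖ₑ ^ 2 :=
    Measurable.tsum fun n => ((hm n).enorm.pow_const 2).const_mul _
  have hI : ∫⁻ ω, ∑' n, ENNReal.ofReal (q n) * ‖g n ω‖ₑ ^ 2 ∂P ≠ ∞ := by
    rw [lintegral_tsum fun n => (((hm n).enorm.pow_const 2).const_mul _).aemeasurable]
    have : ∀ n, ∫⁻ ω, ENNReal.ofReal (q n) * ‖g n ω‖ₑ ^ 2 ∂P =
        ENNReal.ofReal (q n) * ∫⁻ z, ‖z‖ₑ ^ 2 ∂stdComplexGaussian := by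
      intro n
      rw [lintegral_const_mul _ ((hm n).enorm.pow_const 2), ← hg n,
        lintegral_map (by fun_prop) (hm n)]
    simp_rw [this]
    rw [ENNReal.tsum_mul_right, ← ENNReal.ofReal_tsum_of_nonneg hq0 hqs]
    exact (ENNReal.mul_lt_top ENNReal.ofReal_lt_top std_sq).ne
  filter_upwards [ae_lt_top hF hI] with ω hω
  have h7 := ENNReal.summable_toReal hω.ne
  unfold MemSobolev
  refine h7.congr fun n => ?_
  rw [ENNReal.toReal_mul, ENNReal.toReal_ofReal (hq0 n), ENNReal.toReal_pow, toReal_enorm]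
  unfold datum
  rw [norm_mul, Complex.norm_real, Real.norm_of_nonneg (Real.rpow_nonneg (hs0 n).le _)]
  rw [hq]
  ring

end Vale.Agent.P139.R3.H156
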