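import Vale.Agent.P139.R3.H156.Profile
import Vale.Agent.P139.R3.H156.Rat
import Mathlib.Data.Finsupp.Encodable

/-! # P139: almost sure statements on the Gaussian datum do not see an independent profile -/

open Set Filter Topology MeasureTheory ProbabilityTheory
open scoped NNReal ENNReal

namespace Vale.Agent.P139.R3.H156

open Vale.Agent.P139.A Vale.Agent.P139.H203

attribute [local instance] prob_std

variable {d : ℕ}

theorem one_add_sqNorm_pos (n : Lat d) : 0 < 1 + sqNorm n := by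
  have : 0 ≤ sqNorm n := Finset.sum_nonneg fun j _ => sq_nonneg _
  linarith

theorem sqrt_pos' (n : Lat d) : 0 < Real.sqrt (1 + sqNorm n) := Real.sqrt_pos.2 (one_add_sqNorm_pos n)

/-- The coefficients of a profile in the units of the datum. -/
noncomputable def scl (α : ℝ) (v : Lat d → ℂ) (n : Lat d) : ℂ :=
  v n * ((Real.sqrt (1 + sqNorm n) ^ α : ℝ) : ℂ)

theorem profile_iff {α : ℝ} {v : Lat d → ℂ} :
    Profile α v ↔ Summable fun n => ‖scl α v n‖ ^ 2 := by
  unfold Profile
  refine summable_congr fun n => ?_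
  unfold scl
  rw [norm_mul, Complex.norm_real, Real.norm_of_nonneg (Real.rpow_nonneg (sqrt_pos' n).le _),
    mul_pow, mul_comm]
  congr 1
  rw [← Real.rpow_natCast, ← Real.rpow_mul (sqrt_pos' n).le, mul_comm α, Real.rpow_mul (sqrt_pos' n).le,
    Real.rpow_natCast, Real.sq_sqrt (one_add_sqNorm_pos n).le]

theorem scl_mul {α : ℝ} (v : Lat d → ℂ) (n : Lat d) :
    scl α v n * ((Real.sqrt (1 + sqNorm n) ^ (-α) : ℝ) : ℂ) = v n := by
  unfold scl
  rw [mul_assoc, ← Complex.ofReal_mul, ← Real.rpow_add (sqrt_pos' n), add_neg_cancel,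
    Real.rpow_zero, Complex.ofReal_one, mul_one]

theorem measurable_scl {α : ℝ} : Measurable (scl α : (Lat d → ℂ) → Lat d → ℂ) := by
  unfold scl
  fun_prop

theorem profile_neg {α : ℝ} {v : Lat d → ℂ} (h : Profile α v) : Profile α fun n => - v n := by
  unfold Profile at h ⊢
  simpa using h

theorem sq_norm_add_le (x y : ℂ) : ‖x + y‖ ^ 2 ≤ 2 * ‖x‖ ^ 2 + 2 * ‖y‖ ^ 2 := by
  have h1 := norm_add_le x y
  have h2 := norm_nonneg (x + y)
  nlinarith [sq_nonneg (‖x‖ - ‖y‖), norm_nonneg x, norm_nonneg y]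

theorem profile_add {α : ℝ} {v w : Lat d → ℂ} (hv : Profile α v) (hw : Profile α w) :
    Profile α fun n => v n + w n := by
  unfold Profile at hv hw ⊢
  refine Summable.of_nonneg_of_le (fun n => ?_) (fun n => ?_) ((hv.mul_left 2).add (hw.mul_left 2))
  · exact mul_nonneg (Real.rpow_nonneg (one_add_sqNorm_pos n).le _) (sq_nonneg _)
  · have h1 := mul_le_mul_of_nonneg_left (sq_norm_add_le (v n) (w n))
      (Real.rpow_nonneg (one_add_sqNorm_pos n).le α)
    linarith

theorem memSobolev_sub {k : ℕ} {v w : Lat d → ℂ} (hv : MemSobolev k v) (hw : MemSobolev k w) :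
    MemSobolev k fun n => v n - w n := by
  unfold MemSobolev at hv hw ⊢
  refine Summable.of_nonneg_of_le (fun n => ?_) (fun n => ?_) ((hv.mul_left 2).add (hw.mul_left 2))
  · exact mul_nonneg (pow_nonneg (one_add_sqNorm_pos n).le _) (sq_nonneg _)
  · have h1 := mul_le_mul_of_nonneg_left (sq_norm_add_le (v n) (- w n))
      (pow_nonneg (one_add_sqNorm_pos n).le k)
    rw [norm_neg, ← sub_eq_add_neg] at h1
    linarith

theorem profile_ratSeq (α : ℝ) (r : (Fin d → ℤ) →₀ ℚ × ℚ) : Profile α (ratSeq r) := by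
  unfold Profile
  refine summable_of_ne_finset_zero (s := r.support) fun n hn => ?_
  rw [ratSeq_of_notMem hn]
  simp

/-- The random shift, for every set of sequences. -/
theorem transfer {α : ℝ} (A : Set ((Fin d → ℤ) → ℂ))
    (h0 : ∀ (Ω : Type) [MeasurableSpace Ω] (P : Measure Ω) (g : (Fin d → ℤ) → Ω → ℂ),
      StdFamily P g → ∀ᵐ ω ∂P, datum g α ω ∈ A)
    {Ω : Type*} [MeasurableSpace Ω] {P : Measure Ω} {g : (Fin d → ℤ) → Ω → ℂ}
    (hg : StdFamily P g) {V : Ω → (Fin d → ℤ) → ℂ} (hV : Measurable V)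
    (hind : IndepFun V (fun ω n => g n ω) P) (hs : ∀ᵐ ω ∂P, Profile α (V ω)) :
    ∀ᵐ ω ∂P, (fun n => V ω n + datum g α ω n) ∈ A := by
  have h1 := h0 (Lat d → ℂ) (Measure.infinitePi fun _ : Lat d => stdComplexGaussian)
    (fun n x => x n) stdFamily_canonical
  obtain ⟨N, hsub, hN, hN0⟩ := exists_measurable_superset_of_null (ae_iff.1 h1)
  have h2 := random_shift Vale.Agent.P139.R3.H597.map_add_std hN hN0 hg
    (V := fun ω => scl α (V ω)) (measurable_scl.comp hV)
    (hind.comp (measurable_scl (α := α)) measurable_id)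
    (by filter_upwards [hs] with ω hω using profile_iff.1 hω)
  filter_upwards [h2] with ω hω
  by_contra hc
  refine hω (hsub ?_)
  rw [Set.mem_ofPred_eq]
  convert hc using 2
  funext n
  unfold datum
  rw [add_mul, scl_mul, add_comm]

/-- The deterministic shift. -/
theorem transfer_det {α : ℝ} (A : Set ((Fin d → ℤ) → ℂ))
    (h0 : ∀ (Ω : Type) [MeasurableSpace Ω] (P : Measure Ω) (g : (Fin d → ℤ) → Ω → ℂ),
      StdFamily P g → ∀ᵐ ω ∂P, datum g α ω ∈ A)
    {Ω : Type*} [MeasurableSpace Ω] {P : Measure Ω} {g : (Fin d → ℤ) → Ω → ℂ}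
    (hg : StdFamily P g) {v : (Fin d → ℤ) → ℂ} (hv : Profile α v) :
    ∀ᵐ ω ∂P, (fun n => v n + datum g α ω n) ∈ A := by
  have := hg.prob
  exact transfer A h0 hg (V := fun _ => v) measurable_const (indepFun_const_left v _)
    (Eventually.of_forall fun _ => hv)

/-- The converse: one profile is enough. -/
theorem transfer_conv {α : ℝ} (A : Set ((Fin d → ℤ) → ℂ)) {v : (Fin d → ℤ) → ℂ}
    (hv : Profile α v)
    (h0 : ∀ (Ω : Type) [MeasurableSpace Ω] (P : Measure Ω) (g : (Fin d → ℤ) → Ω → ℂ),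
      StdFamily P g → ∀ᵐ ω ∂P, (fun n => v n + datum g α ω n) ∈ A)
    {Ω : Type*} [MeasurableSpace Ω] {P : Measure Ω} {g : (Fin d → ℤ) → Ω → ℂ}
    (hg : StdFamily P g) : ∀ᵐ ω ∂P, datum g α ω ∈ A := by
  have h := transfer_det {w | (fun n => v n + w n) ∈ A} h0 hg (profile_neg hv)
  filter_upwards [h] with ω hω
  simpa using hω

end Vale.Agent.P139.R3.H156
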