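import Vale.Agent.P139.H203.Emb

/-! # P139: stability of the trajectories of a locally Lipschitz field (abstract) -/

open Set Metric Filter Topology MeasureTheory
open scoped NNReal ENNReal

namespace Vale.Agent.P139.R3.H156

variable {E : Type*} [NormedAddCommGroup E] [NormedSpace ℝ E] [CompleteSpace E]

theorem flow_stable {T : ℝ} (hT : 0 ≤ T) (f : ℝ → E → E)
    (hc : ∀ x, ContinuousOn (fun t => f t x) (Icc 0 T))
    (hL : ∀ R : ℝ, ∃ L : ℝ≥0, ∀ t ∈ Icc 0 T, LipschitzOnWith L (f t) (closedBall 0 R))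
    {u : ℝ → E} (hu : ∀ t ∈ Icc 0 T, HasDerivWithinAt u (f t (u t)) (Icc 0 T) t) :
    ∀ ε > 0, ∃ δ > 0, ∀ x, ‖x - u 0‖ < δ → ∃ v : ℝ → E, v 0 = x ∧
      (∀ t ∈ Icc 0 T, HasDerivWithinAt v (f t (v t)) (Icc 0 T) t) ∧
      ∀ t ∈ Icc 0 T, ‖v t - u t‖ < ε := by
  intro ε hε
  have hcu : ContinuousOn u (Icc 0 T) := fun t ht => (hu t ht).continuousWithinAt
  obtain ⟨R0, hR0⟩ := isCompact_Icc.exists_bound_of_continuousOn hcu
  obtain ⟨M0, hM0⟩ := isCompact_Icc.exists_bound_of_continuousOn (hc 0)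
  have h0T : (0 : ℝ) ∈ Icc 0 T := ⟨le_rfl, hT⟩
  have hR00 : 0 ≤ R0 := (norm_nonneg _).trans (hR0 0 h0T)
  have hM00 : 0 ≤ M0 := (norm_nonneg _).trans (hM0 0 h0T)
  set ρ : ℝ := R0 + 1 with hρdef
  have hρ : 0 < ρ := by linarith
  obtain ⟨K, hK⟩ := hL (2 * ρ)
  have hM1 : 0 ≤ K * (2 * ρ) + M0 := by positivity
  set M : ℝ≥0 := ⟨K * (2 * ρ) + M0, hM1⟩ with hMdef
  have hM : ∀ t ∈ Icc 0 T, ∀ x ∈ closedBall (0 : E) (2 * ρ), ‖f t x‖ ≤ M := by
    intro t ht x hx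
    have h1 := (hK t ht).dist_le_mul x hx 0 (mem_closedBall_self (by linarith))
    rw [dist_eq_norm, dist_zero_right] at h1
    have h2 : ‖x‖ ≤ 2 * ρ := by simpa only [mem_closedBall, dist_zero_right] using hx
    have h3 := hM0 t ht
    calc ‖f t x‖ = ‖(f t x - f t 0) + f t 0‖ := by rw [sub_add_cancel]
      _ ≤ ‖f t x - f t 0‖ + ‖f t 0‖ := norm_add_le _ _
      _ ≤ K * (2 * ρ) + M0 := by
        have : (K : ℝ) * ‖x‖ ≤ K * (2 * ρ) := by gcongr
        linarith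
  have hcut : ∀ t (x : E), ‖x‖ ≤ ρ → cutField f ρ t x = f t x := by
    intro t x hx
    unfold cutField
    have h1 : ‖x‖ / ρ ≤ 1 := by rw [div_le_one hρ]; exact hx
    have h2 : cut (‖x‖ / ρ) = 1 := by
      unfold cut
      rw [min_eq_left (by linarith), max_eq_right (by norm_num)]
    rw [h2, one_smul]
  set K' : ℝ≥0 := K + M / ⟨ρ, hρ.le⟩ with hK'
  set q : ℝ := Real.exp (K' * T) with hq
  have hq0 : 0 < q := Real.exp_pos _
  refine ⟨min ε 1 / (2 * q), by positivity, fun x hx => ?_⟩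
  obtain ⟨v, hv0, hv⟩ := exists_cutoff f hρ K M hT hK hM hc x
  have hcv : ContinuousOn v (Icc 0 T) := fun t ht => (hv t ht).continuousWithinAt
  have hb : ∀ t ∈ Icc 0 T, dist (v t) (u t) ≤ min ε 1 / (2 * q) * Real.exp (K' * (t - 0)) := by
    refine dist_le_of_trajectories_ODE_of_mem (v := cutField f ρ) (s := fun _ => univ) (K := K')
      (fun t ht => ?_) hcv (fun t ht => ?_) (fun _ _ => trivial) hcu (fun t ht => ?_)
      (fun _ _ => trivial) ?_
    · refine LipschitzOnWith.of_dist_le_mul fun x _ y _ => ?_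
      rw [dist_eq_norm, dist_eq_norm]
      exact cutField_dist_le hρ (hK t (Ico_subset_Icc_self ht)) (hM t (Ico_subset_Icc_self ht)) x y
    · exact (hv t (Ico_subset_Icc_self ht)).mono_of_mem_nhdsWithin (Icc_mem_nhdsGE_of_mem ht)
    · have h1 := hu t (Ico_subset_Icc_self ht)
      rw [← hcut t (u t) ((hR0 t (Ico_subset_Icc_self ht)).trans (by linarith))] at h1
      exact h1.mono_of_mem_nhdsWithin (Icc_mem_nhdsGE_of_mem ht)
    · rw [hv0, dist_eq_norm]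
      exact hx.le
  have hb2 : ∀ t ∈ Icc 0 T, ‖v t - u t‖ ≤ min ε 1 / 2 := by
    intro t ht
    have h1 := hb t ht
    rw [dist_eq_norm] at h1
    refine h1.trans ?_
    have h2 : Real.exp (K' * (t - 0)) ≤ q := by
      rw [hq, sub_zero]
      apply Real.exp_le_exp.2
      exact mul_le_mul_of_nonneg_left ht.2 K'.2
    calc min ε 1 / (2 * q) * Real.exp (K' * (t - 0)) ≤ min ε 1 / (2 * q) * q := by gcongr
      _ = min ε 1 / 2 := by field_simp
  refine ⟨v, hv0, fun t ht => ?_, fun t ht => ?_⟩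
  · have h1 := hv t ht
    rw [hcut t (v t)] at h1
    · exact h1
    · have h2 := hb2 t ht
      have h3 := hR0 t ht
      have h4 : min ε 1 ≤ 1 := min_le_right _ _
      have h5 := norm_sub_norm_le (v t) (u t)
      linarith
  · have h2 := hb2 t ht
    have h4 : min ε 1 ≤ ε := min_le_left _ _
    have h5 : 0 < min ε 1 := by positivity
    linarith

omit [CompleteSpace E] in
theorem flow_unique {T : ℝ} (f : ℝ → E → E)
    (hL : ∀ R : ℝ, ∃ L : ℝ≥0, ∀ t ∈ Icc 0 T, LipschitzOnWith L (f t) (closedBall 0 R))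
    {u v : ℝ → E} (hu : ∀ t ∈ Icc 0 T, HasDerivWithinAt u (f t (u t)) (Icc 0 T) t)
    (hv : ∀ t ∈ Icc 0 T, HasDerivWithinAt v (f t (v t)) (Icc 0 T) t) (h0 : u 0 = v 0) :
    ∀ t ∈ Icc 0 T, u t = v t := by
  have hcu : ContinuousOn u (Icc 0 T) := fun t ht => (hu t ht).continuousWithinAt
  have hcv : ContinuousOn v (Icc 0 T) := fun t ht => (hv t ht).continuousWithinAt
  obtain ⟨R1, hR1⟩ := isCompact_Icc.exists_bound_of_continuousOn hcu
  obtain ⟨R2, hR2⟩ := isCompact_Icc.exists_bound_of_continuousOn hcv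
  obtain ⟨K, hK⟩ := hL (max R1 R2)
  intro t ht
  have h1 := dist_le_of_trajectories_ODE_of_mem (v := f) (s := fun _ => closedBall 0 (max R1 R2))
    (K := K) (δ := 0) (fun t ht => hK t (Ico_subset_Icc_self ht)) hcu
    (fun t ht => (hu t (Ico_subset_Icc_self ht)).mono_of_mem_nhdsWithin (Icc_mem_nhdsGE_of_mem ht))
    (fun t ht => by
      rw [mem_closedBall, dist_zero_right]
      exact (hR1 t (Ico_subset_Icc_self ht)).trans (le_max_left _ _)) hcv
    (fun t ht => (hv t (Ico_subset_Icc_self ht)).mono_of_mem_nhdsWithin (Icc_mem_nhdsGE_of_mem ht))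
    (fun t ht => by
      rw [mem_closedBall, dist_zero_right]
      exact (hR2 t (Ico_subset_Icc_self ht)).trans (le_max_right _ _))
    (by rw [h0, dist_self]) t ht
  rw [zero_mul] at h1
  exact dist_le_zero.1 h1

/-- The data with a solution on `[0, T]`. -/
def Dom (f : ℝ → E → E) (T : ℝ) : Set E :=
  {x | ∃ u : ℝ → E, u 0 = x ∧ ∀ t ∈ Icc 0 T, HasDerivWithinAt u (f t (u t)) (Icc 0 T) t}

open Classical in
/-- The end point at time `T` of the solution with datum `x`. -/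
noncomputable def Endp (f : ℝ → E → E) (T : ℝ) (x : E) : E :=
  if h : x ∈ Dom f T then h.choose T else 0

omit [CompleteSpace E] in
theorem endp_eq {T : ℝ} (hT : 0 ≤ T) (f : ℝ → E → E)
    (hL : ∀ R : ℝ, ∃ L : ℝ≥0, ∀ t ∈ Icc 0 T, LipschitzOnWith L (f t) (closedBall 0 R))
    {u : ℝ → E} (hu : ∀ t ∈ Icc 0 T, HasDerivWithinAt u (f t (u t)) (Icc 0 T) t) :
    Endp f T (u 0) = u T := by
  have h : u 0 ∈ Dom f T := ⟨u, rfl, hu⟩
  unfold Endp
  rw [dif_pos h]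
  exact flow_unique f hL h.choose_spec.2 hu h.choose_spec.1 T ⟨hT, le_rfl⟩

theorem isOpen_Dom {T : ℝ} (hT : 0 ≤ T) (f : ℝ → E → E)
    (hc : ∀ x, ContinuousOn (fun t => f t x) (Icc 0 T))
    (hL : ∀ R : ℝ, ∃ L : ℝ≥0, ∀ t ∈ Icc 0 T, LipschitzOnWith L (f t) (closedBall 0 R)) :
    IsOpen (Dom f T) := by
  rw [Metric.isOpen_iff]
  rintro x ⟨u, rfl, hu⟩
  obtain ⟨δ, hδ, h⟩ := flow_stable hT f hc hL hu 1 one_pos
  refine ⟨δ, hδ, fun y hy => ?_⟩
  rw [mem_ball, dist_eq_norm] at hy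
  obtain ⟨v, hv0, hv, _⟩ := h y hy
  exact ⟨v, hv0, hv⟩

theorem continuousOn_Endp {T : ℝ} (hT : 0 ≤ T) (f : ℝ → E → E)
    (hc : ∀ x, ContinuousOn (fun t => f t x) (Icc 0 T))
    (hL : ∀ R : ℝ, ∃ L : ℝ≥0, ∀ t ∈ Icc 0 T, LipschitzOnWith L (f t) (closedBall 0 R)) :
    ContinuousOn (Endp f T) (Dom f T) := by
  rw [Metric.continuousOn_iff]
  rintro x ⟨u, rfl, hu⟩ ε hε
  obtain ⟨δ, hδ, h⟩ := flow_stable hT f hc hL hu ε hε
  refine ⟨δ, hδ, fun y _ hy => ?_⟩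
  rw [dist_eq_norm] at hy
  obtain ⟨v, rfl, hv, hvu⟩ := h y hy
  rw [endp_eq hT f hL hv, endp_eq hT f hL hu, dist_eq_norm]
  exact hvu T ⟨hT, le_rfl⟩

end Vale.Agent.P139.R3.H156
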