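import Vale.Agent.P139.H203.Prob

/-! # P139: for `α > k + d / 2` the law of the random datum charges every nonempty open subset of
`H^k` -/

open Set Metric Filter Topology MeasureTheory ProbabilityTheory
open scoped NNReal ENNReal

namespace Vale.Agent.P139.R3.H156

open Vale.Agent.P139.A Vale.Agent.P139.A.WA Vale.Agent.P139.H836 Vale.Agent.P139.H203

variable {d k : ℕ}

theorem gauss_pos' (x : ℝ) {r : ℝ} (hr : 0 < r) :
    0 < gaussianReal 0 (1 / 2) (Ioo (x - r) (x + r)) := by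
  rw [pos_iff_ne_zero]
  intro h
  have h1 := gaussianReal_absolutelyContinuous' 0 (v := 1 / 2) (by norm_num) h
  rw [Real.volume_Ioo] at h1
  simp only [ENNReal.ofReal_eq_zero] at h1
  linarith

theorem std_pos' (z : ℂ) {r : ℝ} (hr : 0 < r) : 0 < stdComplexGaussian (closedBall z r) := by
  unfold stdComplexGaussian
  rw [Measure.map_apply measurable_mkC measurableSet_closedBall]
  refine lt_of_lt_of_le ?_ (measure_mono (s := Ioo (z.re - r / 2) (z.re + r / 2) ×ˢ
    Ioo (z.im - r / 2) (z.im + r / 2)) ?_)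
  · rw [Measure.prod_prod]
    have h1 := gauss_pos' z.re (half_pos hr)
    have h2 := gauss_pos' z.im (half_pos hr)
    exact ENNReal.mul_pos h1.ne' h2.ne'
  · rintro ⟨x, y⟩ ⟨hx, hy⟩
    simp only [mem_preimage, mem_closedBall, dist_eq_norm]
    have h1 : ‖(⟨x, y⟩ : ℂ) - z‖ ≤ |x - z.re| + |y - z.im| := by
      have := Complex.norm_le_abs_re_add_abs_im ((⟨x, y⟩ : ℂ) - z)
      simpa using this
    have h2 : |x - z.re| ≤ r / 2 := by
      rw [abs_le]; constructor <;> linarith [hx.1, hx.2]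
    have h3 : |y - z.im| ≤ r / 2 := by
      rw [abs_le]; constructor <;> linarith [hy.1, hy.2]
    linarith

theorem gauss_sq : ∫⁻ x, ‖x‖ₑ ^ 2 ∂(gaussianReal 0 (1 / 2)) < ∞ := by
  have h := (memLp_id_gaussianReal (μ := 0) (v := 1 / 2) 2).2
  rw [eLpNorm_lt_top_iff_lintegral_rpow_enorm_lt_top (by norm_num) (by norm_num)] at h
  simpa using h

theorem std_sq : ∫⁻ z, ‖z‖ₑ ^ 2 ∂stdComplexGaussian < ∞ := by
  unfold stdComplexGaussian
  rw [lintegral_map (by fun_prop) measurable_mkC]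
  have h1 : ∀ z : ℝ × ℝ, ‖(⟨z.1, z.2⟩ : ℂ)‖ₑ ^ 2 = ‖z.1‖ₑ ^ 2 + ‖z.2‖ₑ ^ 2 := by
    intro z
    have e1 : ∀ x : ℝ, ‖x‖ₑ ^ 2 = ENNReal.ofReal (x ^ 2) := fun x => by
      rw [← ofReal_norm, ← ENNReal.ofReal_pow (norm_nonneg _), Real.norm_eq_abs, sq_abs]
    rw [e1, e1, ← ENNReal.ofReal_add (sq_nonneg _) (sq_nonneg _), ← ofReal_norm,
      ← ENNReal.ofReal_pow (norm_nonneg _)]
    congr 1
    rw [← Complex.normSq_eq_norm_sq, Complex.normSq_mk]
    ring
  simp_rw [h1]
  rw [lintegral_add_left (by fun_prop)]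
  refine ENNReal.add_lt_top.2 ⟨?_, ?_⟩
  · have h2 := (measurePreserving_fst (μ := gaussianReal 0 (1 / 2))
      (ν := gaussianReal 0 (1 / 2))).lintegral_comp (f := fun x : ℝ => ‖x‖ₑ ^ 2) (by fun_prop)
    rw [h2]
    exact gauss_sq
  · have h2 := (measurePreserving_snd (μ := gaussianReal 0 (1 / 2))
      (ν := gaussianReal 0 (1 / 2))).lintegral_comp (f := fun x : ℝ => ‖x‖ₑ ^ 2) (by fun_prop)
    rw [h2]
    exact gauss_sq

theorem meas_tail2 {Ω : Type*} [MeasurableSpace Ω] (g : Lat d → Ω → ℂ) (s : Finset (Lat d))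
    (c : Lat d → ℝ≥0∞) (h : ∀ n ∉ s, Measurable (g n)) :
    Measurable fun ω => ∑' n, if n ∈ s then 0 else c n * ‖g n ω‖ₑ ^ 2 := by
  refine Measurable.tsum fun n => ?_
  by_cases hn : n ∈ s
  · simp only [hn, if_true]
    exact measurable_const
  · simp only [hn, if_false]
    exact ((h n hn).enorm.pow_const 2).const_mul _

theorem meas_near {Ω : Type*} [MeasurableSpace Ω] (g : Lat d → Ω → ℂ) (s : Finset (Lat d))
    (b : Lat d → ℂ) (r : ℝ) (h : ∀ n ∈ s, Measurable (g n)) :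
    MeasurableSet (⋂ n ∈ s, g n ⁻¹' closedBall (b n) r) :=
  Finset.measurableSet_biInter _ fun n hn => h n hn measurableSet_closedBall

/-- a finite set outside of which a summable family is small -/
theorem exists_tail {q : Lat d → ℝ} (hq0 : ∀ n, 0 ≤ q n) (hq : Summable q) {η : ℝ} (hη : 0 < η) :
    ∃ s : Finset (Lat d), ∀ t : Finset (Lat d), s ⊆ t →
      Summable (fun n => if n ∈ t then 0 else q n) ∧ ∑' n, (if n ∈ t then 0 else q n) < η := by
  classical
  have h1 : Tendsto (fun s : Finset (Lat d) => ∑ n ∈ s, q n) atTop (𝓝 (∑' n, q n)) := hq.hasSum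
  obtain ⟨s, hs⟩ := (h1.eventually (lt_mem_nhds (sub_lt_self _ hη))).exists_forall_of_atTop
  refine ⟨s, fun t ht => ?_⟩
  have hs' := hs t ht
  refine ⟨Summable.of_nonneg_of_le (fun n => by split_ifs <;> simp [hq0])
    (fun n => by split_ifs <;> simp [hq0]) hq, ?_⟩
  have h1 : ∀ n, (if n ∈ t then 0 else q n) = q n - (if n ∈ t then q n else 0) := fun n => by
    split_ifs <;> simp
  have h2 : Summable fun n => if n ∈ t then q n else 0 :=
    summable_of_ne_finset_zero (s := t) fun n hn => by simp [hn]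
  have h3 : (∑' n, if n ∈ t then q n else 0) = ∑ n ∈ t, q n := by
    rw [tsum_eq_sum (s := t) (fun n hn => if_neg hn)]
    exact Finset.sum_congr rfl fun n hn => if_pos hn
  rw [tsum_congr h1, hq.tsum_sub h2, h3]
  linarith

/-- A weighted square sum of independent complex Gaussians is close to a given one with positive
probability. -/
theorem near_ball {Ω : Type*} [mΩ : MeasurableSpace Ω] (P : Measure Ω) [IsProbabilityMeasure P]
    (g : Lat d → Ω → ℂ) (hm : ∀ n, Measurable (g n)) (hind : iIndepFun g P)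
    (hg : ∀ n, P.map (g n) = stdComplexGaussian) {q : Lat d → ℝ} (hq0 : ∀ n, 0 ≤ q n)
    (hq : Summable q) (b : Lat d → ℂ) (hb : Summable fun n => q n * ‖b n‖ ^ 2)
    {ρ : ℝ} (hρ : 0 < ρ) :
    0 < P {ω | ∑' n, ENNReal.ofReal (q n) * ‖g n ω - b n‖ₑ ^ 2 ≤ ENNReal.ofReal ρ} := by
  classical
  set mom : ℝ≥0∞ := ∫⁻ z, ‖z‖ₑ ^ 2 ∂stdComplexGaussian with hmom
  have hmomT : mom ≠ ∞ := std_sq.ne
  set η : ℝ := ρ / (16 * (mom.toReal + 1)) with hη
  have hm0 : 0 ≤ mom.toReal := ENNReal.toReal_nonneg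
  have hη0 : 0 < η := by positivity
  obtain ⟨s₁, hs₁⟩ := exists_tail hq0 hq hη0
  obtain ⟨s₂, hs₂⟩ := exists_tail (q := fun n => q n * ‖b n‖ ^ 2)
    (fun n => mul_nonneg (hq0 n) (by positivity)) hb (η := ρ / 8) (by positivity)
  set s : Finset (Lat d) := s₁ ∪ s₂ with hs
  obtain ⟨hq's, hq't⟩ := hs₁ s Finset.subset_union_left
  obtain ⟨hb's, hb't⟩ := hs₂ s Finset.subset_union_right
  -- the tail
  set τ : Ω → ℝ≥0∞ := fun ω => ∑' n, if n ∈ s then 0 else ENNReal.ofReal (q n) * ‖g n ω‖ₑ ^ 2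
    with hτ
  have hτm : Measurable τ := meas_tail2 g s _ fun n _ => hm n
  have hτi : ∫⁻ ω, τ ω ∂P ≤ ENNReal.ofReal (ρ / 16) := by
    have h1 : ∀ n, Measurable fun ω => if n ∈ s then (0 : ℝ≥0∞) else
        ENNReal.ofReal (q n) * ‖g n ω‖ₑ ^ 2 := by
      intro n
      by_cases hn : n ∈ s
      · simp only [hn, if_true]; exact measurable_const
      · simp only [hn, if_false]; exact ((hm n).enorm.pow_const 2).const_mul _
    simp only [hτ]
    rw [lintegral_tsum fun n => (h1 n).aemeasurable]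
    have h2 : ∀ n, ∫⁻ ω, (if n ∈ s then (0 : ℝ≥0∞) else
        ENNReal.ofReal (q n) * ‖g n ω‖ₑ ^ 2) ∂P =
        ENNReal.ofReal (if n ∈ s then 0 else q n) * mom := by
      intro n
      by_cases hn : n ∈ s
      · simp [hn]
      · simp only [hn, if_false]
        rw [lintegral_const_mul _ ((hm n).enorm.pow_const 2), hmom, ← hg n,
          lintegral_map (by fun_prop) (hm n)]
    simp_rw [h2]
    have hq'0 : ∀ n, 0 ≤ (if n ∈ s then 0 else q n) := fun n => by split_ifs <;> simp [hq0]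
    rw [ENNReal.tsum_mul_right, ← ENNReal.ofReal_tsum_of_nonneg hq'0 hq's,
      ← ENNReal.ofReal_toReal hmomT, ← ENNReal.ofReal_mul (tsum_nonneg hq'0)]
    apply ENNReal.ofReal_le_ofReal
    calc (∑' n, if n ∈ s then 0 else q n) * mom.toReal ≤ η * (mom.toReal + 1) := by
          gcongr
          linarith
      _ = ρ / 16 := by rw [hη]; field_simp
  have hB : 0 < P {ω | τ ω < ENNReal.ofReal (ρ / 8)} := by
    have h1 := mul_meas_ge_le_lintegral (μ := P) hτm (ENNReal.ofReal (ρ / 8))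
    have h2 : P {ω | ENNReal.ofReal (ρ / 8) ≤ τ ω} ≤ 1 / 2 := by
      have h3 : ENNReal.ofReal (ρ / 8) * P {ω | ENNReal.ofReal (ρ / 8) ≤ τ ω} ≤
          ENNReal.ofReal (ρ / 8) * (1 / 2) := by
        refine (h1.trans hτi).trans (le_of_eq ?_)
        rw [show (1 / 2 : ℝ≥0∞) = ENNReal.ofReal (1 / 2) by
          rw [ENNReal.ofReal_div_of_pos (by norm_num)]; simp, ← ENNReal.ofReal_mul (by positivity)]
        congr 1
        ring
      exact (ENNReal.mul_le_mul_iff_right (ENNReal.ofReal_pos.2 (by positivity)).ne'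
        ENNReal.ofReal_ne_top).1 h3
    have h3 : {ω | τ ω < ENNReal.ofReal (ρ / 8)} = {ω | ENNReal.ofReal (ρ / 8) ≤ τ ω}ᶜ := by
      ext ω; simp
    rw [h3, prob_compl_eq_one_sub (measurableSet_le measurable_const hτm)]
    have h4 : (1 / 2 : ℝ≥0∞) < 1 := by
      rw [one_div]; exact ENNReal.one_half_lt_one
    exact tsub_pos_of_lt (h2.trans_lt h4)
  -- the low modes
  set Q : ℝ := ∑ n ∈ s, q n with hQ
  have hQ0 : 0 ≤ Q := Finset.sum_nonneg fun n _ => hq0 n
  set r : ℝ := Real.sqrt (ρ / (2 * (Q + 1))) with hr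
  have hr0 : 0 < r := Real.sqrt_pos.2 (by positivity)
  have hr2 : r ^ 2 = ρ / (2 * (Q + 1)) := Real.sq_sqrt (by positivity)
  have hA : 0 < P (⋂ n ∈ s, g n ⁻¹' closedBall (b n) r) := by
    rw [hind.measure_inter_preimage_eq_mul s fun n _ => measurableSet_closedBall]
    rw [pos_iff_ne_zero, Finset.prod_ne_zero_iff]
    intro n _
    rw [← Measure.map_apply (hm n) measurableSet_closedBall, hg n]
    exact (std_pos' (b n) hr0).ne'
  -- independence
  have hI := indep_iSup_of_disjoint (m := fun n => MeasurableSpace.comap (g n) inferInstance)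
    (fun n => (hm n).comap_le) hind (S := (s : Set (Lat d))) (T := (s : Set (Lat d))ᶜ)
    disjoint_compl_right
  have hAm : MeasurableSet[⨆ n ∈ (s : Set (Lat d)), MeasurableSpace.comap (g n) inferInstance]
      (⋂ n ∈ s, g n ⁻¹' closedBall (b n) r) :=
    @meas_near d Ω (⨆ n ∈ (s : Set (Lat d)), MeasurableSpace.comap (g n) inferInstance) g s b r
      fun n hn => Measurable.of_comap_le
        (le_iSup₂_of_le (f := fun n (_ : n ∈ (s : Set (Lat d))) =>
          MeasurableSpace.comap (g n) inferInstance) n hn le_rfl)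
  have hBm : MeasurableSet[⨆ n ∈ (s : Set (Lat d))ᶜ, MeasurableSpace.comap (g n) inferInstance]
      {ω | τ ω < ENNReal.ofReal (ρ / 8)} := by
    have h1 := @meas_tail2 d Ω (⨆ n ∈ (s : Set (Lat d))ᶜ, MeasurableSpace.comap (g n) inferInstance)
      g s (fun n => ENNReal.ofReal (q n)) fun n hn => Measurable.of_comap_le
        (le_iSup₂_of_le (f := fun n (_ : n ∈ (s : Set (Lat d))ᶜ) =>
          MeasurableSpace.comap (g n) inferInstance) n hn le_rfl)
    exact h1 measurableSet_Iio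
  have hAB := (Indep_iff _ _ _).1 hI _ _ hAm hBm
  have hpos : 0 < P ((⋂ n ∈ s, g n ⁻¹' closedBall (b n) r) ∩
      {ω | τ ω < ENNReal.ofReal (ρ / 8)}) := by
    rw [hAB]
    exact ENNReal.mul_pos hA.ne' hB.ne'
  refine hpos.trans_le (measure_mono ?_)
  rintro ω ⟨hω1, hω2⟩
  simp only [mem_iInter, mem_preimage, mem_closedBall, dist_eq_norm] at hω1
  simp only [mem_ofPred_eq] at hω2 ⊢
  have h2sq : ∀ x y : ℂ, ‖x - y‖ₑ ^ 2 ≤ 2 * ‖x‖ₑ ^ 2 + 2 * ‖y‖ₑ ^ 2 := by
    intro x y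
    rw [← ofReal_norm, ← ofReal_norm, ← ofReal_norm, ← ENNReal.ofReal_pow (norm_nonneg _),
      ← ENNReal.ofReal_pow (norm_nonneg _), ← ENNReal.ofReal_pow (norm_nonneg _),
      show (2 : ℝ≥0∞) = ENNReal.ofReal 2 by simp, ← ENNReal.ofReal_mul (by norm_num),
      ← ENNReal.ofReal_mul (by norm_num), ← ENNReal.ofReal_add (by positivity) (by positivity)]
    apply ENNReal.ofReal_le_ofReal
    have h1 := norm_sub_le x y
    have h2 := norm_nonneg (x - y)
    nlinarith [sq_nonneg (‖x‖ - ‖y‖), norm_nonneg x, norm_nonneg y]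
  have h1 : ∀ n, ENNReal.ofReal (q n) * ‖g n ω - b n‖ₑ ^ 2 ≤
      (if n ∈ s then ENNReal.ofReal (q n * r ^ 2) else 0) +
      (2 * (if n ∈ s then 0 else ENNReal.ofReal (q n) * ‖g n ω‖ₑ ^ 2) +
        2 * ENNReal.ofReal (if n ∈ s then 0 else q n * ‖b n‖ ^ 2)) := by
    intro n
    by_cases hn : n ∈ s
    · simp only [hn, if_true, mul_zero, ENNReal.ofReal_zero, add_zero]
      rw [ENNReal.ofReal_mul (hq0 n), ENNReal.ofReal_pow hr0.le, ← ofReal_norm]
      gcongr
      exact hω1 n hn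
    · simp only [hn, if_false, zero_add]
      calc ENNReal.ofReal (q n) * ‖g n ω - b n‖ₑ ^ 2
          ≤ ENNReal.ofReal (q n) * (2 * ‖g n ω‖ₑ ^ 2 + 2 * ‖b n‖ₑ ^ 2) := by
            gcongr
            exact h2sq _ _
        _ = 2 * (ENNReal.ofReal (q n) * ‖g n ω‖ₑ ^ 2) +
            2 * (ENNReal.ofReal (q n) * ‖b n‖ₑ ^ 2) := by ring
        _ = _ := by
            rw [ENNReal.ofReal_mul (hq0 n), ENNReal.ofReal_pow (norm_nonneg _), ofReal_norm]
  calc ∑' n, ENNReal.ofReal (q n) * ‖g n ω - b n‖ₑ ^ 2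
      ≤ ∑' n, ((if n ∈ s then ENNReal.ofReal (q n * r ^ 2) else 0) +
        (2 * (if n ∈ s then 0 else ENNReal.ofReal (q n) * ‖g n ω‖ₑ ^ 2) +
          2 * ENNReal.ofReal (if n ∈ s then 0 else q n * ‖b n‖ ^ 2))) := ENNReal.tsum_le_tsum h1
    _ = (∑' n, if n ∈ s then ENNReal.ofReal (q n * r ^ 2) else 0) +
        (2 * τ ω + 2 * ∑' n, ENNReal.ofReal (if n ∈ s then 0 else q n * ‖b n‖ ^ 2)) := by
        rw [ENNReal.tsum_add, ENNReal.tsum_add, ENNReal.tsum_mul_left, ENNReal.tsum_mul_left]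
    _ = ENNReal.ofReal (Q * r ^ 2) +
        (2 * τ ω + 2 * ENNReal.ofReal (∑' n, if n ∈ s then 0 else q n * ‖b n‖ ^ 2)) := by
        congr 1
        · rw [tsum_eq_sum (s := s) (fun n hn => if_neg hn),
            Finset.sum_congr rfl fun n hn => if_pos hn,
            ← ENNReal.ofReal_sum_of_nonneg fun n _ => mul_nonneg (hq0 n) (by positivity), hQ,
            Finset.sum_mul]
        · rw [ENNReal.ofReal_tsum_of_nonneg (fun n => by
            split_ifs
            · exact le_rfl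
            · exact mul_nonneg (hq0 n) (by positivity)) hb's]
    _ ≤ ENNReal.ofReal (ρ / 2) + (2 * ENNReal.ofReal (ρ / 8) + 2 * ENNReal.ofReal (ρ / 8)) := by
        gcongr
        rw [hr2, mul_div_assoc', div_le_div_iff₀ (by positivity) (by positivity)]
        nlinarith
    _ = ENNReal.ofReal ρ := by
        rw [show (2 : ℝ≥0∞) = ENNReal.ofReal 2 by simp, ← ENNReal.ofReal_mul (by norm_num),
          ← ENNReal.ofReal_add (by positivity) (by positivity),
          ← ENNReal.ofReal_add (by positivity) (by positivity)]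
        congr 1
        ring

/-- The law of the datum charges every nonempty open subset of `H^k`, `α > k + d / 2`. -/
theorem full_support {Ω : Type*} [MeasurableSpace Ω] (P : Measure Ω) [IsProbabilityMeasure P]
    (g : Lat d → Ω → ℂ) (hm : ∀ n, Measurable (g n)) (hind : iIndepFun g P)
    (hg : ∀ n, P.map (g n) = stdComplexGaussian) {α : ℝ} (hα : (k : ℝ) + d / 2 < α)
    {a : Lat d → ℂ} (ha : MemSobolev k a) {δ : ℝ} (hδ : 0 < δ) :
    0 < P {ω | MemSobolev k (datum g α ω) ∧ sobolevSq k (fun n => datum g α ω n - a n) < δ} := by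
  have hs1 : ∀ n : Lat d, 0 < 1 + sqNorm n := fun n => by
    have : 0 ≤ sqNorm n := Finset.sum_nonneg fun j _ => sq_nonneg _
    linarith
  have hs0 : ∀ n : Lat d, 0 < Real.sqrt (1 + sqNorm n) := fun n => Real.sqrt_pos.2 (hs1 n)
  set q : Lat d → ℝ := fun n => (1 + sqNorm n) ^ k * (Real.sqrt (1 + sqNorm n) ^ (-α)) ^ 2 with hq
  have hq0 : ∀ n, 0 ≤ q n := fun n => by
    have := hs1 n
    positivity
  have hqs : Summable q := by
    refine (summable_rpow_weight (d := d) (β := 2 * α - 2 * k) (by linarith)).congr fun n => ?_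
    have e1 : (1 + sqNorm n) ^ k = Real.sqrt (1 + sqNorm n) ^ (2 * (k : ℝ)) := by
      rw [Real.rpow_mul (hs0 n).le, Real.rpow_natCast]
      congr 1
      rw [show (2 : ℝ) = ((2 : ℕ) : ℝ) by norm_num, Real.rpow_natCast, Real.sq_sqrt (hs1 n).le]
    have e2 : (Real.sqrt (1 + sqNorm n) ^ (-α)) ^ 2 = Real.sqrt (1 + sqNorm n) ^ (-α * 2) := by
      rw [Real.rpow_mul (hs0 n).le, show (2 : ℝ) = ((2 : ℕ) : ℝ) by norm_num, Real.rpow_natCast]
    rw [hq]
    simp only
    rw [e1, e2, ← Real.rpow_add (hs0 n), ← Real.rpow_neg (hs0 n).le]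
    congr 1
    ring
  set b : Lat d → ℂ := fun n => a n * ((Real.sqrt (1 + sqNorm n) ^ α : ℝ) : ℂ) with hb
  have hcancel : ∀ n : Lat d,
      Real.sqrt (1 + sqNorm n) ^ α * Real.sqrt (1 + sqNorm n) ^ (-α) = 1 := fun n => by
    rw [← Real.rpow_add (hs0 n), add_neg_cancel, Real.rpow_zero]
  have hterm : ∀ ω n, q n * ‖g n ω - b n‖ ^ 2 =
      (1 + sqNorm n) ^ k * ‖datum g α ω n - a n‖ ^ 2 := by
    intro ω n
    have e1 : datum g α ω n - a n =
        (g n ω - b n) * ((Real.sqrt (1 + sqNorm n) ^ (-α) : ℝ) : ℂ) := by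
      rw [hb]
      unfold datum
      have : a n = a n * (((Real.sqrt (1 + sqNorm n) ^ α : ℝ) : ℂ) *
          ((Real.sqrt (1 + sqNorm n) ^ (-α) : ℝ) : ℂ)) := by
        rw [← Complex.ofReal_mul, hcancel, Complex.ofReal_one, mul_one]
      simp only
      linear_combination -this
    rw [e1, norm_mul, Complex.norm_real, Real.norm_of_nonneg (Real.rpow_nonneg (hs0 n).le _), hq]
    ring
  have hbs : Summable fun n => q n * ‖b n‖ ^ 2 := by
    refine ha.congr fun n => ?_
    have e1 : ‖b n‖ = ‖a n‖ * Real.sqrt (1 + sqNorm n) ^ α := by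
      rw [hb]
      simp only
      rw [norm_mul, Complex.norm_real, Real.norm_of_nonneg (Real.rpow_nonneg (hs0 n).le _)]
    rw [e1, hq]
    simp only
    have := hcancel n
    calc (1 + sqNorm n) ^ k * ‖a n‖ ^ 2 = (1 + sqNorm n) ^ k * ‖a n‖ ^ 2 *
          (Real.sqrt (1 + sqNorm n) ^ α * Real.sqrt (1 + sqNorm n) ^ (-α)) ^ 2 := by
            rw [this]; ring
      _ = _ := by ring
  refine (near_ball P g hm hind hg hq0 hqs b hbs (half_pos hδ)).trans_le (measure_mono ?_)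
  intro ω hω
  simp only [mem_ofPred_eq] at hω ⊢
  have hE : ∀ n, ENNReal.ofReal (q n) * ‖g n ω - b n‖ₑ ^ 2 =
      ENNReal.ofReal ((1 + sqNorm n) ^ k * ‖datum g α ω n - a n‖ ^ 2) := by
    intro n
    rw [← hterm, ENNReal.ofReal_mul (hq0 n), ENNReal.ofReal_pow (norm_nonneg _), ofReal_norm]
  simp_rw [hE] at hω
  have hnn : ∀ n, 0 ≤ (1 + sqNorm n) ^ k * ‖datum g α ω n - a n‖ ^ 2 := fun n => by
    have := hs1 n
    positivity
  have hsum : Summable fun n => (1 + sqNorm n) ^ k * ‖datum g α ω n - a n‖ ^ 2 := by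
    have h1 : ∑' n, ENNReal.ofReal ((1 + sqNorm n) ^ k * ‖datum g α ω n - a n‖ ^ 2) ≠ ∞ :=
      (hω.trans_lt ENNReal.ofReal_lt_top).ne
    exact (ENNReal.summable_toReal h1).congr fun n => ENNReal.toReal_ofReal (hnn n)
  rw [← ENNReal.ofReal_tsum_of_nonneg hnn hsum, ENNReal.ofReal_le_ofReal_iff (half_pos hδ).le] at hω
  refine ⟨?_, ?_⟩
  · refine Summable.of_nonneg_of_le (fun n => ?_) (fun n => ?_) ((hsum.mul_left 2).add
      (ha.mul_left 2))
    · have := hs1 n
      positivity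
    · have h1 : ‖datum g α ω n‖ ≤ ‖datum g α ω n - a n‖ + ‖a n‖ := by
        have := norm_add_le (datum g α ω n - a n) (a n)
        simpa using this
      have h2 : ‖datum g α ω n‖ ^ 2 ≤ 2 * ‖datum g α ω n - a n‖ ^ 2 + 2 * ‖a n‖ ^ 2 := by
        nlinarith [sq_nonneg (‖datum g α ω n - a n‖ - ‖a n‖), norm_nonneg (datum g α ω n),
          norm_nonneg (datum g α ω n - a n), norm_nonneg (a n)]
      have h3 : 0 ≤ (1 + sqNorm n) ^ k := by
        have := hs1 n
        positivity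
      nlinarith [mul_le_mul_of_nonneg_left h2 h3]
  · unfold sobolevSq
    linarith

end Vale.Agent.P139.R3.H156
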