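import Vale.Agent.P139.H203.Emb

/-! # P139: the product estimate in `H^k`, `2 k > d` -/

open Set Metric Filter Topology MeasureTheory
open scoped NNReal ENNReal

namespace Vale.Agent.P139.R3.H156

open Vale.Agent.P139.A Vale.Agent.P139.A.WA Vale.Agent.P139.H836 Vale.Agent.P139.H203

/-- Young's inequality, `l^2 * l^1` in `l^2`. -/
theorem young {G : Type*} [AddCommGroup G] {A β : G → ℝ} (hA0 : ∀ m, 0 ≤ A m)
    (hβ0 : ∀ m, 0 ≤ β m) (hA : Summable fun m => A m ^ 2) (hβ : Summable β) :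
    (∀ n, Summable fun m => A m * β (n - m)) ∧
    (Summable fun n => (∑' m, A m * β (n - m)) ^ 2) ∧
    ∑' n, (∑' m, A m * β (n - m)) ^ 2 ≤ (∑' m, A m ^ 2) * (∑' m, β m) ^ 2 := by
  set Q : ℝ := ∑' m, β m with hQ
  have hQ0 : 0 ≤ Q := tsum_nonneg hβ0
  have hβn : ∀ n, Summable fun m => β (n - m) := fun n =>
    (Equiv.summable_iff (f := β) (Equiv.subLeft n)).2 hβ
  have hβn' : ∀ n, ∑' m, β (n - m) = Q := fun n => Equiv.tsum_eq (Equiv.subLeft n) β
  have hβm : ∀ m, Summable fun n => β (n - m) := fun m =>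
    (Equiv.summable_iff (f := β) (Equiv.subRight m)).2 hβ
  have hβm' : ∀ m, ∑' n, β (n - m) = Q := fun m => Equiv.tsum_eq (Equiv.subRight m) β
  have hβle : ∀ n, β n ≤ Q := fun n => hβ.le_tsum n fun j _ => hβ0 j
  have hP : ∀ n, Summable fun m => A m ^ 2 * β (n - m) := fun n =>
    Summable.of_nonneg_of_le (fun m => mul_nonneg (sq_nonneg _) (hβ0 _))
      (fun m => mul_le_mul_of_nonneg_left (hβle _) (sq_nonneg _)) (hA.mul_right Q)
  have hP0 : ∀ n, 0 ≤ ∑' m, A m ^ 2 * β (n - m) := fun n =>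
    tsum_nonneg fun m => mul_nonneg (sq_nonneg _) (hβ0 _)
  have h1 : ∀ n, ∀ t : Finset G, ∑ m ∈ t, A m * β (n - m) ≤
      Real.sqrt ((∑' m, A m ^ 2 * β (n - m)) * Q) := by
    intro n t
    apply Real.le_sqrt_of_sq_le
    calc (∑ m ∈ t, A m * β (n - m)) ^ 2
        ≤ (∑ m ∈ t, A m ^ 2 * β (n - m)) * ∑ m ∈ t, β (n - m) := by
          refine Finset.sum_sq_le_sum_mul_sum_of_sq_le_mul t
            (fun m _ => mul_nonneg (sq_nonneg _) (hβ0 _)) (fun m _ => hβ0 _)
            (fun m _ => le_of_eq ?_)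
          ring
      _ ≤ (∑' m, A m ^ 2 * β (n - m)) * Q := by
          refine mul_le_mul ((hP n).sum_le_tsum t fun m _ => mul_nonneg (sq_nonneg _) (hβ0 _)) ?_
            (Finset.sum_nonneg fun m _ => hβ0 _) (hP0 n)
          rw [← hβn' n]
          exact (hβn n).sum_le_tsum t fun m _ => hβ0 _
  have h2 : ∀ n, Summable fun m => A m * β (n - m) := fun n =>
    summable_of_sum_le (fun m => mul_nonneg (hA0 _) (hβ0 _)) (h1 n)
  have h3 : ∀ n, (∑' m, A m * β (n - m)) ^ 2 ≤ (∑' m, A m ^ 2 * β (n - m)) * Q := by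
    intro n
    have h4 : ∑' m, A m * β (n - m) ≤ Real.sqrt ((∑' m, A m ^ 2 * β (n - m)) * Q) :=
      (h2 n).tsum_le_of_sum_le (h1 n)
    have h5 : 0 ≤ ∑' m, A m * β (n - m) := tsum_nonneg fun m => mul_nonneg (hA0 _) (hβ0 _)
    calc (∑' m, A m * β (n - m)) ^ 2 ≤ Real.sqrt ((∑' m, A m ^ 2 * β (n - m)) * Q) ^ 2 := by
          gcongr
      _ = _ := Real.sq_sqrt (mul_nonneg (hP0 n) hQ0)
  have h6 : ∀ s : Finset G, ∑ n ∈ s, ∑' m, A m ^ 2 * β (n - m) ≤ (∑' m, A m ^ 2) * Q := by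
    intro s
    rw [← Summable.tsum_finsetSum fun n _ => hP n, ← tsum_mul_right]
    refine Summable.tsum_le_tsum (fun m => ?_) (summable_sum fun n _ => hP n) (hA.mul_right Q)
    rw [← Finset.mul_sum]
    refine mul_le_mul_of_nonneg_left ?_ (sq_nonneg _)
    rw [← hβm' m]
    exact (hβm m).sum_le_tsum s fun n _ => hβ0 _
  have h7 : Summable fun n => ∑' m, A m ^ 2 * β (n - m) := summable_of_sum_le hP0 h6
  have h8 : ∑' n, ∑' m, A m ^ 2 * β (n - m) ≤ (∑' m, A m ^ 2) * Q := h7.tsum_le_of_sum_le h6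
  have h9 : Summable fun n => (∑' m, A m * β (n - m)) ^ 2 :=
    Summable.of_nonneg_of_le (fun n => sq_nonneg _) h3 (h7.mul_right Q)
  refine ⟨h2, h9, ?_⟩
  calc ∑' n, (∑' m, A m * β (n - m)) ^ 2 ≤ ∑' n, (∑' m, A m ^ 2 * β (n - m)) * Q :=
        h9.tsum_le_tsum h3 (h7.mul_right Q)
    _ = (∑' n, ∑' m, A m ^ 2 * β (n - m)) * Q := tsum_mul_right
    _ ≤ (∑' m, A m ^ 2) * Q * Q := by gcongr
    _ = _ := by ring

variable {d : ℕ}

/-- The weight `(1 + |n|²)^(k/2)`. -/
noncomputable def sw (k : ℕ) (n : Lat d) : ℝ := Real.sqrt ((1 + sqNorm n) ^ k)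

theorem sw_sq (k : ℕ) (n : Lat d) : sw k n ^ 2 = (1 + sqNorm n) ^ k :=
  Real.sq_sqrt (weight_pos k n).le

theorem sw_pos (k : ℕ) (n : Lat d) : 0 < sw k n := Real.sqrt_pos.2 (weight_pos k n)

theorem sw_le (k : ℕ) (n m : Lat d) : sw k n ≤ 2 ^ k * (sw k m + sw k (n - m)) := by
  have hm := sw_pos k m
  have hn := sw_pos k (n - m)
  unfold sw at hm hn ⊢
  rw [Real.sqrt_le_left (by positivity)]
  have hp := sqNorm_nonneg m
  have hq := sqNorm_nonneg (n - m)
  have h1 : sqNorm n ≤ 2 * sqNorm m + 2 * sqNorm (n - m) := by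
    unfold sqNorm
    rw [Finset.mul_sum, Finset.mul_sum, ← Finset.sum_add_distrib]
    refine Finset.sum_le_sum fun j _ => ?_
    simp only [Pi.sub_apply]
    push_cast
    nlinarith [sq_nonneg ((n j : ℝ) - m j - m j)]
  have h2 : (1 + sqNorm n) ^ k ≤ 4 ^ k * ((1 + sqNorm m) ^ k + (1 + sqNorm (n - m)) ^ k) := by
    rcases le_total (sqNorm m) (sqNorm (n - m)) with h | h
    · calc (1 + sqNorm n) ^ k ≤ (4 * (1 + sqNorm (n - m))) ^ k := by
            have h0 := sqNorm_nonneg n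
            gcongr
            linarith
        _ = 4 ^ k * (1 + sqNorm (n - m)) ^ k := mul_pow _ _ _
        _ ≤ _ := by
            have : 0 ≤ (1 + sqNorm m) ^ k := by positivity
            gcongr
            linarith
    · calc (1 + sqNorm n) ^ k ≤ (4 * (1 + sqNorm m)) ^ k := by
            have h0 := sqNorm_nonneg n
            gcongr
            linarith
        _ = 4 ^ k * (1 + sqNorm m) ^ k := mul_pow _ _ _
        _ ≤ _ := by
            have : 0 ≤ (1 + sqNorm (n - m)) ^ k := by positivity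
            gcongr
            linarith
  refine h2.trans ?_
  rw [mul_pow, ← pow_mul, mul_comm k 2, pow_mul]
  have h3 : (2 : ℝ) ^ 2 = 4 := by norm_num
  rw [h3]
  refine mul_le_mul_of_nonneg_left ?_ (by positivity)
  rw [add_sq, Real.sq_sqrt (weight_pos k m).le, Real.sq_sqrt (weight_pos k (n - m)).le]
  have : 0 ≤ 2 * Real.sqrt ((1 + sqNorm m) ^ k) * Real.sqrt ((1 + sqNorm (n - m)) ^ k) := by
    positivity
  linarith

/-- The constant of the product estimate. -/
noncomputable def PC (d k : ℕ) : ℝ := 4 * 4 ^ k * CS d k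

theorem PC_nonneg (d k : ℕ) : 0 ≤ PC d k := by
  have := CS_nonneg d k
  unfold PC
  positivity

theorem mem_mul {k : ℕ} (hk : d < 2 * k) {a b : WA d 0} (ha : MemSobolev k (coef a))
    (hb : MemSobolev k (coef b)) : MemSobolev k (coef (a * b)) ∧
      sobolevSq k (coef (a * b)) ≤ PC d k * sobolevSq k (coef a) * sobolevSq k (coef b) := by
  have hsa : (fun m => (sw k m * ‖coef a m‖) ^ 2) =
      fun n => (1 + sqNorm n) ^ k * ‖coef a n‖ ^ 2 := by
    funext m
    rw [mul_pow, sw_sq]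
  have hsb : (fun m => (sw k m * ‖coef b m‖) ^ 2) =
      fun n => (1 + sqNorm n) ^ k * ‖coef b n‖ ^ 2 := by
    funext m
    rw [mul_pow, sw_sq]
  have hA : Summable fun m => (sw k m * ‖coef a m‖) ^ 2 := by rw [hsa]; exact ha
  have hB : Summable fun m => (sw k m * ‖coef b m‖) ^ 2 := by rw [hsb]; exact hb
  have ha1 := summable_of_mem hk ha
  have hb1 := summable_of_mem hk hb
  have hSa : 0 ≤ sobolevSq k (coef a) :=
    tsum_nonneg fun n => mul_nonneg (weight_pos k n).le (sq_nonneg _)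
  have hSb : 0 ≤ sobolevSq k (coef b) :=
    tsum_nonneg fun n => mul_nonneg (weight_pos k n).le (sq_nonneg _)
  have hC := CS_nonneg d k
  have hqa : (∑' m, ‖coef a m‖) ^ 2 ≤ CS d k * sobolevSq k (coef a) := by
    have h1 : ∑' m, ‖coef a m‖ ≤ Real.sqrt (CS d k * sobolevSq k (coef a)) :=
      ha1.tsum_le_of_sum_le (sum_norm_le hk ha)
    have h2 : 0 ≤ ∑' m, ‖coef a m‖ := tsum_nonneg fun _ => norm_nonneg _
    calc (∑' m, ‖coef a m‖) ^ 2 ≤ Real.sqrt (CS d k * sobolevSq k (coef a)) ^ 2 := by gcongr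
      _ = _ := Real.sq_sqrt (by positivity)
  have hqb : (∑' m, ‖coef b m‖) ^ 2 ≤ CS d k * sobolevSq k (coef b) := by
    have h1 : ∑' m, ‖coef b m‖ ≤ Real.sqrt (CS d k * sobolevSq k (coef b)) :=
      hb1.tsum_le_of_sum_le (sum_norm_le hk hb)
    have h2 : 0 ≤ ∑' m, ‖coef b m‖ := tsum_nonneg fun _ => norm_nonneg _
    calc (∑' m, ‖coef b m‖) ^ 2 ≤ Real.sqrt (CS d k * sobolevSq k (coef b)) ^ 2 := by gcongr
      _ = _ := Real.sq_sqrt (by positivity)
  obtain ⟨s1, s2, s3⟩ := young (A := fun m => sw k m * ‖coef a m‖) (β := fun m => ‖coef b m‖)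
    (fun m => mul_nonneg (sw_pos k m).le (norm_nonneg _)) (fun m => norm_nonneg _) hA hb1
  obtain ⟨t1, t2, t3⟩ := young (A := fun m => sw k m * ‖coef b m‖) (β := fun m => ‖coef a m‖)
    (fun m => mul_nonneg (sw_pos k m).le (norm_nonneg _)) (fun m => norm_nonneg _) hB ha1
  rw [hsa] at s3
  rw [hsb] at t3
  set U : Lat d → ℝ := fun n => ∑' m, sw k m * ‖coef a m‖ * ‖coef b (n - m)‖ with hU
  set V : Lat d → ℝ := fun n => ∑' m, sw k m * ‖coef b m‖ * ‖coef a (n - m)‖ with hV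
  have key : ∀ n, sw k n * ‖coef (a * b) n‖ ≤ 2 ^ k * (U n + V n) := by
    intro n
    have hV' : V n = ∑' m, ‖coef a m‖ * (sw k (n - m) * ‖coef b (n - m)‖) := by
      rw [hV]
      rw [← Equiv.tsum_eq (Equiv.subLeft n)]
      refine tsum_congr fun m => ?_
      simp only [Equiv.subLeft_apply, sub_sub_cancel]
      ring
    have hVs : Summable fun m => ‖coef a m‖ * (sw k (n - m) * ‖coef b (n - m)‖) := by
      refine ((Equiv.summable_iff (Equiv.subLeft n)).2 (t1 n)).congr fun m => ?_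
      simp only [Function.comp, Equiv.subLeft_apply, sub_sub_cancel]
      ring
    have hs : Summable fun m => ‖coef a m * coef b (n - m)‖ := by
      refine Summable.of_nonneg_of_le (fun _ => norm_nonneg _) (fun m => ?_) (s1 n)
      rw [norm_mul]
      refine mul_le_mul_of_nonneg_right ?_ (norm_nonneg _)
      refine le_mul_of_one_le_left (norm_nonneg _) ?_
      unfold sw
      rw [Real.one_le_sqrt]
      exact one_le_pow₀ (by have := sqNorm_nonneg m; linarith)
    rw [coef_mul, hV']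
    calc sw k n * ‖∑' m, coef a m * coef b (n - m)‖
        ≤ sw k n * ∑' m, ‖coef a m * coef b (n - m)‖ :=
          mul_le_mul_of_nonneg_left (norm_tsum_le_tsum_norm hs) (sw_pos k n).le
      _ = ∑' m, sw k n * ‖coef a m * coef b (n - m)‖ := tsum_mul_left.symm
      _ ≤ ∑' m, 2 ^ k * (sw k m * ‖coef a m‖ * ‖coef b (n - m)‖ +
            ‖coef a m‖ * (sw k (n - m) * ‖coef b (n - m)‖)) := by
          refine Summable.tsum_le_tsum (fun m => ?_) (hs.mul_left _)
            (((s1 n).add hVs).mul_left _)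
          rw [norm_mul]
          calc sw k n * (‖coef a m‖ * ‖coef b (n - m)‖)
              ≤ 2 ^ k * (sw k m + sw k (n - m)) * (‖coef a m‖ * ‖coef b (n - m)‖) :=
                mul_le_mul_of_nonneg_right (sw_le k n m) (by positivity)
            _ = _ := by ring
      _ = 2 ^ k * ((∑' m, sw k m * ‖coef a m‖ * ‖coef b (n - m)‖) +
            ∑' m, ‖coef a m‖ * (sw k (n - m) * ‖coef b (n - m)‖)) := by
          rw [tsum_mul_left, Summable.tsum_add (s1 n) hVs]
  have key2 : ∀ n, (1 + sqNorm n) ^ k * ‖coef (a * b) n‖ ^ 2 ≤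
      2 * 4 ^ k * (U n ^ 2 + V n ^ 2) := by
    intro n
    have h1 := key n
    have h0 : 0 ≤ sw k n * ‖coef (a * b) n‖ := mul_nonneg (sw_pos k n).le (norm_nonneg _)
    calc (1 + sqNorm n) ^ k * ‖coef (a * b) n‖ ^ 2 = (sw k n * ‖coef (a * b) n‖) ^ 2 := by
          rw [mul_pow, sw_sq]
      _ ≤ (2 ^ k * (U n + V n)) ^ 2 := by gcongr
      _ = 4 ^ k * (U n + V n) ^ 2 := by
          rw [mul_pow, ← pow_mul, mul_comm k 2, pow_mul]
          norm_num
      _ ≤ 4 ^ k * (2 * (U n ^ 2 + V n ^ 2)) := by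
          gcongr
          nlinarith [sq_nonneg (U n - V n)]
      _ = _ := by ring
  have hsum : Summable fun n => 2 * 4 ^ k * (U n ^ 2 + V n ^ 2) := (s2.add t2).mul_left _
  have hmem : MemSobolev k (coef (a * b)) :=
    Summable.of_nonneg_of_le (fun n => mul_nonneg (weight_pos k n).le (sq_nonneg _)) key2 hsum
  refine ⟨hmem, ?_⟩
  unfold PC
  calc sobolevSq k (coef (a * b)) ≤ ∑' n, 2 * 4 ^ k * (U n ^ 2 + V n ^ 2) :=
        Summable.tsum_le_tsum key2 hmem hsum
    _ = 2 * 4 ^ k * ((∑' n, U n ^ 2) + ∑' n, V n ^ 2) := by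
        rw [tsum_mul_left, Summable.tsum_add s2 t2]
    _ ≤ 2 * 4 ^ k * (sobolevSq k (coef a) * (CS d k * sobolevSq k (coef b)) +
          sobolevSq k (coef b) * (CS d k * sobolevSq k (coef a))) := by
        gcongr
        · exact s3.trans (mul_le_mul_of_nonneg_left hqb hSa)
        · exact t3.trans (mul_le_mul_of_nonneg_left hqa hSb)
    _ = _ := by ring

end Vale.Agent.P139.R3.H156
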