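import Vale.Agent.P139.R3.H36.Flow
import Vale.Agent.P139.R3.H156.Prod

/-! # P139: persistence of regularity -/

open Set Metric Filter Topology MeasureTheory
open scoped NNReal ENNReal

namespace Vale.Agent.P139.R3.H156

open Vale.Agent.P139.A Vale.Agent.P139.H203 Vale.Agent.P139.R3.H36 Vale.Agent.P139.R3.H36.HS

variable {d k l : ℕ}

/-! ### Elementary facts about `IsSolution` -/

theorem isSolution_restrict {p : ℕ} {t T : ℝ} (htT : t ≤ T) {u : ℝ → Lat d → ℂ}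
    (hu : IsSolution d p k T u) : IsSolution d p k t u where
  mem s hs := hu.mem s (Icc_subset_Icc_right htT hs)
  cont s hs := (hu.cont s (Icc_subset_Icc_right htT hs)).mono_left
    (nhdsWithin_mono _ (Icc_subset_Icc_right htT))
  eqn s hs n := by
    obtain ⟨v, hv, he⟩ := hu.eqn s (Icc_subset_Icc_right htT hs) n
    exact ⟨v, hv.mono (Icc_subset_Icc_right htT), he⟩

theorem isSolution_congr {p : ℕ} {T : ℝ} {u v : ℝ → Lat d → ℂ}
    (hv : IsSolution d p k T v) (h : ∀ t ∈ Icc 0 T, u t = v t) : IsSolution d p k T u where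
  mem s hs := by rw [h s hs]; exact hv.mem s hs
  cont s hs := by
    refine (hv.cont s hs).congr' ?_
    filter_upwards [self_mem_nhdsWithin] with r hr
    rw [h s hs, h r hr]
  eqn s hs n := by
    obtain ⟨w, hw, he⟩ := hv.eqn s hs n
    refine ⟨w, hw.congr (fun r hr => by rw [h r hr]) (by rw [h s hs]), ?_⟩
    rw [h s hs]
    exact he

theorem weight_mono (hkl : k ≤ l) (n : Lat d) : (1 + sqNorm n) ^ k ≤ (1 + sqNorm n) ^ l :=
  pow_le_pow_right₀ (by have := sqNorm_nonneg n; linarith) hkl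

theorem memSobolev_mono (hkl : k ≤ l) {a : Lat d → ℂ} (h : MemSobolev l a) : MemSobolev k a :=
  Summable.of_nonneg_of_le (fun n => mul_nonneg (weight_pos k n).le (sq_nonneg _))
    (fun n => mul_le_mul_of_nonneg_right (weight_mono hkl n) (sq_nonneg _)) h

theorem sobolevSq_mono (hkl : k ≤ l) {a : Lat d → ℂ} (h : MemSobolev l a) :
    sobolevSq k a ≤ sobolevSq l a :=
  (memSobolev_mono hkl h).tsum_le_tsum
    (fun n => mul_le_mul_of_nonneg_right (weight_mono hkl n) (sq_nonneg _)) h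

theorem isSolution_lower {p : ℕ} (hkl : k ≤ l) {T : ℝ} {u : ℝ → Lat d → ℂ}
    (hu : IsSolution d p l T u) : IsSolution d p k T u where
  mem s hs := memSobolev_mono hkl (hu.mem s hs)
  cont s hs := by
    refine squeeze_zero' (Eventually.of_forall fun r =>
      tsum_nonneg fun n => mul_nonneg (weight_pos k n).le (sq_nonneg _)) ?_ (hu.cont s hs)
    filter_upwards [self_mem_nhdsWithin] with r hr
    exact sobolevSq_mono hkl (mem_sub (hu.mem r hr) (hu.mem s hs))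
  eqn := hu.eqn

/-! ### The tame estimate -/

theorem norm_toW (hl : d < 2 * l) (b : HS d l) : ‖toW b‖ = ∑' n, ‖co b n‖ := by
  rw [WA.norm_eq]
  simp only [W0, one_mul, coef_toW hl]

theorem tame (hl : d < 2 * l) (a b : HS d l) :
    ‖pr a b‖ ≤ 2 * 2 ^ l * (‖a‖ * ‖toW b‖ + ‖toW a‖ * ‖b‖) := by
  have hw : ∀ (x : HS d l), (fun m => (sw l m * ‖co x m‖) ^ 2) =
      fun n => (1 + sqNorm n) ^ l * ‖co x n‖ ^ 2 := fun x => by
    funext m
    rw [mul_pow, sw_sq]
  have hsum : ∀ x : HS d l, Summable fun m => (sw l m * ‖co x m‖) ^ 2 := fun x => by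
    rw [hw]; exact memS x
  have h1s : ∀ x : HS d l, Summable fun n => ‖co x n‖ := fun x => summable_of_mem hl (memS x)
  have hnorm : ∀ x : HS d l, ∑' m, (sw l m * ‖co x m‖) ^ 2 = ‖x‖ ^ 2 := fun x => by
    rw [hw, norm_sq_eq]
    rfl
  obtain ⟨s1, s2, s3⟩ := young (A := fun m => sw l m * ‖co a m‖) (β := fun m => ‖co b m‖)
    (fun m => mul_nonneg (sw_pos l m).le (norm_nonneg _)) (fun m => norm_nonneg _) (hsum a) (h1s b)
  obtain ⟨t1, t2, t3⟩ := young (A := fun m => sw l m * ‖co b m‖) (β := fun m => ‖co a m‖)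
    (fun m => mul_nonneg (sw_pos l m).le (norm_nonneg _)) (fun m => norm_nonneg _) (hsum b) (h1s a)
  rw [hnorm, ← norm_toW hl] at s3 t3
  set P : Lat d → ℝ := fun n => ∑' m, sw l m * ‖co a m‖ * ‖co b (n - m)‖ with hP
  set Q : Lat d → ℝ := fun n => ∑' m, sw l m * ‖co b m‖ * ‖co a (n - m)‖ with hQ
  have key : ∀ n, sw l n * ‖co (pr a b) n‖ ≤ 2 ^ l * (P n + Q n) := by
    intro n
    have hV' : Q n = ∑' m, ‖co a m‖ * (sw l (n - m) * ‖co b (n - m)‖) := by
      rw [hQ]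
      rw [← Equiv.tsum_eq (Equiv.subLeft n)]
      refine tsum_congr fun m => ?_
      simp only [Equiv.subLeft_apply, sub_sub_cancel]
      ring
    have hVs : Summable fun m => ‖co a m‖ * (sw l (n - m) * ‖co b (n - m)‖) := by
      refine ((Equiv.summable_iff (Equiv.subLeft n)).2 (t1 n)).congr fun m => ?_
      simp only [Function.comp, Equiv.subLeft_apply, sub_sub_cancel]
      ring
    have hs : Summable fun m => ‖co a m * co b (n - m)‖ := by
      refine Summable.of_nonneg_of_le (fun _ => norm_nonneg _) (fun m => ?_) (s1 n)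
      rw [norm_mul]
      refine mul_le_mul_of_nonneg_right ?_ (norm_nonneg _)
      refine le_mul_of_one_le_left (norm_nonneg _) ?_
      unfold sw
      rw [Real.one_le_sqrt]
      exact one_le_pow₀ (by have := sqNorm_nonneg m; linarith)
    rw [co_pr hl, WA.coef_mul, hV']
    simp only [coef_toW hl]
    calc sw l n * ‖∑' m, co a m * co b (n - m)‖
        ≤ sw l n * ∑' m, ‖co a m * co b (n - m)‖ :=
          mul_le_mul_of_nonneg_left (norm_tsum_le_tsum_norm hs) (sw_pos l n).le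
      _ = ∑' m, sw l n * ‖co a m * co b (n - m)‖ := tsum_mul_left.symm
      _ ≤ ∑' m, 2 ^ l * (sw l m * ‖co a m‖ * ‖co b (n - m)‖ +
            ‖co a m‖ * (sw l (n - m) * ‖co b (n - m)‖)) := by
          refine Summable.tsum_le_tsum (fun m => ?_) (hs.mul_left _)
            (((s1 n).add hVs).mul_left _)
          rw [norm_mul]
          calc sw l n * (‖co a m‖ * ‖co b (n - m)‖)
              ≤ 2 ^ l * (sw l m + sw l (n - m)) * (‖co a m‖ * ‖co b (n - m)‖) :=
                mul_le_mul_of_nonneg_right (sw_le l n m) (by positivity)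
            _ = _ := by ring
      _ = 2 ^ l * ((∑' m, sw l m * ‖co a m‖ * ‖co b (n - m)‖) +
            ∑' m, ‖co a m‖ * (sw l (n - m) * ‖co b (n - m)‖)) := by
          rw [tsum_mul_left, Summable.tsum_add (s1 n) hVs]
  have key2 : ∀ n, (1 + sqNorm n) ^ l * ‖co (pr a b) n‖ ^ 2 ≤
      2 * 4 ^ l * (P n ^ 2 + Q n ^ 2) := by
    intro n
    have h1 := key n
    have h0 : 0 ≤ sw l n * ‖co (pr a b) n‖ := mul_nonneg (sw_pos l n).le (norm_nonneg _)
    calc (1 + sqNorm n) ^ l * ‖co (pr a b) n‖ ^ 2 = (sw l n * ‖co (pr a b) n‖) ^ 2 := by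
          rw [mul_pow, sw_sq]
      _ ≤ (2 ^ l * (P n + Q n)) ^ 2 := by gcongr
      _ = 4 ^ l * (P n + Q n) ^ 2 := by
          rw [mul_pow, ← pow_mul, mul_comm l 2, pow_mul]
          norm_num
      _ ≤ 4 ^ l * (2 * (P n ^ 2 + Q n ^ 2)) := by
          gcongr
          nlinarith [sq_nonneg (P n - Q n)]
      _ = _ := by ring
  have hsum2 : Summable fun n => 2 * 4 ^ l * (P n ^ 2 + Q n ^ 2) := (s2.add t2).mul_left _
  refine abs_le_of_sq_le_sq' ?_ (by positivity) |>.2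
  calc ‖pr a b‖ ^ 2 = sobolevSq l (co (pr a b)) := norm_sq_eq _
    _ ≤ ∑' n, 2 * 4 ^ l * (P n ^ 2 + Q n ^ 2) := Summable.tsum_le_tsum key2 (memS _) hsum2
    _ = 2 * 4 ^ l * ((∑' n, P n ^ 2) + ∑' n, Q n ^ 2) := by
        rw [tsum_mul_left, Summable.tsum_add s2 t2]
    _ ≤ 2 * 4 ^ l * (‖a‖ ^ 2 * ‖toW b‖ ^ 2 + ‖b‖ ^ 2 * ‖toW a‖ ^ 2) := by
        gcongr
    _ ≤ 4 * 4 ^ l * (‖a‖ * ‖toW b‖ + ‖toW a‖ * ‖b‖) ^ 2 := by
        have h1 : 0 ≤ ‖a‖ * ‖toW b‖ := by positivity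
        have h2 : 0 ≤ ‖toW a‖ * ‖b‖ := by positivity
        have h3 : ‖a‖ ^ 2 * ‖toW b‖ ^ 2 + ‖b‖ ^ 2 * ‖toW a‖ ^ 2 ≤
            (‖a‖ * ‖toW b‖ + ‖toW a‖ * ‖b‖) ^ 2 := by nlinarith
        have h4 : 0 ≤ (‖a‖ * ‖toW b‖ + ‖toW a‖ * ‖b‖) ^ 2 := sq_nonneg _
        have h5 : (0 : ℝ) ≤ 4 ^ l := by positivity
        nlinarith [mul_le_mul_of_nonneg_left h3 h5, mul_nonneg h5 h4]
    _ = (2 * 2 ^ l * (‖a‖ * ‖toW b‖ + ‖toW a‖ * ‖b‖)) ^ 2 := by
        rw [mul_pow, mul_pow, ← pow_mul, mul_comm l 2, pow_mul]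
        norm_num

theorem norm_toW_cj (hl : d < 2 * l) (a : HS d l) : ‖toW (cj a)‖ = ‖toW a‖ := by
  rw [norm_toW hl, norm_toW hl, ← (Equiv.neg (Lat d)).tsum_eq]
  refine tsum_congr fun n => ?_
  simp

theorem norm_toW_pr (hl : d < 2 * l) (a b : HS d l) : ‖toW (pr a b)‖ ≤ ‖toW a‖ * ‖toW b‖ := by
  rw [toW_pr hl]
  exact norm_mul_le _ _

theorem norm_toW_N (hl : d < 2 * l) (m : ℕ) (a : HS d l) : ‖toW (N m a)‖ ≤ ‖toW a‖ ^ (2 * m + 1) := by
  induction m with
  | zero => simp [N]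
  | succ m ih =>
    rw [N]
    calc ‖toW (pr (pr a (cj a)) (N m a))‖ ≤ ‖toW (pr a (cj a))‖ * ‖toW (N m a)‖ :=
          norm_toW_pr hl _ _
      _ ≤ (‖toW a‖ * ‖toW a‖) * ‖toW a‖ ^ (2 * m + 1) := by
          have h1 := norm_toW_pr hl a (cj a)
          rw [norm_toW_cj hl] at h1
          gcongr
      _ = _ := by ring

theorem tame_N (hl : d < 2 * l) (m : ℕ) : ∃ C : ℝ, 0 ≤ C ∧ ∀ a : HS d l,
    ‖N m a‖ ≤ C * ‖toW a‖ ^ (2 * m) * ‖a‖ := by
  induction m with
  | zero => exact ⟨1, zero_le_one, fun a => by simp [N]⟩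
  | succ m ih =>
    obtain ⟨C, hC, h⟩ := ih
    set c : ℝ := 2 * 2 ^ l with hc
    have hc0 : 0 ≤ c := by positivity
    refine ⟨c * (2 * c + C), by positivity, fun a => ?_⟩
    rw [N]
    have h1 := tame hl a (cj a)
    rw [norm_cj, norm_toW_cj hl] at h1
    have h2 := norm_toW_pr hl a (cj a)
    rw [norm_toW_cj hl] at h2
    have h3 := norm_toW_N hl m a
    have h4 := h a
    have hA : 0 ≤ ‖toW a‖ := norm_nonneg _
    calc ‖pr (pr a (cj a)) (N m a)‖
        ≤ c * (‖pr a (cj a)‖ * ‖toW (N m a)‖ + ‖toW (pr a (cj a))‖ * ‖N m a‖) := tame hl _ _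
      _ ≤ c * ((c * (‖a‖ * ‖toW a‖ + ‖toW a‖ * ‖a‖)) * ‖toW a‖ ^ (2 * m + 1) +
            (‖toW a‖ * ‖toW a‖) * (C * ‖toW a‖ ^ (2 * m) * ‖a‖)) := by
          gcongr
      _ = _ := by ring

/-! ### Persistence -/

theorem persist {m : ℕ} (hk : d < 2 * k) (hkl : k ≤ l) {T : ℝ} (hT : 0 ≤ T)
    {u : ℝ → Lat d → ℂ} (hu : IsSolution d (2 * m + 1) k T u) (h0 : MemSobolev l (u 0)) :
    IsSolution d (2 * m + 1) l T u := by
  have hl : d < 2 * l := by omega
  have h0T : (0 : ℝ) ∈ Icc 0 T := ⟨le_rfl, hT⟩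
  obtain ⟨M0, hM0⟩ := isCompact_Icc.exists_bound_of_continuousOn (curve_of hk hu).cont
  have hM00 : 0 ≤ M0 := (norm_nonneg _).trans (hM0 0 h0T)
  obtain ⟨C, hC, hN⟩ := tame_N (d := d) hl m
  set a0 : HS d l := toH l (u 0) with ha0
  have hco0 : co a0 = u 0 := funext (co_toH h0)
  set G : ℝ := C * M0 ^ (2 * m) with hG
  have hG0 : 0 ≤ G := by positivity
  set ρ : ℝ := ‖a0‖ * Real.exp (G * T) + 1 with hρd
  have hρ : 0 < ρ := by positivity
  obtain ⟨K, hK⟩ := fld_lip (d := d) hl m (r := 2 * ρ) (by positivity)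
  obtain ⟨M, hM⟩ := fld_bound (d := d) hl m (r := 2 * ρ) (by positivity)
  obtain ⟨z, hz0, hz⟩ := exists_cutoff (fld m : ℝ → HS d l → HS d l) hρ K M hT
    (fun t _ => hK t) (fun t _ => hM t)
    (fun x => ((continuous_fld hl m).comp
      (continuous_id.prodMk continuous_const)).continuousOn) a0
  have hcut : ∀ (t : ℝ) (x : HS d l), ‖x‖ ≤ ρ → cutField (fld m) ρ t x = fld m t x := by
    intro t x hx
    unfold cutField
    rw [cut_eq_one ((div_le_one hρ).2 hx), one_smul]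
  have hsol : ∀ t ∈ Icc 0 T, (∀ s ∈ Icc 0 t, ‖z s‖ ≤ ρ) → Sol m t z ∧
      ∀ s ∈ Icc 0 t, u s = co (U s (z s)) := by
    intro t ht hb
    have h1 : Sol m t z := by
      intro s hs
      have h2 := (hz s (Icc_subset_Icc_right ht.2 hs)).mono (Icc_subset_Icc_right ht.2)
      rwa [hcut s (z s) (hb s hs)] at h2
    refine ⟨h1, ?_⟩
    have h2 := isSolution_lower hkl (isSolution_of hl h1)
    refine H203.unique hk (isSolution_restrict ht.2 hu) h2 ?_
    simp only [U_zero_time, hz0, hco0]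
  have hzc : ContinuousOn z (Icc 0 T) := HasDerivWithinAt.continuousOn hz
  have hboot : ∀ t ∈ Icc 0 T, ‖z t‖ < ρ ∧ ‖z t‖ < ρ := by
    refine continuity_bootstrap hzc.norm hzc.norm ?_ ?_
    · intro t ht hb
      obtain ⟨h1, h2⟩ := hsol t ht fun s hs => (hb s hs).1
      have h3 : ∀ s ∈ Ico 0 t, ‖fld m s (z s)‖ ≤ G * ‖z s‖ + 0 := by
        intro s hs
        have hs' := Ico_subset_Icc_self hs
        have h4 : ‖toW (U s (z s))‖ ≤ M0 := by
          have h5 := hM0 s (Icc_subset_Icc_right ht.2 hs')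
          have h6 : toW (U s (z s)) = toWA (u s) := by
            unfold toW
            rw [h2 s hs']
          rw [h6]
          exact h5
        rw [norm_fld, add_zero]
        calc ‖N m (U s (z s))‖ ≤ C * ‖toW (U s (z s))‖ ^ (2 * m) * ‖U s (z s)‖ := hN _
          _ ≤ C * M0 ^ (2 * m) * ‖z s‖ := by
              rw [norm_U]
              gcongr
      have h4 := norm_le_gronwallBound_of_norm_deriv_right_le (f := z)
        (f' := fun s => fld m s (z s)) (δ := ‖a0‖) (K := G) (ε := 0) (a := 0) (b := t)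
        (hzc.mono (Icc_subset_Icc_right ht.2))
        (fun s hs => (h1 s (Ico_subset_Icc_self hs)).mono_of_mem_nhdsWithin
          (Icc_mem_nhdsGE_of_mem hs)) (by rw [hz0]) h3 t ⟨ht.1, le_rfl⟩
      rw [gronwallBound_ε0, sub_zero] at h4
      have h5 : ‖z t‖ < ρ := by
        refine lt_of_le_of_lt h4 ?_
        have h6 : Real.exp (G * t) ≤ Real.exp (G * T) :=
          Real.exp_le_exp.2 (mul_le_mul_of_nonneg_left ht.2 hG0)
        have h7 : ‖a0‖ * Real.exp (G * t) ≤ ‖a0‖ * Real.exp (G * T) :=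
          mul_le_mul_of_nonneg_left h6 (norm_nonneg _)
        linarith
      exact ⟨h5, h5⟩
    · have h6 : (1 : ℝ) ≤ Real.exp (G * T) := Real.one_le_exp (by positivity)
      have h7 : ‖a0‖ * 1 ≤ ‖a0‖ * Real.exp (G * T) :=
        mul_le_mul_of_nonneg_left h6 (norm_nonneg _)
      rw [hz0]
      constructor <;> linarith
  obtain ⟨h1, h2⟩ := hsol T ⟨hT, le_rfl⟩ fun s hs => (hboot s hs).1.le
  exact isSolution_congr (isSolution_of hl h1) h2

theorem exists_iff {m : ℕ} (hk : d < 2 * k) (hkl : k ≤ l) {T : ℝ} (hT : 0 ≤ T) {a : Lat d → ℂ}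
    (ha : MemSobolev l a) : (∃ u, IsSolution d (2 * m + 1) k T u ∧ u 0 = a) ↔
      ∃ u, IsSolution d (2 * m + 1) l T u ∧ u 0 = a := by
  constructor
  · rintro ⟨u, hu, rfl⟩
    exact ⟨u, persist hk hkl hT hu ha, rfl⟩
  · rintro ⟨u, hu, rfl⟩
    exact ⟨u, isSolution_lower hkl hu, rfl⟩

/-- The lifespan of a datum in `H^l` does not depend on the space, `d / 2 < k ≤ l`. -/
theorem lifespan_eq {m : ℕ} (hk : d < 2 * k) (hkl : k ≤ l) {a : Lat d → ℂ}
    (ha : MemSobolev l a) : lifespan d (2 * m + 1) k a = lifespan d (2 * m + 1) l a := by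
  unfold lifespan
  exact iSup_congr fun T => iSup_congr_Prop (exists_iff hk hkl T.2 ha) fun _ => rfl

/-- The lifespan is lower semicontinuous: data with `T* > T`. -/
theorem lt_lifespan_iff {p : ℕ} {a : Lat d → ℂ} {T : ℝ≥0} :
    (T : ℝ≥0∞) < lifespan d p k a ↔
      ∃ S : ℝ≥0, T < S ∧ ∃ u, IsSolution d p k S u ∧ u 0 = a := by
  unfold lifespan
  simp only [lt_iSup_iff, ENNReal.coe_lt_coe]
  constructor
  · rintro ⟨S, h, hS⟩
    exact ⟨S, hS, h⟩
  · rintro ⟨S, hS, h⟩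
    exact ⟨S, h, hS⟩

theorem exists_of_le {p : ℕ} {a : Lat d → ℂ} {S T : ℝ} (hST : S ≤ T)
    (h : ∃ u, IsSolution d p k T u ∧ u 0 = a) : ∃ u, IsSolution d p k S u ∧ u 0 = a := by
  obtain ⟨u, hu, h0⟩ := h
  exact ⟨u, isSolution_restrict hST hu, h0⟩

/-- `T* = ∞` if and only if there is a solution on every interval `[0, T]`. -/
theorem lifespan_eq_top_iff {p : ℕ} {a : Lat d → ℂ} :
    lifespan d p k a = ⊤ ↔ ∀ T : ℝ≥0, ∃ u, IsSolution d p k T u ∧ u 0 = a := by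
  constructor
  · intro h T
    have h1 : (T : ℝ≥0∞) < lifespan d p k a := by rw [h]; exact ENNReal.coe_lt_top
    obtain ⟨S, hS, hu⟩ := lt_lifespan_iff.1 h1
    exact exists_of_le (by exact_mod_cast hS.le) hu
  · intro h
    refine ENNReal.eq_top_of_forall_nnreal_le fun T => le_of_lt ?_
    rw [lt_lifespan_iff]
    exact ⟨T + 1, by simp, h (T + 1)⟩

/-- If there is no solution on `[0, δ]` then `T* ≤ δ`. -/
theorem lifespan_le_of_not {p : ℕ} {a : Lat d → ℂ} {δ : ℝ≥0}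
    (h : ¬ ∃ u, IsSolution d p k δ u ∧ u 0 = a) : lifespan d p k a ≤ δ := by
  by_contra hc
  rw [not_le, lt_lifespan_iff] at hc
  obtain ⟨S, hS, hu⟩ := hc
  exact h (exists_of_le (by exact_mod_cast hS.le) hu)

end Vale.Agent.P139.R3.H156
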