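import Vale.Agent.P139.R3.H156.FullSupp
import Vale.Agent.P139.R3.H156.CM
import Vale.Agent.P139.R3.H597.Shift
import Vale.Agent.P139.R3.H156.EPDefs

/-! # P139: almost sure statements do not depend on the profile (Cameron-Martin) -/

open Set Filter Topology MeasureTheory ProbabilityTheory
open scoped NNReal ENNReal

namespace Vale.Agent.P139.R3.H156

open Vale.Agent.P139.A Vale.Agent.P139.H203

variable {d : ℕ}

theorem prob_std : IsProbabilityMeasure stdComplexGaussian := by
  unfold stdComplexGaussian
  exact Measure.isProbabilityMeasure_map Complex.measurableEquivRealProd.symm.measurable.aemeasurable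

attribute [local instance] prob_std

/-- The density of the shifted standard complex Gaussian law. -/
noncomputable def mden (b z : ℂ) : ℝ≥0∞ :=
  ENNReal.ofReal (Real.exp (2 * (z * (starRingEnd ℂ) b).re - ‖b‖ ^ 2))

theorem measurable_mden (b : ℂ) : Measurable (mden b) := by
  unfold mden
  refine ENNReal.measurable_ofReal.comp (Real.measurable_exp.comp ?_)
  fun_prop

theorem lintegral_mden_sq (hA : ∀ b : ℂ, (stdComplexGaussian.map fun z => z + b) =
    stdComplexGaussian.withDensity (mden b)) (b : ℂ) :
    ∫⁻ z, mden b z ^ 2 ∂stdComplexGaussian = ENNReal.ofReal (Real.exp (2 * ‖b‖ ^ 2)) := by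
  have h1 : ∀ z, mden b z ^ 2 = ENNReal.ofReal (Real.exp (2 * ‖b‖ ^ 2)) * mden (2 * b) z := by
    intro z
    unfold mden
    rw [← ENNReal.ofReal_pow (Real.exp_pos _).le, ← ENNReal.ofReal_mul (Real.exp_pos _).le,
      ← Real.exp_nat_mul, ← Real.exp_add]
    congr 2
    have h2 : ‖(2 : ℂ) * b‖ = 2 * ‖b‖ := by rw [norm_mul]; simp
    have h3 : (z * (starRingEnd ℂ) (2 * b)).re = 2 * (z * (starRingEnd ℂ) b).re := by
      rw [map_mul, map_ofNat, ← mul_assoc, mul_comm z 2, mul_assoc]
      simp
    rw [h2, h3]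
    push_cast
    ring
  simp_rw [h1]
  rw [lintegral_const_mul _ (measurable_mden _)]
  have h2 : ∫⁻ z, mden (2 * b) z ∂stdComplexGaussian = 1 := by
    have h3 := congrArg (fun m : Measure ℂ => m univ) (hA (2 * b))
    rw [withDensity_apply _ MeasurableSet.univ, setLIntegral_univ,
      Measure.map_apply (by fun_prop) MeasurableSet.univ, preimage_univ, measure_univ] at h3
    exact h3.symm
  rw [h2, mul_one]

/-- The shift by a square summable sequence is absolutely continuous. -/
theorem shift_ac (hA : ∀ b : ℂ, (stdComplexGaussian.map fun z => z + b) =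
    stdComplexGaussian.withDensity (mden b)) {b : Lat d → ℂ} (hb : Summable fun n => ‖b n‖ ^ 2) :
    (Measure.infinitePi fun _ : Lat d => stdComplexGaussian).map (fun x n => x n + b n) ≪
      Measure.infinitePi fun _ : Lat d => stdComplexGaussian := by
  have hp : ∀ n : Lat d, IsProbabilityMeasure (stdComplexGaussian.map fun z => z + b n) :=
    fun n => Measure.isProbabilityMeasure_map (by fun_prop)
  rw [Measure.infinitePi_map_pi (μ := fun _ : Lat d => stdComplexGaussian)
    (f := fun n z => z + b n) (fun n => by fun_prop)]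
  refine infinitePi_ac (fun n : Lat d => stdComplexGaussian.map fun z => z + b n)
    (fun n => mden (b n)) (fun n => measurable_mden _) (fun n => hA (b n))
    (K := ENNReal.ofReal (Real.exp (2 * ∑' n, ‖b n‖ ^ 2))) ENNReal.ofReal_ne_top fun s => ?_
  simp_rw [lintegral_mden_sq hA]
  rw [← ENNReal.ofReal_prod_of_nonneg (fun n _ => (Real.exp_pos _).le), ← Real.exp_sum]
  apply ENNReal.ofReal_le_ofReal
  apply Real.exp_le_exp.2
  rw [← Finset.mul_sum]
  have := hb.sum_le_tsum s fun n _ => sq_nonneg ‖b n‖
  linarith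

theorem StdFamily.map_eq {Ω : Type*} [MeasurableSpace Ω] {P : Measure Ω} {g : Lat d → Ω → ℂ}
    (h : StdFamily P g) :
    P.map (fun ω n => g n ω) = Measure.infinitePi fun _ : Lat d => stdComplexGaussian := by
  have := h.prob
  rw [(iIndepFun_iff_map_fun_eq_infinitePi_map h.meas).1 h.indep]
  congr 1
  funext n
  exact h.law n

theorem stdFamily_canonical : StdFamily (Measure.infinitePi fun _ : Lat d => stdComplexGaussian)
    (fun n x => x n) where
  prob := inferInstance
  meas := fun n => measurable_pi_apply n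
  indep := iIndepFun_infinitePi (X := fun _ z => z) fun _ => measurable_id
  law := fun n => (measurePreserving_eval_infinitePi _ n).map_eq

theorem measurable_esum : Measurable fun v : Lat d → ℂ => ∑' n, ‖v n‖ₑ ^ 2 :=
  Measurable.tsum fun n => ((measurable_pi_apply n).enorm.pow_const 2)

theorem summable_iff_esum (v : Lat d → ℂ) :
    (Summable fun n => ‖v n‖ ^ 2) ↔ ∑' n, ‖v n‖ₑ ^ 2 < ∞ := by
  have e : ∀ n, ‖v n‖ₑ ^ 2 = ENNReal.ofReal (‖v n‖ ^ 2) := fun n => by
    rw [ENNReal.ofReal_pow (norm_nonneg _), ofReal_norm]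
  simp_rw [e]
  constructor
  · intro h
    rw [← ENNReal.ofReal_tsum_of_nonneg (fun n => sq_nonneg _) h]
    exact ENNReal.ofReal_lt_top
  · intro h
    exact (ENNReal.summable_toReal h.ne).congr fun n => ENNReal.toReal_ofReal (sq_nonneg _)

theorem random_shift (hA : ∀ b : ℂ, (stdComplexGaussian.map fun z => z + b) =
    stdComplexGaussian.withDensity (mden b)) {N : Set (Lat d → ℂ)} (hN : MeasurableSet N)
    (hN0 : (Measure.infinitePi fun _ : Lat d => stdComplexGaussian) N = 0)
    {Ω : Type*} [MeasurableSpace Ω] {P : Measure Ω} {g : Lat d → Ω → ℂ} (hg : StdFamily P g)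
    {V : Ω → Lat d → ℂ} (hV : Measurable V) (hind : IndepFun V (fun ω n => g n ω) P)
    (hs : ∀ᵐ ω ∂P, Summable fun n => ‖V ω n‖ ^ 2) :
    ∀ᵐ ω ∂P, (fun n => g n ω + V ω n) ∉ N := by
  have := hg.prob
  set μ := Measure.infinitePi fun _ : Lat d => stdComplexGaussian with hμ
  have hgm : Measurable fun ω n => g n ω := measurable_pi_iff.2 hg.meas
  have hlaw : P.map (fun ω => (V ω, fun n => g n ω)) = (P.map V).prod μ := by
    rw [(indepFun_iff_map_prod_eq_prod_map_map hV.aemeasurable hgm.aemeasurable).1 hind,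
      hg.map_eq]
  set T : Set ((Lat d → ℂ) × (Lat d → ℂ)) := {q | (fun n => q.2 n + q.1 n) ∈ N} with hT
  have hadd : Measurable fun q : (Lat d → ℂ) × (Lat d → ℂ) => (fun n => q.2 n + q.1 n) := by
    fun_prop
  have hTm : MeasurableSet T := hadd hN
  have hVp : IsProbabilityMeasure (P.map V) := Measure.isProbabilityMeasure_map hV.aemeasurable
  have h0 : (P.map V).prod μ T = 0 := by
    rw [Measure.measure_prod_null hTm]
    have h1 : ∀ᵐ v ∂(P.map V), ∑' n, ‖v n‖ₑ ^ 2 < ∞ := by
      rw [ae_map_iff hV.aemeasurable (measurableSet_lt measurable_esum measurable_const)]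
      filter_upwards [hs] with ω hω
      exact (summable_iff_esum _).1 hω
    filter_upwards [h1] with v hv
    have h2 := shift_ac hA ((summable_iff_esum v).2 hv)
    have h3 := h2 hN0
    rw [Measure.map_apply (by fun_prop) hN] at h3
    exact h3
  rw [← hlaw, Measure.map_apply (hV.prodMk hgm) hTm] at h0
  rw [ae_iff]
  refine le_antisymm ((measure_mono fun ω hω => ?_).trans h0.le) bot_le
  simpa [hT] using hω

end Vale.Agent.P139.R3.H156
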