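import Vale.Agent.P139.H203.Emb

/-! # P139: time reversal of `H^k` solutions -/

open Set Metric Filter Topology MeasureTheory
open scoped NNReal ENNReal ComplexConjugate

namespace Vale.Agent.P139.R3.H156

open Vale.Agent.P139.A Vale.Agent.P139.A.WA Vale.Agent.P139.H836 Vale.Agent.P139.H203

/-- The reflected conjugate of a family of Fourier coefficients. -/
noncomputable def cj {d : ℕ} (a : Lat d → ℂ) : Lat d → ℂ := fun n => (starRingEnd ℂ) (a (-n))

theorem sqNorm_neg' {d : ℕ} (n : Lat d) : sqNorm (-n) = sqNorm n := by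
  unfold sqNorm
  refine Finset.sum_congr rfl fun j _ => ?_
  simp

theorem conj_expi {d : ℕ} (n : Lat d) (x : Fin d → ℝ) :
    (starRingEnd ℂ) (expi n x) = expi (-n) x := by
  unfold expi
  rw [← Complex.exp_conj, map_mul, Complex.conj_I, map_sum]
  congr 1
  rw [Finset.mul_sum, Finset.mul_sum]
  refine Finset.sum_congr rfl fun j _ => ?_
  simp

theorem series_cj {d : ℕ} (a : Lat d → ℂ) (x : Fin d → ℝ) :
    series (cj a) x = (starRingEnd ℂ) (series a x) := by
  unfold series
  rw [Complex.conj_tsum, ← (Equiv.neg (Lat d)).tsum_eq]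
  refine tsum_congr fun n => ?_
  simp only [Equiv.neg_apply, cj, neg_neg, map_mul, conj_expi]

theorem fourierCoef_conj {d : ℕ} (f : (Fin d → ℝ) → ℂ) (n : Lat d) :
    fourierCoef (fun x => (starRingEnd ℂ) (f x)) n = (starRingEnd ℂ) (fourierCoef f (-n)) := by
  unfold fourierCoef
  rw [map_mul, ← integral_conj]
  congr 1
  · simp only [map_inv₀, map_pow, map_mul, Complex.conj_ofReal, map_ofNat]
  · refine integral_congr_ae (Eventually.of_forall fun x => ?_)
    simp only [map_mul, conj_expi, neg_neg]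

theorem weight_cj {d : ℕ} (k : ℕ) (a : Lat d → ℂ) (n : Lat d) :
    (1 + sqNorm n) ^ k * ‖cj a n‖ ^ 2 =
      (fun n => (1 + sqNorm n) ^ k * ‖a n‖ ^ 2) (Equiv.neg (Lat d) n) := by
  simp only [Equiv.neg_apply, sqNorm_neg', cj, RCLike.norm_conj]

theorem mem_cj {d k : ℕ} {a : Lat d → ℂ} (ha : MemSobolev k a) : MemSobolev k (cj a) := by
  unfold MemSobolev at ha ⊢
  simp_rw [weight_cj]
  exact (Equiv.summable_iff (f := fun n => (1 + sqNorm n) ^ k * ‖a n‖ ^ 2) (Equiv.neg (Lat d))).2 ha

theorem sobolevSq_cj {d : ℕ} (k : ℕ) (a : Lat d → ℂ) : sobolevSq k (cj a) = sobolevSq k a := by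
  unfold sobolevSq
  simp_rw [weight_cj]
  exact Equiv.tsum_eq (Equiv.neg (Lat d)) (fun n => (1 + sqNorm n) ^ k * ‖a n‖ ^ 2)

theorem reverse {d p k : ℕ} {T : ℝ} (_hT : 0 ≤ T) {u : ℝ → Lat d → ℂ}
    (hu : IsSolution d p k T u) :
    IsSolution d p k T (fun t n => (starRingEnd ℂ) (u (T - t) (-n))) := by
  have hm : MapsTo (fun s : ℝ => T - s) (Icc 0 T) (Icc 0 T) := fun s hs =>
    ⟨by linarith [hs.2], by linarith [hs.1]⟩
  refine ⟨fun t ht => mem_cj (hu.mem (T - t) (hm ht)), fun t ht => ?_, fun t ht n => ?_⟩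
  · have h1 : (fun s => sobolevSq k (fun n => (starRingEnd ℂ) (u (T - s) (-n)) -
        (starRingEnd ℂ) (u (T - t) (-n)))) =
        (fun s => sobolevSq k (fun n => u s n - u (T - t) n)) ∘ fun s => T - s := by
      funext s
      rw [Function.comp, ← sobolevSq_cj k (fun n => u (T - s) n - u (T - t) n)]
      congr 1
      funext n
      simp only [cj, map_sub]
    rw [h1]
    refine (hu.cont (T - t) (hm ht)).comp ?_
    exact (continuous_const.sub continuous_id).continuousWithinAt.tendsto_nhdsWithin hm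
  · obtain ⟨v, hv, he⟩ := hu.eqn (T - t) (hm ht) (-n)
    refine ⟨-(starRingEnd ℂ) v, ?_, ?_⟩
    · have h1 : HasDerivWithinAt (fun s : ℝ => T - s) (-1) (Icc 0 T) t := by
        simpa using (hasDerivWithinAt_id t (Icc 0 T)).const_sub T
      have h2 := HasDerivWithinAt.scomp t hv h1 hm
      have h3 := Complex.conjCLE.hasFDerivAt.comp_hasDerivWithinAt t h2
      have h4 : Complex.conjCLE ((-1 : ℝ) • v) = -(starRingEnd ℂ) v := by simp
      rw [← h4]
      exact h3
    · have h1 : (fun x => (‖series (fun n => (starRingEnd ℂ) (u (T - t) (-n))) x‖ : ℂ) ^ (p - 1) *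
          series (fun n => (starRingEnd ℂ) (u (T - t) (-n))) x) =
          fun x => (starRingEnd ℂ) ((‖series (u (T - t)) x‖ : ℂ) ^ (p - 1) *
            series (u (T - t)) x) := by
        funext x
        have h2 := series_cj (u (T - t)) x
        unfold cj at h2
        rw [h2, RCLike.norm_conj, map_mul, map_pow, Complex.conj_ofReal]
      rw [h1, fourierCoef_conj, ← he, sqNorm_neg']
      simp only [map_sub, map_mul, Complex.conj_I, Complex.conj_ofReal]
      ring

end Vale.Agent.P139.R3.H156
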