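import Vale.Agent.P139.R3.H156.FullSupp
import Vale.Agent.P139.R3.H597.GaussLower

/-! # P139: a lower bound for the probability of a ball of `H^k`, uniform in `α ≥ α₀` -/

open Set Metric Filter Topology MeasureTheory ProbabilityTheory
open scoped NNReal ENNReal

namespace Vale.Agent.P139.R3.H156

open Vale.Agent.P139.A Vale.Agent.P139.A.WA Vale.Agent.P139.H836 Vale.Agent.P139.H203

variable {d k : ℕ}

/-- A weighted square sum of independent complex Gaussians is close to a given one with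
probability at least a finite product of one variable probabilities, uniformly. -/
theorem near_ball_lower {q₀ : Lat d → ℝ} (hq00 : ∀ n, 0 ≤ q₀ n)
    (hq0s : Summable q₀) {e : Lat d → ℝ} (he0 : ∀ n, 0 ≤ e n) (hes : Summable e)
    {ρ : ℝ} (hρ : 0 < ρ) :
    ∃ (s : Finset (Lat d)) (r : ℝ), 0 < r ∧
      ∀ {Ω : Type*} [MeasurableSpace Ω] (P : Measure Ω) [IsProbabilityMeasure P]
      (g : Lat d → Ω → ℂ), (∀ n, Measurable (g n)) → iIndepFun g P →
      (∀ n, P.map (g n) = stdComplexGaussian) → ∀ (q : Lat d → ℝ) (b : Lat d → ℂ),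
      (∀ n, 0 ≤ q n) → (∀ n, q n ≤ q₀ n) → (∀ n, q n * ‖b n‖ ^ 2 = e n) →
      (1 / 2 : ℝ≥0∞) * ∏ n ∈ s, stdComplexGaussian (closedBall (b n) r) ≤
        P {ω | ∑' n, ENNReal.ofReal (q n) * ‖g n ω - b n‖ₑ ^ 2 ≤ ENNReal.ofReal ρ} := by
  classical
  set mom : ℝ≥0∞ := ∫⁻ z, ‖z‖ₑ ^ 2 ∂stdComplexGaussian with hmom
  have hmomT : mom ≠ ∞ := std_sq.ne
  set η : ℝ := ρ / (16 * (mom.toReal + 1)) with hη
  have hm0 : 0 ≤ mom.toReal := ENNReal.toReal_nonneg
  have hη0 : 0 < η := by positivity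
  obtain ⟨s₁, hs₁⟩ := exists_tail hq00 hq0s hη0
  obtain ⟨s₂, hs₂⟩ := exists_tail he0 hes (η := ρ / 8) (by positivity)
  set s : Finset (Lat d) := s₁ ∪ s₂ with hs
  obtain ⟨hq's0, hq't0⟩ := hs₁ s Finset.subset_union_left
  obtain ⟨hb's0, hb't0⟩ := hs₂ s Finset.subset_union_right
  set Q : ℝ := ∑ n ∈ s, q₀ n with hQ
  have hQ0 : 0 ≤ Q := Finset.sum_nonneg fun n _ => hq00 n
  set r : ℝ := Real.sqrt (ρ / (2 * (Q + 1))) with hr
  have hr0 : 0 < r := Real.sqrt_pos.2 (by positivity)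
  have hr2 : r ^ 2 = ρ / (2 * (Q + 1)) := Real.sq_sqrt (by positivity)
  refine ⟨s, r, hr0, fun {Ω} mΩ P _ g hm hind hg q b hq0 hqle hqb => ?_⟩
  have hq's : Summable (fun n => if n ∈ s then 0 else q n) :=
    Summable.of_nonneg_of_le (fun n => by split_ifs <;> simp [hq0])
      (fun n => by split_ifs <;> simp [hqle]) hq's0
  have hq't : ∑' n, (if n ∈ s then 0 else q n) < η := by
    refine lt_of_le_of_lt (hq's.tsum_le_tsum (fun n => ?_) hq's0) hq't0
    split_ifs <;> simp [hqle]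
  have hb's : Summable (fun n => if n ∈ s then 0 else q n * ‖b n‖ ^ 2) := by
    simp_rw [hqb]; exact hb's0
  have hb't : ∑' n, (if n ∈ s then 0 else q n * ‖b n‖ ^ 2) < ρ / 8 := by
    simp_rw [hqb]; exact hb't0
  -- the tail
  set τ : Ω → ℝ≥0∞ := fun ω => ∑' n, if n ∈ s then 0 else ENNReal.ofReal (q n) * ‖g n ω‖ₑ ^ 2
    with hτ
  have hτm : Measurable τ := meas_tail2 g s _ fun n _ => hm n
  have hτi : ∫⁻ ω, τ ω ∂P ≤ ENNReal.ofReal (ρ / 16) := by
    have h1 : ∀ n, Measurable fun ω => if n ∈ s then (0 : ℝ≥0∞) else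
        ENNReal.ofReal (q n) * ‖g n ω‖ₑ ^ 2 := by
      intro n
      by_cases hn : n ∈ s
      · simp only [hn, if_true]; exact measurable_const
      · simp only [hn, if_false]; exact ((hm n).enorm.pow_const 2).const_mul _
    simp only [hτ]
    rw [lintegral_tsum fun n => (h1 n).aemeasurable]
    have h2 : ∀ n, ∫⁻ ω, (if n ∈ s then (0 : ℝ≥0∞) else
        ENNReal.ofReal (q n) * ‖g n ω‖ₑ ^ 2) ∂P =
        ENNReal.ofReal (if n ∈ s then 0 else q n) * mom := by
      intro n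
      by_cases hn : n ∈ s
      · simp [hn]
      · simp only [hn, if_false]
        rw [lintegral_const_mul _ ((hm n).enorm.pow_const 2), hmom, ← hg n,
          lintegral_map (by fun_prop) (hm n)]
    simp_rw [h2]
    have hq'0 : ∀ n, 0 ≤ (if n ∈ s then 0 else q n) := fun n => by split_ifs <;> simp [hq0]
    rw [ENNReal.tsum_mul_right, ← ENNReal.ofReal_tsum_of_nonneg hq'0 hq's,
      ← ENNReal.ofReal_toReal hmomT, ← ENNReal.ofReal_mul (tsum_nonneg hq'0)]
    apply ENNReal.ofReal_le_ofReal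
    calc (∑' n, if n ∈ s then 0 else q n) * mom.toReal ≤ η * (mom.toReal + 1) := by
          gcongr
          linarith
      _ = ρ / 16 := by rw [hη]; field_simp
  have hB : (1 / 2 : ℝ≥0∞) ≤ P {ω | τ ω < ENNReal.ofReal (ρ / 8)} := by
    have h1 := mul_meas_ge_le_lintegral (μ := P) hτm (ENNReal.ofReal (ρ / 8))
    have h2 : P {ω | ENNReal.ofReal (ρ / 8) ≤ τ ω} ≤ 1 / 2 := by
      have h3 : ENNReal.ofReal (ρ / 8) * P {ω | ENNReal.ofReal (ρ / 8) ≤ τ ω} ≤
          ENNReal.ofReal (ρ / 8) * (1 / 2) := by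
        refine (h1.trans hτi).trans (le_of_eq ?_)
        rw [show (1 / 2 : ℝ≥0∞) = ENNReal.ofReal (1 / 2) by
          rw [ENNReal.ofReal_div_of_pos (by norm_num)]; simp, ← ENNReal.ofReal_mul (by positivity)]
        congr 1
        ring
      exact (ENNReal.mul_le_mul_iff_right (ENNReal.ofReal_pos.2 (by positivity)).ne'
        ENNReal.ofReal_ne_top).1 h3
    have h3 : {ω | τ ω < ENNReal.ofReal (ρ / 8)} = {ω | ENNReal.ofReal (ρ / 8) ≤ τ ω}ᶜ := by
      ext ω; simp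
    rw [h3, prob_compl_eq_one_sub (measurableSet_le measurable_const hτm)]
    calc (1 / 2 : ℝ≥0∞) = 1 - 1 / 2 := by
          rw [one_div, ENNReal.one_sub_inv_two]
      _ ≤ _ := tsub_le_tsub_left h2 1
  -- the low modes
  have hA : P (⋂ n ∈ s, g n ⁻¹' closedBall (b n) r) =
      ∏ n ∈ s, stdComplexGaussian (closedBall (b n) r) := by
    rw [hind.measure_inter_preimage_eq_mul s fun n _ => measurableSet_closedBall]
    refine Finset.prod_congr rfl fun n _ => ?_
    rw [← Measure.map_apply (hm n) measurableSet_closedBall, hg n]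
  -- independence
  have hI := indep_iSup_of_disjoint (m := fun n => MeasurableSpace.comap (g n) inferInstance)
    (fun n => (hm n).comap_le) hind (S := (s : Set (Lat d))) (T := (s : Set (Lat d))ᶜ)
    disjoint_compl_right
  have hAm : MeasurableSet[⨆ n ∈ (s : Set (Lat d)), MeasurableSpace.comap (g n) inferInstance]
      (⋂ n ∈ s, g n ⁻¹' closedBall (b n) r) :=
    @meas_near d Ω (⨆ n ∈ (s : Set (Lat d)), MeasurableSpace.comap (g n) inferInstance) g s b r
      fun n hn => Measurable.of_comap_le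
        (le_iSup₂_of_le (f := fun n (_ : n ∈ (s : Set (Lat d))) =>
          MeasurableSpace.comap (g n) inferInstance) n hn le_rfl)
  have hBm : MeasurableSet[⨆ n ∈ (s : Set (Lat d))ᶜ, MeasurableSpace.comap (g n) inferInstance]
      {ω | τ ω < ENNReal.ofReal (ρ / 8)} := by
    have h1 := @meas_tail2 d Ω (⨆ n ∈ (s : Set (Lat d))ᶜ, MeasurableSpace.comap (g n) inferInstance)
      g s (fun n => ENNReal.ofReal (q n)) fun n hn => Measurable.of_comap_le
        (le_iSup₂_of_le (f := fun n (_ : n ∈ (s : Set (Lat d))ᶜ) =>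
          MeasurableSpace.comap (g n) inferInstance) n hn le_rfl)
    exact h1 measurableSet_Iio
  have hAB := (Indep_iff _ _ _).1 hI _ _ hAm hBm
  have hpos : (1 / 2 : ℝ≥0∞) * ∏ n ∈ s, stdComplexGaussian (closedBall (b n) r) ≤
      P ((⋂ n ∈ s, g n ⁻¹' closedBall (b n) r) ∩ {ω | τ ω < ENNReal.ofReal (ρ / 8)}) := by
    rw [hAB, hA, mul_comm]
    gcongr
  refine hpos.trans (measure_mono ?_)
  rintro ω ⟨hω1, hω2⟩
  simp only [mem_iInter, mem_preimage, mem_closedBall, dist_eq_norm] at hω1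
  simp only [mem_ofPred_eq] at hω2 ⊢
  have h2sq : ∀ x y : ℂ, ‖x - y‖ₑ ^ 2 ≤ 2 * ‖x‖ₑ ^ 2 + 2 * ‖y‖ₑ ^ 2 := by
    intro x y
    rw [← ofReal_norm, ← ofReal_norm, ← ofReal_norm, ← ENNReal.ofReal_pow (norm_nonneg _),
      ← ENNReal.ofReal_pow (norm_nonneg _), ← ENNReal.ofReal_pow (norm_nonneg _),
      show (2 : ℝ≥0∞) = ENNReal.ofReal 2 by simp, ← ENNReal.ofReal_mul (by norm_num),
      ← ENNReal.ofReal_mul (by norm_num), ← ENNReal.ofReal_add (by positivity) (by positivity)]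
    apply ENNReal.ofReal_le_ofReal
    have h1 := norm_sub_le x y
    have h2 := norm_nonneg (x - y)
    nlinarith [sq_nonneg (‖x‖ - ‖y‖), norm_nonneg x, norm_nonneg y]
  have h1 : ∀ n, ENNReal.ofReal (q n) * ‖g n ω - b n‖ₑ ^ 2 ≤
      (if n ∈ s then ENNReal.ofReal (q n * r ^ 2) else 0) +
      (2 * (if n ∈ s then 0 else ENNReal.ofReal (q n) * ‖g n ω‖ₑ ^ 2) +
        2 * ENNReal.ofReal (if n ∈ s then 0 else q n * ‖b n‖ ^ 2)) := by
    intro n
    by_cases hn : n ∈ s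
    · simp only [hn, if_true, mul_zero, ENNReal.ofReal_zero, add_zero]
      rw [ENNReal.ofReal_mul (hq0 n), ENNReal.ofReal_pow hr0.le, ← ofReal_norm]
      gcongr
      exact hω1 n hn
    · simp only [hn, if_false, zero_add]
      calc ENNReal.ofReal (q n) * ‖g n ω - b n‖ₑ ^ 2
          ≤ ENNReal.ofReal (q n) * (2 * ‖g n ω‖ₑ ^ 2 + 2 * ‖b n‖ₑ ^ 2) := by
            gcongr
            exact h2sq _ _
        _ = 2 * (ENNReal.ofReal (q n) * ‖g n ω‖ₑ ^ 2) +
            2 * (ENNReal.ofReal (q n) * ‖b n‖ₑ ^ 2) := by ring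
        _ = _ := by
            rw [ENNReal.ofReal_mul (hq0 n), ENNReal.ofReal_pow (norm_nonneg _), ofReal_norm]
  calc ∑' n, ENNReal.ofReal (q n) * ‖g n ω - b n‖ₑ ^ 2
      ≤ ∑' n, ((if n ∈ s then ENNReal.ofReal (q n * r ^ 2) else 0) +
        (2 * (if n ∈ s then 0 else ENNReal.ofReal (q n) * ‖g n ω‖ₑ ^ 2) +
          2 * ENNReal.ofReal (if n ∈ s then 0 else q n * ‖b n‖ ^ 2))) := ENNReal.tsum_le_tsum h1
    _ = (∑' n, if n ∈ s then ENNReal.ofReal (q n * r ^ 2) else 0) +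
        (2 * τ ω + 2 * ∑' n, ENNReal.ofReal (if n ∈ s then 0 else q n * ‖b n‖ ^ 2)) := by
        rw [ENNReal.tsum_add, ENNReal.tsum_add, ENNReal.tsum_mul_left, ENNReal.tsum_mul_left]
    _ = ENNReal.ofReal ((∑ n ∈ s, q n) * r ^ 2) +
        (2 * τ ω + 2 * ENNReal.ofReal (∑' n, if n ∈ s then 0 else q n * ‖b n‖ ^ 2)) := by
        congr 1
        · rw [tsum_eq_sum (s := s) (fun n hn => if_neg hn),
            Finset.sum_congr rfl fun n hn => if_pos hn,
            ← ENNReal.ofReal_sum_of_nonneg fun n _ => mul_nonneg (hq0 n) (by positivity),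
            Finset.sum_mul]
        · rw [ENNReal.ofReal_tsum_of_nonneg (fun n => by
            split_ifs
            · exact le_rfl
            · exact mul_nonneg (hq0 n) (by positivity)) hb's]
    _ ≤ ENNReal.ofReal (ρ / 2) + (2 * ENNReal.ofReal (ρ / 8) + 2 * ENNReal.ofReal (ρ / 8)) := by
        have hsum : ∑ n ∈ s, q n ≤ Q := Finset.sum_le_sum fun n _ => hqle n
        gcongr
        calc (∑ n ∈ s, q n) * r ^ 2 ≤ Q * r ^ 2 := by gcongr
          _ ≤ ρ / 2 := by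
            rw [hr2, mul_div_assoc', div_le_div_iff₀ (by positivity) (by positivity)]
            nlinarith
    _ = ENNReal.ofReal ρ := by
        rw [show (2 : ℝ≥0∞) = ENNReal.ofReal 2 by simp, ← ENNReal.ofReal_mul (by norm_num),
          ← ENNReal.ofReal_add (by positivity) (by positivity),
          ← ENNReal.ofReal_add (by positivity) (by positivity)]
        congr 1
        ring

theorem jap_pos (n : Lat d) : 0 < Real.sqrt (1 + sqNorm n) := by
  refine Real.sqrt_pos.2 ?_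
  have : 0 ≤ sqNorm n := Finset.sum_nonneg fun j _ => sq_nonneg _
  linarith

theorem one_le_jap (n : Lat d) : 1 ≤ Real.sqrt (1 + sqNorm n) := by
  rw [Real.one_le_sqrt]
  have : 0 ≤ sqNorm n := Finset.sum_nonneg fun j _ => sq_nonneg _
  linarith

/-- A ball of `H^k` has probability at least `exp (-K^α)`, uniformly in `α ≥ α₀` and in the
probability space. -/
theorem ball_lower_unif {α₀ : ℝ} (hα₀ : (k : ℝ) + d / 2 < α₀) {a : Lat d → ℂ}
    (ha : MemSobolev k a) {δ : ℝ} (hδ : 0 < δ) : ∃ K : ℝ, 1 < K ∧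
      ∀ {Ω : Type*} [MeasurableSpace Ω] (P : Measure Ω) [IsProbabilityMeasure P]
      (g : Lat d → Ω → ℂ), (∀ n, Measurable (g n)) → iIndepFun g P →
      (∀ n, P.map (g n) = stdComplexGaussian) → ∀ α : ℝ, α₀ ≤ α →
      ENNReal.ofReal (Real.exp (-(K ^ α))) ≤ P {ω | MemSobolev k (datum g α ω) ∧
        sobolevSq k (fun n => datum g α ω n - a n) < δ} := by
  have hs1 : ∀ n : Lat d, 0 < 1 + sqNorm n := fun n => by
    have : 0 ≤ sqNorm n := Finset.sum_nonneg fun j _ => sq_nonneg _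
    linarith
  have hs0 : ∀ n : Lat d, 0 < Real.sqrt (1 + sqNorm n) := jap_pos
  set q : ℝ → Lat d → ℝ := fun α n =>
    (1 + sqNorm n) ^ k * (Real.sqrt (1 + sqNorm n) ^ (-α)) ^ 2 with hq
  have hq0 : ∀ α n, 0 ≤ q α n := fun α n => by
    have := hs1 n
    positivity
  have hqs : Summable (q α₀) := by
    refine (summable_rpow_weight (d := d) (β := 2 * α₀ - 2 * k) (by linarith)).congr fun n => ?_
    have e1 : (1 + sqNorm n) ^ k = Real.sqrt (1 + sqNorm n) ^ (2 * (k : ℝ)) := by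
      rw [Real.rpow_mul (hs0 n).le, Real.rpow_natCast]
      congr 1
      rw [show (2 : ℝ) = ((2 : ℕ) : ℝ) by norm_num, Real.rpow_natCast, Real.sq_sqrt (hs1 n).le]
    have e2 : (Real.sqrt (1 + sqNorm n) ^ (-α₀)) ^ 2 = Real.sqrt (1 + sqNorm n) ^ (-α₀ * 2) := by
      rw [Real.rpow_mul (hs0 n).le, show (2 : ℝ) = ((2 : ℕ) : ℝ) by norm_num, Real.rpow_natCast]
    rw [hq]
    simp only
    rw [e1, e2, ← Real.rpow_add (hs0 n), ← Real.rpow_neg (hs0 n).le]
    congr 1
    ring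
  have hqle : ∀ α, α₀ ≤ α → ∀ n, q α n ≤ q α₀ n := fun α hα n => by
    have h1 : Real.sqrt (1 + sqNorm n) ^ (-α) ≤ Real.sqrt (1 + sqNorm n) ^ (-α₀) :=
      Real.rpow_le_rpow_of_exponent_le (one_le_jap n) (by linarith)
    have h2 : 0 ≤ Real.sqrt (1 + sqNorm n) ^ (-α) := Real.rpow_nonneg (hs0 n).le _
    have h3 := hs1 n
    simp only [hq]
    gcongr
  set b : ℝ → Lat d → ℂ := fun α n => a n * ((Real.sqrt (1 + sqNorm n) ^ α : ℝ) : ℂ) with hb
  have hcancel : ∀ (α : ℝ) (n : Lat d),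
      Real.sqrt (1 + sqNorm n) ^ α * Real.sqrt (1 + sqNorm n) ^ (-α) = 1 := fun α n => by
    rw [← Real.rpow_add (hs0 n), add_neg_cancel, Real.rpow_zero]
  have hbn : ∀ α n, ‖b α n‖ = ‖a n‖ * Real.sqrt (1 + sqNorm n) ^ α := fun α n => by
    simp only [hb]
    rw [norm_mul, Complex.norm_real, Real.norm_of_nonneg (Real.rpow_nonneg (hs0 n).le _)]
  have hqb : ∀ α n, q α n * ‖b α n‖ ^ 2 = (1 + sqNorm n) ^ k * ‖a n‖ ^ 2 := by
    intro α n
    rw [hbn]
    simp only [hq]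
    have := hcancel α n
    symm
    calc (1 + sqNorm n) ^ k * ‖a n‖ ^ 2 = (1 + sqNorm n) ^ k * ‖a n‖ ^ 2 *
          (Real.sqrt (1 + sqNorm n) ^ α * Real.sqrt (1 + sqNorm n) ^ (-α)) ^ 2 := by
            rw [this]; ring
      _ = _ := by ring
  obtain ⟨s, r, hr0, hball⟩ := near_ball_lower (q₀ := q α₀) (hq0 α₀) hqs
    (e := fun n => (1 + sqNorm n) ^ k * ‖a n‖ ^ 2)
    (fun n => by have := hs1 n; positivity) ha (half_pos hδ)
  obtain ⟨C, hC, hgauss⟩ := H597.std_closedBall_lower hr0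
  -- the constants
  set M : ℝ := 1 + ∑ n ∈ s, Real.sqrt (1 + sqNorm n) with hM
  have hM1 : 1 ≤ M := by
    have : 0 ≤ ∑ n ∈ s, Real.sqrt (1 + sqNorm n) := Finset.sum_nonneg fun n _ => (hs0 n).le
    linarith
  have hMle : ∀ n ∈ s, Real.sqrt (1 + sqNorm n) ≤ M := fun n hn => by
    have := Finset.single_le_sum (f := fun n => Real.sqrt (1 + sqNorm n))
      (fun n _ => (hs0 n).le) hn
    linarith
  set A : ℝ := ∑ n ∈ s, ‖a n‖ ^ 2 with hA
  have hA0 : 0 ≤ A := Finset.sum_nonneg fun n _ => by positivity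
  set D : ℝ := Real.log 2 + C * s.card + C * A with hD
  have hlog : 0 < Real.log 2 := Real.log_pos (by norm_num)
  have hD0 : 0 < D := by positivity
  have hα₀0 : 0 < α₀ := lt_of_le_of_lt (by positivity) hα₀
  refine ⟨(D + 1) ^ (1 / α₀) * M ^ 2, ?_, ?_⟩
  · have h1 : 1 < (D + 1) ^ (1 / α₀) := Real.one_lt_rpow (by linarith) (by positivity)
    have h2 : 1 ≤ M ^ 2 := one_le_pow₀ hM1
    nlinarith
  intro Ω mΩ P _ g hm hind hg α hα
  have hα0 : 0 < α := hα₀0.trans_le hα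
  have hKα : ((D + 1) ^ (1 / α₀) * M ^ 2) ^ α = (D + 1) ^ (α / α₀) * (M ^ α) ^ 2 := by
    rw [Real.mul_rpow (by positivity) (by positivity), ← Real.rpow_mul (by positivity),
      one_div_mul_eq_div]
    congr 1
    rw [← Real.rpow_natCast, ← Real.rpow_natCast, ← Real.rpow_mul (by positivity),
      ← Real.rpow_mul (by positivity), mul_comm]
  have hMα : 1 ≤ M ^ α := Real.one_le_rpow hM1 hα0.le
  have hexp : Real.log 2 + C * ∑ n ∈ s, (1 + ‖b α n‖ ^ 2) ≤
      ((D + 1) ^ (1 / α₀) * M ^ 2) ^ α := by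
    rw [hKα]
    have h1 : D + 1 ≤ (D + 1) ^ (α / α₀) := by
      have h2 : (D + 1) ^ (1 : ℝ) ≤ (D + 1) ^ (α / α₀) :=
        Real.rpow_le_rpow_of_exponent_le (by linarith) (by rwa [one_le_div hα₀0])
      rwa [Real.rpow_one] at h2
    have h3 : ∑ n ∈ s, (1 + ‖b α n‖ ^ 2) ≤ s.card + A * (M ^ α) ^ 2 := by
      rw [Finset.sum_add_distrib, Finset.sum_const, nsmul_eq_mul, mul_one, hA, Finset.sum_mul]
      gcongr with n hn
      rw [hbn, mul_pow]
      have h4 := hMle n hn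
      have h5 := (hs0 n).le
      gcongr
    have h6 : 1 ≤ (M ^ α) ^ 2 := one_le_pow₀ hMα
    have hc : (0 : ℝ) ≤ C * s.card := by positivity
    calc Real.log 2 + C * ∑ n ∈ s, (1 + ‖b α n‖ ^ 2)
        ≤ Real.log 2 + C * (s.card + A * (M ^ α) ^ 2) := by gcongr
      _ ≤ D * (M ^ α) ^ 2 := by
          rw [hD]
          nlinarith [mul_le_mul_of_nonneg_left h6 hlog.le, mul_le_mul_of_nonneg_left h6 hc]
      _ ≤ (D + 1) ^ (α / α₀) * (M ^ α) ^ 2 := by
          gcongr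
          linarith
  have hprod : ENNReal.ofReal (Real.exp (-(((D + 1) ^ (1 / α₀) * M ^ 2) ^ α))) ≤
      (1 / 2 : ℝ≥0∞) * ∏ n ∈ s, stdComplexGaussian (closedBall (b α n) r) := by
    calc ENNReal.ofReal (Real.exp (-(((D + 1) ^ (1 / α₀) * M ^ 2) ^ α)))
        ≤ ENNReal.ofReal (Real.exp (-(Real.log 2 + C * ∑ n ∈ s, (1 + ‖b α n‖ ^ 2)))) := by
          apply ENNReal.ofReal_le_ofReal
          apply Real.exp_le_exp.2
          linarith
      _ = (1 / 2 : ℝ≥0∞) * ∏ n ∈ s, ENNReal.ofReal (Real.exp (-(C * (1 + ‖b α n‖ ^ 2)))) := by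
          rw [neg_add, Real.exp_add, ENNReal.ofReal_mul (Real.exp_pos _).le, Real.exp_neg,
            Real.exp_log (by norm_num), ← ENNReal.ofReal_prod_of_nonneg
            (fun n _ => (Real.exp_pos _).le), ← Real.exp_sum, Finset.sum_neg_distrib,
            Finset.mul_sum]
          congr 1
          rw [← one_div, ENNReal.ofReal_div_of_pos (by norm_num)]
          simp
      _ ≤ _ := by
          gcongr with n hn
          exact hgauss (b α n)
  refine hprod.trans ((hball P g hm hind hg (q α) (b α) (hq0 α) (hqle α hα) (hqb α)).trans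
    (measure_mono ?_))
  intro ω hω
  have hterm : ∀ n, q α n * ‖g n ω - b α n‖ ^ 2 =
      (1 + sqNorm n) ^ k * ‖datum g α ω n - a n‖ ^ 2 := by
    intro n
    have e1 : datum g α ω n - a n =
        (g n ω - b α n) * ((Real.sqrt (1 + sqNorm n) ^ (-α) : ℝ) : ℂ) := by
      simp only [hb]
      unfold datum
      have : a n = a n * (((Real.sqrt (1 + sqNorm n) ^ α : ℝ) : ℂ) *
          ((Real.sqrt (1 + sqNorm n) ^ (-α) : ℝ) : ℂ)) := by
        rw [← Complex.ofReal_mul, hcancel, Complex.ofReal_one, mul_one]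
      linear_combination -this
    rw [e1, norm_mul, Complex.norm_real, Real.norm_of_nonneg (Real.rpow_nonneg (hs0 n).le _)]
    simp only [hq]
    ring
  simp only [mem_ofPred_eq] at hω ⊢
  have hE : ∀ n, ENNReal.ofReal (q α n) * ‖g n ω - b α n‖ₑ ^ 2 =
      ENNReal.ofReal ((1 + sqNorm n) ^ k * ‖datum g α ω n - a n‖ ^ 2) := by
    intro n
    rw [← hterm, ENNReal.ofReal_mul (hq0 α n), ENNReal.ofReal_pow (norm_nonneg _), ofReal_norm]
  simp_rw [hE] at hω
  have hnn : ∀ n, 0 ≤ (1 + sqNorm n) ^ k * ‖datum g α ω n - a n‖ ^ 2 := fun n => by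
    have := hs1 n
    positivity
  have hsum : Summable fun n => (1 + sqNorm n) ^ k * ‖datum g α ω n - a n‖ ^ 2 := by
    have h1 : ∑' n, ENNReal.ofReal ((1 + sqNorm n) ^ k * ‖datum g α ω n - a n‖ ^ 2) ≠ ∞ :=
      (hω.trans_lt ENNReal.ofReal_lt_top).ne
    exact (ENNReal.summable_toReal h1).congr fun n => ENNReal.toReal_ofReal (hnn n)
  rw [← ENNReal.ofReal_tsum_of_nonneg hnn hsum, ENNReal.ofReal_le_ofReal_iff (half_pos hδ).le] at hω
  refine ⟨?_, ?_⟩
  · refine Summable.of_nonneg_of_le (fun n => ?_) (fun n => ?_) ((hsum.mul_left 2).add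
      (ha.mul_left 2))
    · have := hs1 n
      positivity
    · have h1 : ‖datum g α ω n‖ ≤ ‖datum g α ω n - a n‖ + ‖a n‖ := by
        have := norm_add_le (datum g α ω n - a n) (a n)
        simpa using this
      have h2 : ‖datum g α ω n‖ ^ 2 ≤ 2 * ‖datum g α ω n - a n‖ ^ 2 + 2 * ‖a n‖ ^ 2 := by
        nlinarith [sq_nonneg (‖datum g α ω n - a n‖ - ‖a n‖), norm_nonneg (datum g α ω n),
          norm_nonneg (datum g α ω n - a n), norm_nonneg (a n)]
      have h3 : 0 ≤ (1 + sqNorm n) ^ k := by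
        have := hs1 n
        positivity
      nlinarith [mul_le_mul_of_nonneg_left h2 h3]
  · unfold sobolevSq
    linarith

/-- A ball of `H^k` has probability at least `exp (-K^α)`, uniformly in `α ≥ α₀`. -/
theorem ball_lower {Ω : Type*} [MeasurableSpace Ω] (P : Measure Ω) [IsProbabilityMeasure P]
    (g : Lat d → Ω → ℂ) (hm : ∀ n, Measurable (g n)) (hind : iIndepFun g P)
    (hg : ∀ n, P.map (g n) = stdComplexGaussian) {α₀ : ℝ} (hα₀ : (k : ℝ) + d / 2 < α₀)
    {a : Lat d → ℂ} (ha : MemSobolev k a) {δ : ℝ} (hδ : 0 < δ) : ∃ K : ℝ, 1 < K ∧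
      ∀ α : ℝ, α₀ ≤ α → ENNReal.ofReal (Real.exp (-(K ^ α))) ≤
        P {ω | MemSobolev k (datum g α ω) ∧ sobolevSq k (fun n => datum g α ω n - a n) < δ} := by
  obtain ⟨K, hK, h⟩ := ball_lower_unif hα₀ ha hδ
  exact ⟨K, hK, fun α hα => h P g hm hind hg α hα⟩

end Vale.Agent.P139.R3.H156
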