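import Vale.Agent.P139.R3.H36.Sob

/-! # P139: smooth functions are dense in `H^k` -/

open Set Metric Filter Topology MeasureTheory
open scoped NNReal ENNReal

namespace Vale.Agent.P139.R3.H156

open Vale.Agent.P139.A Vale.Agent.P139.H203 Vale.Agent.P139.R3.H36 Vale.Agent.P139.R3.H36.HS

open Classical in
/-- The coefficients in a finite set of frequencies. -/
noncomputable def trunc {d : ℕ} (s : Finset (Lat d)) (a : Lat d → ℂ) : Lat d → ℂ :=
  fun n => if n ∈ s then a n else 0

theorem mem_trunc {d : ℕ} (l : ℕ) (s : Finset (Lat d)) (a : Lat d → ℂ) :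
    MemSobolev l (trunc s a) := by
  refine summable_of_hasFiniteSupport ?_
  refine s.finite_toSet.subset fun n hn => ?_
  by_contra h
  apply hn
  have : n ∉ s := h
  simp [trunc, this]

theorem dense_smooth {d k : ℕ} : Dense {x : HS d k | ∀ l, MemSobolev l (co x)} := by
  intro x
  have hx := memS x
  have hlim : Tendsto (fun s : Finset (Lat d) => toH k (trunc s (co x))) atTop (𝓝 x) := by
    rw [tendsto_iff_norm_sub_tendsto_zero]
    have h1 : Tendsto (fun s : Finset (Lat d) => Real.sqrt (sobolevSq k (co x) -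
        ∑ n ∈ s, (1 + sqNorm n) ^ k * ‖co x n‖ ^ 2)) atTop (𝓝 0) := by
      have h2 : Tendsto (fun s : Finset (Lat d) => sobolevSq k (co x) -
          ∑ n ∈ s, (1 + sqNorm n) ^ k * ‖co x n‖ ^ 2) atTop
          (𝓝 (sobolevSq k (co x) - sobolevSq k (co x))) := tendsto_const_nhds.sub hx.hasSum
      rw [sub_self] at h2
      have h3 := (Real.continuous_sqrt.tendsto 0).comp h2
      rwa [Real.sqrt_zero] at h3
    refine h1.congr fun s => ?_
    rw [← Real.sqrt_sq (norm_nonneg (toH k (trunc s (co x)) - x)), norm_sub_sq]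
    congr 1
    have h4 : (fun n => co (toH k (trunc s (co x))) n - co x n) =
        fun n => trunc s (co x) n - co x n := by
      funext n
      rw [co_toH (mem_trunc k s (co x))]
    rw [h4]
    unfold sobolevSq
    have h5 : ∀ n, (1 + sqNorm n) ^ k * ‖trunc s (co x) n - co x n‖ ^ 2 =
        (1 + sqNorm n) ^ k * ‖co x n‖ ^ 2 - (1 + sqNorm n) ^ k * ‖trunc s (co x) n‖ ^ 2 := by
      intro n
      by_cases h : n ∈ s
      · simp [trunc, h]
      · simp [trunc, h]
    simp_rw [h5]
    rw [Summable.tsum_sub hx (mem_trunc k s (co x))]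
    congr 1
    rw [tsum_eq_sum (s := s) fun n hn => by simp [trunc, hn]]
    refine Finset.sum_congr rfl fun n hn => ?_
    simp [trunc, hn]
  refine mem_closure_of_tendsto hlim (Eventually.of_forall fun s l => ?_)
  have h6 : co (toH k (trunc s (co x))) = trunc s (co x) := funext (co_toH (mem_trunc k s (co x)))
  rw [h6]
  exact mem_trunc l s (co x)

end Vale.Agent.P139.R3.H156
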