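import Vale.Agent.P139.R3.H156.CM
import Mathlib.MeasureTheory.Measure.Lebesgue.EqHaar
import Mathlib.MeasureTheory.Measure.Lebesgue.Complex
import Mathlib.MeasureTheory.Measure.Haar.Unique

/-! # P139, row Z1 (proof by helper54): a set invariant under a dense set of translations is null or conull -/

namespace Vale.Agent.P139.R3.H156

open MeasureTheory Topology Set
open scoped Pointwise

theorem null_or_conull {F : Type} [Fintype F] {L : Set (F → ℂ)} (hL : Dense L) {N : Set (F → ℂ)}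
    (hN : MeasurableSet N) (hinv : ∀ z : F → ℂ, ∀ l ∈ L, (z + l ∈ N ↔ z ∈ N)) :
    MeasureTheory.volume N = 0 ∨ MeasureTheory.volume Nᶜ = 0 := by
  by_contra hc
  rw [not_or] at hc
  obtain ⟨h1, h2⟩ := hc
  obtain ⟨t, ht⟩ : ∃ t : F → ℂ, volume (N ∩ {x | x - t ∈ Nᶜ}) ≠ 0 := by
    by_contra h
    push Not at h
    have hm : MeasurableSet {q : (F → ℂ) × (F → ℂ) | q.2 ∈ N ∧ q.2 - q.1 ∈ Nᶜ} :=
      (measurable_snd hN).inter ((measurable_snd.sub measurable_fst) hN.compl)
    have hf : Measurable (indicator {q : (F → ℂ) × (F → ℂ) | q.2 ∈ N ∧ q.2 - q.1 ∈ Nᶜ}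
        (fun _ => (1 : ENNReal))) := measurable_const.indicator hm
    have e1 : ∫⁻ t : F → ℂ, ∫⁻ x : F → ℂ, indicator {q : (F → ℂ) × (F → ℂ) | q.2 ∈ N ∧
        q.2 - q.1 ∈ Nᶜ} (fun _ => (1 : ENNReal)) (t, x) = 0 := by
      rw [lintegral_eq_zero_iff' hf.lintegral_prod_right'.aemeasurable]
      refine Filter.Eventually.of_forall fun t => ?_
      have : (fun x : F → ℂ => indicator {q : (F → ℂ) × (F → ℂ) | q.2 ∈ N ∧ q.2 - q.1 ∈ Nᶜ}
          (fun _ => (1 : ENNReal)) (t, x)) = indicator (N ∩ {x | x - t ∈ Nᶜ}) 1 := by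
        funext x
        rfl
      change ∫⁻ x : F → ℂ, indicator {q : (F → ℂ) × (F → ℂ) | q.2 ∈ N ∧ q.2 - q.1 ∈ Nᶜ}
          (fun _ => (1 : ENNReal)) (t, x) = 0
      have hm1 : MeasurableSet (N ∩ {x | x - t ∈ Nᶜ}) :=
        hN.inter ((measurable_id.sub_const t) hN.compl)
      rw [this, lintegral_indicator_one hm1]
      exact h t
    rw [lintegral_lintegral_swap (f := fun (t x : F → ℂ) => indicator {q : (F → ℂ) × (F → ℂ) |
      q.2 ∈ N ∧ q.2 - q.1 ∈ Nᶜ} (fun _ => (1 : ENNReal)) (t, x)) hf.aemeasurable] at e1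
    have e2 : ∀ x : F → ℂ, ∫⁻ t : F → ℂ, indicator {q : (F → ℂ) × (F → ℂ) | q.2 ∈ N ∧
        q.2 - q.1 ∈ Nᶜ} (fun _ => (1 : ENNReal)) (t, x) = indicator N (fun _ => volume Nᶜ) x := by
      intro x
      by_cases hx : x ∈ N
      · rw [indicator_of_mem hx]
        have : (fun t : F → ℂ => indicator {q : (F → ℂ) × (F → ℂ) | q.2 ∈ N ∧ q.2 - q.1 ∈ Nᶜ}
            (fun _ => (1 : ENNReal)) (t, x)) = fun t => indicator Nᶜ 1 (x - t) := by
          funext t
          by_cases h3 : x - t ∈ Nᶜ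
          · rw [indicator_of_mem h3, indicator_of_mem (show (t, x) ∈ {q : (F → ℂ) × (F → ℂ) |
              q.2 ∈ N ∧ q.2 - q.1 ∈ Nᶜ} from ⟨hx, h3⟩)]
            rfl
          · rw [indicator_of_notMem h3, indicator_of_notMem (show (t, x) ∉
              {q : (F → ℂ) × (F → ℂ) | q.2 ∈ N ∧ q.2 - q.1 ∈ Nᶜ} from fun h4 => h3 h4.2)]
        rw [this, lintegral_sub_left_eq_self (fun t => indicator Nᶜ 1 t) x,
          lintegral_indicator_one hN.compl]
      · rw [indicator_of_notMem hx]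
        have : (fun t : F → ℂ => indicator {q : (F → ℂ) × (F → ℂ) | q.2 ∈ N ∧ q.2 - q.1 ∈ Nᶜ}
            (fun _ => (1 : ENNReal)) (t, x)) = fun _ => 0 := by
          funext t
          exact indicator_of_notMem (fun h4 => hx h4.1) _
        rw [this, lintegral_zero]
    rw [lintegral_congr e2, lintegral_indicator hN, setLIntegral_const] at e1
    rcases mul_eq_zero.1 e1 with h3 | h3
    · exact h2 h3
    · exact h1 h3
  set C : Set (F → ℂ) := N ∩ {x | x - t ∈ Nᶜ} with hC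
  have hCm : MeasurableSet C := hN.inter ((measurable_id.sub_const t) hN.compl)
  have hst : C - C ∈ 𝓝 (0 : F → ℂ) :=
    Measure.sub_mem_nhds_zero_of_addHaar_pos volume C hCm (pos_iff_ne_zero.2 ht)
  have hn : {l : F → ℂ | l - t ∈ C - C} ∈ 𝓝 t := by
    have hc : Filter.Tendsto (fun l : F → ℂ => l - t) (𝓝 t) (𝓝 0) := by
      have : ContinuousAt (fun l : F → ℂ => l - t) t := by fun_prop
      have h := this.tendsto
      rwa [sub_self] at h
    exact hc hst
  obtain ⟨l, hlL, hl⟩ := hL.inter_nhds_nonempty hn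
  obtain ⟨c, hc, c', hc', he⟩ := Set.mem_sub.1 hl
  have e : c = (c' - t) + l := by
    have : c - c' = l - t := he
    rw [sub_eq_iff_eq_add] at this
    rw [this]; abel
  have h3 := (hinv (c' - t) l hlL).1 (e ▸ hc.1)
  exact hc'.2 h3

end Vale.Agent.P139.R3.H156
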