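import Mathlib

set_option linter.all false

namespace Vale.Agent.P139.R3.H156

open MeasureTheory Set

theorem null_or_conull {F : Type} [Fintype F] {L : Set (F → ℂ)} (hL : Dense L)
    {N : Set (F → ℂ)} (hN : MeasurableSet N)
    (hinv : ∀ z : F → ℂ, ∀ l ∈ L, (z + l ∈ N ↔ z ∈ N)) :
    MeasureTheory.volume N = 0 ∨ MeasureTheory.volume Nᶜ = 0 := by
  set ν : Measure (F → ℂ) := volume.restrict N with hν
  have hfin : IsFiniteMeasureOnCompacts ν := ⟨fun K hK =>
    lt_of_le_of_lt (Measure.restrict_apply_le _ _) hK.measure_lt_top⟩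
  have key : ∀ (φ : (F → ℂ) → ℝ), Continuous φ → HasCompactSupport φ → ∀ x : F → ℂ,
      ∫ y, φ (y - x) ∂ν = ∫ y, φ y ∂ν := by
    intro φ hφ hc
    have h1 : Continuous fun x : F → ℂ => ∫ y, (fun u => φ (-u)) (-y + x) ∂ν :=
      continuous_integral_apply_neg_add (hφ.comp continuous_neg)
        (hc.comp_homeomorph (Homeomorph.neg (F → ℂ)))
    have h2 : (fun x : F → ℂ => ∫ y, (fun u => φ (-u)) (-y + x) ∂ν) =
        fun x => ∫ y, φ (y - x) ∂ν := by
      funext x
      refine integral_congr_ae (Filter.Eventually.of_forall fun y => ?_)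
      change φ (-(-y + x)) = φ (y - x)
      congr 1
      abel
    rw [h2] at h1
    have h3 : EqOn (fun x => ∫ y, φ (y - x) ∂ν) (fun _ => ∫ y, φ y ∂ν) L := by
      intro l hl
      change ∫ y, φ (y - l) ∂ν = ∫ y, φ y ∂ν
      rw [hν, ← integral_indicator hN, ← integral_indicator hN,
        ← integral_add_right_eq_self (fun y => N.indicator (fun y => φ (y - l)) y) l]
      refine integral_congr_ae (Filter.Eventually.of_forall fun y => ?_)
      simp only [Set.indicator]
      by_cases hy : y ∈ N
      · rw [if_pos ((hinv y l hl).2 hy), if_pos hy, add_sub_cancel_right]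
      · rw [if_neg (fun h => hy ((hinv y l hl).1 h)), if_neg hy]
    intro x
    exact congrFun (h1.ext_on hL continuous_const h3) x
  have hinv' : ν.IsAddLeftInvariant := by
    refine ⟨fun g => ?_⟩
    have : IsFiniteMeasureOnCompacts (Measure.map (fun x => g + x) ν) := by
      refine ⟨fun K hK => ?_⟩
      rw [Measure.map_apply (by fun_prop) hK.measurableSet]
      exact ((Homeomorph.addLeft g).isCompact_preimage.2 hK).measure_lt_top
    refine Measure.ext_of_integral_eq_on_compactlySupported fun φ => ?_
    rw [integral_map (by fun_prop) (by fun_prop)]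
    have h := key φ φ.continuous φ.hasCompactSupport (-g)
    rw [← h]
    refine integral_congr_ae (Filter.Eventually.of_forall fun y => ?_)
    change φ (g + y) = φ (y - -g)
    congr 1
    abel
  have h1 := Measure.isAddLeftInvariant_eq_smul ν (volume : Measure (F → ℂ))
  have h2 : ν Nᶜ = 0 := by
    rw [hν, Measure.restrict_apply hN.compl, compl_inter_self, measure_empty]
  rw [h1, Measure.smul_apply, smul_eq_zero] at h2
  rcases h2 with h2 | h2
  · left
    have h3 : ν N = 0 := by
      rw [h1, h2, zero_smul]; rfl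
    rwa [hν, Measure.restrict_apply_self] at h3
  · right
    exact h2

end Vale.Agent.P139.R3.H156
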