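import Mathlib

open MeasureTheory Filter Set Topology
open scoped Pointwise

namespace Vale.Agent.P139.R3.H156

theorem null_or_conull {F : Type} [Fintype F] {L : Set (F → ℂ)} (hL : Dense L) {N : Set (F → ℂ)}
    (hN : MeasurableSet N) (hinv : ∀ z : F → ℂ, ∀ l ∈ L, (z + l ∈ N ↔ z ∈ N)) :
    MeasureTheory.volume N = 0 ∨ MeasureTheory.volume Nᶜ = 0 := by
  have key : ∀ (t : F → ℂ) (E : Set (F → ℂ)), MeasurableSet E → volume E ≠ 0 →
      ∃ l ∈ L, ∃ x ∈ E, ∃ y ∈ E, y + l = t + x := by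
    intro t E hE hE0
    have h1 : E - E ∈ 𝓝 (0 : F → ℂ) :=
      Measure.sub_mem_nhds_zero_of_addHaar_pos volume E hE (pos_iff_ne_zero.mpr hE0)
    have h2 : (fun l : F → ℂ => l - t) ⁻¹' (E - E) ∈ 𝓝 t := by
      have : ContinuousAt (fun l : F → ℂ => l - t) t := by fun_prop
      refine this.preimage_mem_nhds ?_
      simpa using h1
    obtain ⟨l, hl1, hl2⟩ := hL.inter_nhds_nonempty h2
    obtain ⟨x, hx, y, hy, hxy⟩ := hl2
    refine ⟨l, hl1, x, hx, y, hy, ?_⟩
    have : x - y = l - t := hxy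
    have h3 : x = l - t + y := by rw [← this]; abel
    rw [h3]
    abel
  have hall : ∀ t : F → ℂ, (t +ᵥ ·) ⁻¹' N =ᵐ[volume] N := by
    intro t
    have hm : MeasurableSet ((t +ᵥ ·) ⁻¹' N) := (measurable_const_vadd t) hN
    refine Filter.EventuallyLE.antisymm ?_ ?_
    · rw [ae_le_set]
      by_contra h0
      obtain ⟨l, hl, x, hx, y, hy, hxy⟩ := key t _ (hm.diff hN) h0
      have hx1 : t + x ∈ N := hx.1
      rw [← hxy, hinv y l hl] at hx1
      exact hy.2 hx1
    · rw [ae_le_set]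
      by_contra h0
      obtain ⟨l, hl, x, hx, y, hy, hxy⟩ := key t _ (hN.diff hm) h0
      have hx1 : t + x ∉ N := hx.2
      rw [← hxy, hinv y l hl] at hx1
      exact hx1 hy.1
  have := aeconst_of_forall_preimage_vadd_ae_eq (F → ℂ) (μ := (volume : Measure (F → ℂ)))
    hN.nullMeasurableSet hall
  rcases eventuallyConst_set.mp this with h | h
  · right
    rw [← mem_ae_iff]
    exact h
  · left
    rw [measure_eq_zero_iff_ae_notMem]
    exact h

end Vale.Agent.P139.R3.H156
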