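import Mathlib

/-!
# P139, row Z1: a measurable set invariant under a dense set of translations is null or conull
-/

open MeasureTheory Filter Topology
open scoped Convolution

namespace Vale.Agent.P139.R3.H156

theorem null_or_conull {F : Type} [Fintype F] {L : Set (F → ℂ)} (hL : Dense L)
    {N : Set (F → ℂ)} (hN : MeasurableSet N)
    (hinv : ∀ z : F → ℂ, ∀ l ∈ L, (z + l ∈ N ↔ z ∈ N)) :
    MeasureTheory.volume N = 0 ∨ MeasureTheory.volume Nᶜ = 0 := by
  classical
  let g : (F → ℂ) → ℝ := N.indicator fun _ => 1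
  have hg : LocallyIntegrable g (volume : Measure (F → ℂ)) :=
    (locallyIntegrable_const (1 : ℝ)).indicator hN
  have hgl : ∀ z : F → ℂ, ∀ l ∈ L, g (z + l) = g z := fun z l hl => by
    by_cases h : z ∈ N
    · have h' := (hinv z l hl).2 h
      simp [g, h, h']
    · have h' : z + l ∉ N := fun k => h ((hinv z l hl).1 k)
      simp [g, h, h']
  let φ : ℕ → ContDiffBump (0 : F → ℂ) := fun n =>
    { rIn := 1 / ((n : ℝ) + 1)
      rOut := 2 / ((n : ℝ) + 1)
      rIn_pos := by positivity
      rIn_lt_rOut := by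
        have : (0 : ℝ) < (n : ℝ) + 1 := by positivity
        gcongr
        norm_num }
  have hφ : Tendsto (fun n => (φ n).rOut) atTop (𝓝 0) := by
    change Tendsto (fun n : ℕ => 2 / ((n : ℝ) + 1)) atTop (𝓝 0)
    have h1 := (tendsto_one_div_add_atTop_nhds_zero_nat (𝕜 := ℝ)).const_mul 2
    rw [mul_zero] at h1
    refine h1.congr fun n => ?_
    ring
  have hφ' : ∀ᶠ n in atTop, (φ n).rOut ≤ 2 * (φ n).rIn := by
    refine Eventually.of_forall fun n => ?_
    change 2 / ((n : ℝ) + 1) ≤ 2 * (1 / ((n : ℝ) + 1))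
    exact le_of_eq (by ring)
  have hae := ContDiffBump.ae_convolution_tendsto_right_of_locallyIntegrable
    (μ := (volume : Measure (F → ℂ))) (g := g) hφ hφ' hg
  set c : ℕ → (F → ℂ) → ℝ := fun n =>
    ((φ n).normed volume ⋆[ContinuousLinearMap.lsmul ℝ ℝ, volume] g) with hc
  have hcont : ∀ n, Continuous (c n) := fun n =>
    HasCompactSupport.continuous_convolution_left _ (φ n).hasCompactSupport_normed
      (φ n).continuous_normed hg
  have hper : ∀ n x, ∀ l ∈ L, c n (x + l) = c n x := by
    intro n x l hl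
    simp only [hc, convolution_def]
    refine integral_congr_ae (Eventually.of_forall fun t => ?_)
    change (ContinuousLinearMap.lsmul ℝ ℝ) ((φ n).normed volume t) (g (x + l - t)) =
      (ContinuousLinearMap.lsmul ℝ ℝ) ((φ n).normed volume t) (g (x - t))
    rw [add_sub_right_comm, hgl _ l hl]
  have hconst : ∀ n x, c n x = c n 0 := by
    intro n x
    have h1 : (fun t => c n (0 + t)) = fun _ => c n 0 := by
      refine Continuous.ext_on hL ((hcont n).comp (continuous_const.add continuous_id))
        continuous_const fun l hl => ?_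
      exact hper n 0 l hl
    have h2 := congrFun h1 x
    simpa using h2
  by_contra hcon
  push Not at hcon
  obtain ⟨h1, h2⟩ := hcon
  have hex : ∀ A : Set (F → ℂ), volume A ≠ 0 → ∃ x ∈ A,
      Tendsto (fun n => c n x) atTop (𝓝 (g x)) := by
    intro A hA
    by_contra h
    push Not at h
    refine hA (measure_mono_null (fun x hx => ?_) (ae_iff.1 hae))
    exact h x hx
  obtain ⟨x, hx, hx'⟩ := hex N h1
  obtain ⟨y, hy, hy'⟩ := hex Nᶜ h2
  have e1 : g x = 1 := by simp [g, hx]
  have e2 : g y = 0 := by simp [g, show y ∉ N from hy]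
  rw [e1] at hx'
  rw [e2] at hy'
  simp only [hconst] at hx' hy'
  exact one_ne_zero (tendsto_nhds_unique hx' hy')

end Vale.Agent.P139.R3.H156
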