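import Vale.Agent.P139.R3.H156.CM
import Mathlib.Probability.Independence.InfinitePi

/-!
P139 (proof by helper917, row Z2): a zero-one law for sets which are almost tail sets.
-/

open MeasureTheory ProbabilityTheory Set

namespace Vale.Agent.P139.R3.H156

/-- the coordinate sigma-algebras -/
theorem indep_coord {ι : Type} {γ : Measure ℂ} [IsProbabilityMeasure γ] :
    iIndep (fun i : ι => MeasurableSpace.comap (fun x : ι → ℂ => x i) inferInstance)
      (Measure.infinitePi fun _ : ι => γ) := by
  have h := iIndepFun_infinitePi (P := fun _ : ι => γ) (X := fun _ : ι => (id : ℂ → ℂ))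
    (fun _ => measurable_id)
  exact h

theorem zero_one_of_tail {ι : Type} [Countable ι] {γ : Measure ℂ} [IsProbabilityMeasure γ]
    {A : Set (ι → ℂ)} (hA : MeasurableSet A)
    (h : ∀ s : Finset ι, ∃ B : Set (ι → ℂ), MeasurableSet B ∧
      (∀ x y : ι → ℂ, (∀ n, n ∉ s → x n = y n) → (x ∈ B ↔ y ∈ B)) ∧
      (Measure.infinitePi fun _ : ι => γ) (symmDiff A B) = 0) :
    (Measure.infinitePi fun _ : ι => γ) A = 0 ∨ (Measure.infinitePi fun _ : ι => γ) A = 1 := by
  classical
  set μ : Measure (ι → ℂ) := Measure.infinitePi fun _ : ι => γ with hμ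
  have hcyl : ∀ C ∈ measurableCylinders (fun _ : ι => ℂ), μ (A ∩ C) = μ A * μ C := by
    intro C hC
    obtain ⟨s, S, hS, rfl⟩ := (mem_measurableCylinders C).1 hC
    obtain ⟨B, hB, hBs, hAB⟩ := h s
    have hae : A =ᵐ[μ] B := measure_symmDiff_eq_zero_iff.1 hAB
    have h1 : μ (A ∩ cylinder s S) = μ (B ∩ cylinder s S) :=
      measure_congr (hae.inter (ae_eq_refl _))
    have h2 : μ A = μ B := measure_congr hae
    rw [h1, h2]
    have hind := indep_iSup_of_disjoint
      (m := fun i : ι => MeasurableSpace.comap (fun x : ι → ℂ => x i) inferInstance)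
      (fun i => (measurable_pi_apply i).comap_le) (indep_coord (ι := ι) (γ := γ))
      (S := {i | i ∉ s}) (T := {i | i ∈ s})
      (Set.disjoint_left.2 fun i h1 h2 => h1 h2)
    refine (Indep_iff _ _ μ).1 hind B (cylinder s S) ?_ ?_
    · have hφ : Measurable[⨆ i ∈ {i | i ∉ s}, MeasurableSpace.comap
          (fun x : ι → ℂ => x i) inferInstance] (fun x : ι → ℂ => fun i => if i ∈ s then (0 : ℂ) else x i) := by
        refine @measurable_pi_lambda _ _ _ (_) _ _ fun i => ?_
        by_cases hi : i ∈ s
        · simp only [hi, if_true]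
          exact @measurable_const _ _ _ (_) _
        · simp only [hi, if_false]
          exact (comap_measurable fun x : ι → ℂ => x i).mono
            (le_iSup₂_of_le (f := fun i (_ : i ∈ {i | i ∉ s}) => MeasurableSpace.comap
              (fun x : ι → ℂ => x i) inferInstance) i hi le_rfl) le_rfl
      have hpre : (fun x : ι → ℂ => fun i => if i ∈ s then (0 : ℂ) else x i) ⁻¹' B = B := by
        ext x
        exact hBs _ _ fun n hn => by simp [hn]
      rw [← hpre]
      exact hφ hB
    · have hφ : Measurable[⨆ i ∈ {i | i ∈ s}, MeasurableSpace.comap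
          (fun x : ι → ℂ => x i) inferInstance] (fun x : ι → ℂ => s.restrict x) := by
        refine @measurable_pi_lambda _ _ _ (_) _ _ fun i => ?_
        exact (comap_measurable fun x : ι → ℂ => x i.1).mono
            (le_iSup₂_of_le (f := fun i (_ : i ∈ {i | i ∈ s}) => MeasurableSpace.comap
              (fun x : ι → ℂ => x i) inferInstance) i.1 i.2 le_rfl) le_rfl
      exact hφ hS
  have hall : μ.restrict A = (μ A) • μ := by
    refine ext_of_generate_finite _ generateFrom_measurableCylinders.symm
      isPiSystem_measurableCylinders ?_ ?_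
    · intro C hC
      have hCm : MeasurableSet C := by
        obtain ⟨s, S, hS, rfl⟩ := (mem_measurableCylinders C).1 hC
        exact hS.cylinder
      rw [Measure.restrict_apply hCm, Set.inter_comm, hcyl C hC, Measure.smul_apply, smul_eq_mul]
    · rw [Measure.restrict_apply MeasurableSet.univ, Set.univ_inter, Measure.smul_apply,
        measure_univ, smul_eq_mul, mul_one]
  have hAA : μ A = μ A * μ A := by
    have := congrArg (fun ν : Measure (ι → ℂ) => ν A) hall
    simpa [Measure.restrict_apply hA, Measure.smul_apply] using this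
  have hfin : μ A ≠ ⊤ := measure_ne_top _ _
  by_cases h0 : μ A = 0
  · exact Or.inl h0
  · right
    have := (ENNReal.mul_eq_left h0 hfin).1 hAA.symm
    exact this

end Vale.Agent.P139.R3.H156
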