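import Mathlib

/-! # P139, row Z2: a zero-one law -/

namespace Vale.Agent.P139.R3.H156

open MeasureTheory ProbabilityTheory Set

theorem zero_one_of_tail {ι : Type} [Countable ι] {γ : Measure ℂ} [IsProbabilityMeasure γ]
    {A : Set (ι → ℂ)} (hA : MeasurableSet A)
    (h : ∀ s : Finset ι, ∃ B : Set (ι → ℂ), MeasurableSet B ∧
      (∀ x y : ι → ℂ, (∀ n, n ∉ s → x n = y n) → (x ∈ B ↔ y ∈ B)) ∧
      (Measure.infinitePi fun _ : ι => γ) (symmDiff A B) = 0) :
    (Measure.infinitePi fun _ : ι => γ) A = 0 ∨ (Measure.infinitePi fun _ : ι => γ) A = 1 := by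
  classical
  set μ : Measure (ι → ℂ) := Measure.infinitePi fun _ : ι => γ with hμ
  have hind0 : iIndepFun (fun (i : ι) (ω : ι → ℂ) => ω i) μ :=
    iIndepFun_infinitePi (P := fun _ : ι => γ) (X := fun _ ω => ω) fun _ => measurable_id
  have hind : iIndep (fun i : ι => MeasurableSpace.comap (fun ω : ι → ℂ => ω i) inferInstance) μ :=
    hind0
  have hle : ∀ i : ι, MeasurableSpace.comap (fun ω : ι → ℂ => ω i) inferInstance ≤
      (MeasurableSpace.pi : MeasurableSpace (ι → ℂ)) := fun i =>
    (measurable_pi_apply i).comap_le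
  have key : ∀ C ∈ squareCylinders (fun _ : ι => {t : Set ℂ | MeasurableSet t}),
      μ (A ∩ C) = μ A * μ C := by
    rintro C ⟨s, t, ht, rfl⟩
    obtain ⟨B, hB, hBs, hAB⟩ := h s
    have hae : A =ᵐ[μ] B := measure_symmDiff_eq_zero_iff.1 hAB
    have h1 : μ (A ∩ (s : Set ι).pi t) = μ (B ∩ (s : Set ι).pi t) :=
      measure_congr (hae.inter (ae_eq_refl _))
    rw [h1, measure_congr hae]
    have hI := indep_iSup_of_disjoint hle hind
      (S := ((s : Set ι))ᶜ) (T := (s : Set ι)) disjoint_compl_left
    rw [Indep_iff] at hI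
    refine hI _ _ ?_ ?_
    · have hr : @Measurable _ _ (⨆ i ∈ ((s : Set ι))ᶜ,
          MeasurableSpace.comap (fun ω : ι → ℂ => ω i) inferInstance) MeasurableSpace.pi
          (fun (x : ι → ℂ) (n : ι) => if n ∈ s then (0 : ℂ) else x n) := by
        refine @measurable_pi_lambda _ _ _ (⨆ i ∈ ((s : Set ι))ᶜ,
          MeasurableSpace.comap (fun ω : ι → ℂ => ω i) inferInstance) _ _ fun n => ?_
        by_cases hn : n ∈ s
        · simp only [hn, if_true]
          exact @measurable_const _ _ _ (⨆ i ∈ ((s : Set ι))ᶜ,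
            MeasurableSpace.comap (fun ω : ι → ℂ => ω i) inferInstance) _
        · simp only [hn, if_false]
          refine Measurable.mono (comap_measurable (fun ω : ι → ℂ => ω n)) ?_ le_rfl
          exact le_iSup₂_of_le n (by simpa using hn) le_rfl
      have hBr : (fun (x : ι → ℂ) (n : ι) => if n ∈ s then (0 : ℂ) else x n) ⁻¹' B = B := by
        ext x
        refine hBs _ x fun n hn => ?_
        simp [hn]
      rw [← hBr]
      exact hr hB
    · have hpi : (s : Set ι).pi t = ⋂ i ∈ (s : Set ι), (fun ω : ι → ℂ => ω i) ⁻¹' t i := by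
        ext x
        simp [Set.mem_pi]
      rw [hpi]
      refine @MeasurableSet.biInter _ _ (⨆ i ∈ (s : Set ι),
        MeasurableSpace.comap (fun ω : ι → ℂ => ω i) inferInstance) _ _ s.countable_toSet
        fun i hi => ?_
      have h2 : MeasurableSpace.comap (fun ω : ι → ℂ => ω i) inferInstance ≤
          ⨆ i ∈ (s : Set ι), MeasurableSpace.comap (fun ω : ι → ℂ => ω i) inferInstance :=
        le_iSup₂_of_le i hi le_rfl
      exact h2 _ ⟨t i, ht i (mem_univ _), rfl⟩
  have hm : μ.restrict A = μ A • μ := by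
    refine ext_of_generate_finite _ generateFrom_squareCylinders.symm
      (isPiSystem_squareCylinders (fun _ => MeasurableSpace.isPiSystem_measurableSet)
        fun _ => (MeasurableSet.univ : MeasurableSet (univ : Set ℂ))) ?_ ?_
    · intro C hC
      have hCm : MeasurableSet C := by
        have := MeasurableSpace.measurableSet_generateFrom hC
        rwa [generateFrom_squareCylinders] at this
      rw [Measure.restrict_apply hCm, inter_comm, key C hC, Measure.smul_apply, smul_eq_mul]
    · simp
  have h3 : μ A = μ A * μ A := by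
    have := congrArg (fun m : Measure (ι → ℂ) => m A) hm
    simpa [Measure.restrict_apply hA] using this
  by_cases h0 : μ A = 0
  · exact Or.inl h0
  · right
    have hf : μ A ≠ ⊤ := measure_ne_top _ _
    have h4 : μ A * 1 = μ A * μ A := by rw [mul_one]; exact h3
    exact ((ENNReal.mul_right_inj h0 hf).1 h4).symm

end Vale.Agent.P139.R3.H156
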