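import Mathlib

open MeasureTheory ProbabilityTheory

namespace Vale.Agent.P139.R3.H156

theorem zero_one_of_tail {ι : Type} [Countable ι] {γ : Measure ℂ} [IsProbabilityMeasure γ]
    {A : Set (ι → ℂ)} (hA : MeasurableSet A)
    (h : ∀ s : Finset ι, ∃ B : Set (ι → ℂ), MeasurableSet B ∧
      (∀ x y : ι → ℂ, (∀ n, n ∉ s → x n = y n) → (x ∈ B ↔ y ∈ B)) ∧
      (Measure.infinitePi fun _ : ι => γ) (symmDiff A B) = 0) :
    (Measure.infinitePi fun _ : ι => γ) A = 0 ∨ (Measure.infinitePi fun _ : ι => γ) A = 1 := by
  classical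
  set μ : Measure (ι → ℂ) := Measure.infinitePi fun _ : ι => γ with hμ
  let m : ι → MeasurableSpace (ι → ℂ) :=
    fun i => MeasurableSpace.comap (fun x : ι → ℂ => x i) inferInstance
  have hle : ∀ i, m i ≤ MeasurableSpace.pi := fun i => (measurable_pi_apply i).comap_le
  have hind : iIndep m μ := by
    have h1 := iIndepFun_infinitePi (P := fun _ : ι => γ) (X := fun i (x : ℂ) => x)
      (fun i => measurable_id)
    exact h1
  have key : ∀ C ∈ measurableCylinders (fun _ : ι => ℂ), μ (C ∩ A) = μ A * μ C := by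
    intro C hC
    obtain ⟨s, S, hS, rfl⟩ := (mem_measurableCylinders C).1 hC
    obtain ⟨B, hB, hBs, hAB⟩ := h s
    have hI := indep_iSup_of_disjoint hle hind (S := (s : Set ι)) (T := (s : Set ι)ᶜ)
      disjoint_compl_right
    have hC' : MeasurableSet[⨆ i ∈ (s : Set ι), m i] (cylinder s S) := by
      have hm : @Measurable _ _ (⨆ i ∈ (s : Set ι), m i) _
          (fun x : ι → ℂ => (fun i : s => x i)) := by
        refine (@measurable_pi_iff _ _ _ (⨆ i ∈ (s : Set ι), m i) _ _).2 fun i => ?_
        have h1 : @Measurable _ _ (m i) _ (fun x : ι → ℂ => x i) :=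
          Measurable.of_comap_le le_rfl
        exact h1.mono (le_iSup₂_of_le (i : ι) i.2 le_rfl) le_rfl
      exact hm hS
    have hB' : MeasurableSet[⨆ i ∈ (s : Set ι)ᶜ, m i] B := by
      have hm : @Measurable _ _ (⨆ i ∈ (s : Set ι)ᶜ, m i) _
          (fun (x : ι → ℂ) (i : ι) => if i ∈ s then 0 else x i) := by
        refine (@measurable_pi_iff _ _ _ (⨆ i ∈ (s : Set ι)ᶜ, m i) _ _).2 fun i => ?_
        by_cases hi : i ∈ s
        · simp only [hi, if_true]
          exact @measurable_const _ _ _ (_) _
        · simp only [hi, if_false]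
          have h1 : @Measurable _ _ (m i) _ (fun x : ι → ℂ => x i) :=
            Measurable.of_comap_le le_rfl
          exact h1.mono (le_iSup₂_of_le (i : ι) (by simpa using hi) le_rfl) le_rfl
      have e : B = (fun (x : ι → ℂ) (i : ι) => if i ∈ s then 0 else x i) ⁻¹' B := by
        ext x
        refine hBs _ _ fun n hn => ?_
        simp [hn]
      rw [e]
      exact hm hB
    have e := (Indep_iff _ _ _).1 hI _ _ hC' hB'
    have e1 : μ A = μ B := measure_congr (measure_symmDiff_eq_zero_iff.1 hAB)
    have e2 : μ (cylinder s S ∩ A) = μ (cylinder s S ∩ B) :=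
      measure_congr ((Filter.EventuallyEq.refl _ _).inter (measure_symmDiff_eq_zero_iff.1 hAB))
    rw [e2, e, e1, mul_comm]
  have hext : μ.restrict A = μ A • μ := by
    refine ext_of_generate_finite (measurableCylinders fun _ : ι => ℂ)
      generateFrom_measurableCylinders.symm isPiSystem_measurableCylinders ?_ ?_
    · intro C hC
      rw [Measure.restrict_apply (MeasurableSet.of_mem_measurableCylinders hC), key C hC,
        Measure.smul_apply, smul_eq_mul]
    · rw [Measure.restrict_apply_univ, Measure.smul_apply, measure_univ, smul_eq_mul, mul_one]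
  have h1 := congrArg (fun ν : Measure (ι → ℂ) => ν A) hext
  simp only [Measure.restrict_apply hA, Set.inter_self, Measure.smul_apply, smul_eq_mul] at h1
  by_cases h0 : μ A = 0
  · exact Or.inl h0
  · right
    have h2 : μ A ≠ ⊤ := measure_ne_top _ _
    have h3 : μ A * 1 = μ A * μ A := by rw [mul_one]; exact h1
    exact ((ENNReal.mul_right_inj h0 h2).1 h3).symm

end Vale.Agent.P139.R3.H156
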