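import Mathlib

/-! # P139, row Z2: a zero-one law -/

open MeasureTheory ProbabilityTheory Set

namespace Vale.Agent.P139.R3.H156

theorem zero_one_of_tail {ι : Type} [Countable ι] {γ : Measure ℂ} [IsProbabilityMeasure γ]
    {A : Set (ι → ℂ)} (hA : MeasurableSet A)
    (h : ∀ s : Finset ι, ∃ B : Set (ι → ℂ), MeasurableSet B ∧
      (∀ x y : ι → ℂ, (∀ n, n ∉ s → x n = y n) → (x ∈ B ↔ y ∈ B)) ∧
      (Measure.infinitePi fun _ : ι => γ) (symmDiff A B) = 0) :
    (Measure.infinitePi fun _ : ι => γ) A = 0 ∨ (Measure.infinitePi fun _ : ι => γ) A = 1 := by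
  classical
  let m : ι → MeasurableSpace (ι → ℂ) := fun n =>
    MeasurableSpace.comap (fun x : ι → ℂ => x n) inferInstance
  have hm : ∀ n, m n ≤ MeasurableSpace.pi := fun n => (measurable_pi_apply n).comap_le
  have hind : iIndep m (Measure.infinitePi fun _ : ι => γ) := by
    have := iIndepFun_infinitePi (P := fun _ : ι => γ) (X := fun _ : ι => (id : ℂ → ℂ))
      (fun _ => measurable_id)
    exact (iIndepFun_iff_iIndep _ _ _).1 this
  let M : Finset ι → MeasurableSpace (ι → ℂ) := fun s => ⨆ n ∈ (s : Set ι), m n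
  have hM : ∀ s, M s ≤ MeasurableSpace.pi := fun s => iSup₂_le fun n _ => hm n
  have hAgen : MeasurableSpace.generateFrom {A} ≤ MeasurableSpace.pi := by
    refine MeasurableSpace.generateFrom_le fun t ht => ?_
    rw [mem_singleton_iff.1 ht]
    exact hA
  -- independence of the coordinates in `s`
  have hs : ∀ s : Finset ι, Indep (M s) (MeasurableSpace.generateFrom {A})
      (Measure.infinitePi fun _ : ι => γ) := by
    intro s
    obtain ⟨B, hB, hBs, hAB⟩ := h s
    have h1 : Indep (⨆ n ∈ (s : Set ι), m n) (⨆ n ∈ ((s : Set ι)ᶜ), m n)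
        (Measure.infinitePi fun _ : ι => γ) :=
      indep_iSup_of_disjoint hm hind disjoint_compl_right
    have hBm : MeasurableSet[⨆ n ∈ ((s : Set ι)ᶜ), m n] B := by
      let φ : (ι → ℂ) → (ι → ℂ) := fun x n => if n ∈ s then 0 else x n
      have hφ : Measurable[⨆ n ∈ ((s : Set ι)ᶜ), m n, MeasurableSpace.pi] φ := by
        refine @measurable_pi_lambda _ _ _ (_) _ φ fun n => ?_
        by_cases hn : n ∈ s
        · have e : (fun x : ι → ℂ => φ x n) = fun _ => 0 := by
            funext x
            simp [φ, hn]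
          rw [e]
          exact measurable_const
        · have e : (fun x : ι → ℂ => φ x n) = fun x => x n := by
            funext x
            simp [φ, hn]
          rw [e]
          have h2 : m n ≤ ⨆ n ∈ ((s : Set ι)ᶜ), m n :=
            le_iSup₂_of_le n (by simpa using hn) le_rfl
          intro t ht
          exact h2 _ ⟨t, ht, rfl⟩
      have e : B = φ ⁻¹' B := by
        ext x
        rw [mem_preimage]
        refine hBs x (φ x) fun n hn => ?_
        simp [φ, hn]
      rw [e]
      exact hφ hB
    have hae : A =ᵐ[Measure.infinitePi fun _ : ι => γ] B :=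
      measure_symmDiff_eq_zero_iff.1 hAB
    refine IndepSets.indep (p1 := {t | MeasurableSet[M s] t}) (p2 := {A}) (hM s) hAgen
      (@MeasurableSpace.isPiSystem_measurableSet _ (M s)) (IsPiSystem.singleton A)
      (@MeasurableSpace.generateFrom_measurableSet _ (M s)).symm rfl ?_
    rw [IndepSets_iff]
    intro t1 t2 ht1 ht2
    rw [mem_singleton_iff.1 ht2]
    have h3 : (Measure.infinitePi fun _ : ι => γ) (t1 ∩ A) =
        (Measure.infinitePi fun _ : ι => γ) (t1 ∩ B) :=
      measure_congr ((ae_eq_refl t1).inter hae)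
    rw [h3, measure_congr hae]
    exact (Indep_iff _ _ _).1 h1 t1 B ht1 hBm
  have hdir : Directed (· ≤ ·) M := by
    intro s t
    refine ⟨s ∪ t, ?_, ?_⟩
    · exact iSup₂_le fun n hn => le_iSup₂_of_le n (by simp at hn ⊢; exact Or.inl hn) le_rfl
    · exact iSup₂_le fun n hn => le_iSup₂_of_le n (by simp at hn ⊢; exact Or.inr hn) le_rfl
  have hall := indep_iSup_of_directed_le hs hM hAgen hdir
  have hsup : MeasurableSpace.pi ≤ ⨆ s, M s := by
    refine iSup_le fun n => ?_
    refine le_trans ?_ (le_iSup M {n})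
    exact le_iSup₂_of_le n (by simp) le_rfl
  have h4 := (Indep_iff _ _ _).1 hall A A (hsup _ hA)
    (MeasurableSpace.measurableSet_generateFrom (mem_singleton A))
  exact measure_eq_zero_or_one_of_indepSet_self ((indepSet_iff_measure_inter_eq_mul hA hA _).2 h4)

end Vale.Agent.P139.R3.H156
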