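import Mathlib

/-!
# P139.EveryProfile, row Z2: a zero-one law (helper875)
-/

set_option autoImplicit false

open MeasureTheory ProbabilityTheory MeasurableSpace

namespace Vale.Agent.P139.R3.H156

theorem zero_one_of_tail {ι : Type} [Countable ι] {γ : Measure ℂ} [IsProbabilityMeasure γ]
    {A : Set (ι → ℂ)} (hA : MeasurableSet A)
    (h : ∀ s : Finset ι, ∃ B : Set (ι → ℂ), MeasurableSet B ∧
      (∀ x y : ι → ℂ, (∀ n, n ∉ s → x n = y n) → (x ∈ B ↔ y ∈ B)) ∧
      (Measure.infinitePi fun _ : ι => γ) (symmDiff A B) = 0) :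
    (Measure.infinitePi fun _ : ι => γ) A = 0 ∨ (Measure.infinitePi fun _ : ι => γ) A = 1 := by
  classical
  set μ : Measure (ι → ℂ) := Measure.infinitePi fun _ : ι => γ with hμ
  set m : ι → MeasurableSpace (ι → ℂ) := fun i =>
    MeasurableSpace.comap (fun x : ι → ℂ => x i) inferInstance with hm
  have hle : ∀ i, m i ≤ MeasurableSpace.pi := fun i => (measurable_pi_apply i).comap_le
  have hind : iIndep m μ := by
    have h1 : iIndepFun (fun (i : ι) (ω : ι → ℂ) => (fun z : ℂ => z) (ω i)) μ :=
      iIndepFun_infinitePi (P := fun _ : ι => γ) (X := fun (_ : ι) (z : ℂ) => z)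
        (fun _ => measurable_id)
    exact h1.iIndep
  set M : Finset ι → MeasurableSpace (ι → ℂ) := fun s => ⨆ i ∈ (s : Set ι), m i with hM
  have hMle : ∀ s, M s ≤ MeasurableSpace.pi := fun s => iSup₂_le fun i _ => hle i
  have hdir : Directed (· ≤ ·) M := by
    intro s t
    refine ⟨s ∪ t, ?_, ?_⟩
    · exact biSup_mono fun i hi => by
        rw [Finset.mem_coe] at hi ⊢
        exact Finset.mem_union_left _ hi
    · exact biSup_mono fun i hi => by
        rw [Finset.mem_coe] at hi ⊢
        exact Finset.mem_union_right _ hi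
  have hgA : generateFrom {A} ≤ MeasurableSpace.pi := by
    refine generateFrom_le ?_
    rintro t ht
    rw [Set.mem_singleton_iff.1 ht]
    exact hA
  -- independence of `A` of the coordinates in `s`
  have key : ∀ s : Finset ι, Indep (M s) (generateFrom {A}) μ := by
    intro s
    obtain ⟨B, hB, hBt, hBA⟩ := h s
    have hae : A =ᵐ[μ] B := measure_symmDiff_eq_zero_iff.1 hBA
    -- `B` is measurable with respect to the other coordinates
    set M' : MeasurableSpace (ι → ℂ) := ⨆ i ∈ ((s : Set ι)ᶜ), m i with hM'
    have hBM : MeasurableSet[M'] B := by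
      set T : (ι → ℂ) → (ι → ℂ) := fun x i => if i ∈ s then 0 else x i with hT
      have hTm : @Measurable _ _ M' MeasurableSpace.pi T := by
        refine @measurable_pi_lambda _ _ _ M' _ _ fun i => ?_
        by_cases hi : i ∈ s
        · have : (fun x : ι → ℂ => T x i) = fun _ => 0 := by
            funext x
            simp only [hT, if_pos hi]
          rw [this]
          exact @measurable_const _ _ _ M' _
        · have : (fun x : ι → ℂ => T x i) = fun x => x i := by
            funext x
            simp only [hT, if_neg hi]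
          rw [this]
          have h2 : m i ≤ M' := le_iSup₂_of_le i (by simpa using hi) le_rfl
          exact (comap_measurable (fun x : ι → ℂ => x i)).mono h2 le_rfl
      have hBT : B = T ⁻¹' B := by
        ext x
        rw [Set.mem_preimage]
        refine hBt _ _ fun n hn => ?_
        simp only [hT, if_neg hn]
      rw [hBT]
      exact hTm hB
    have hI : Indep (M s) M' μ :=
      indep_iSup_of_disjoint hle hind disjoint_compl_right
    refine IndepSets.indep (p1 := {C | MeasurableSet[M s] C}) (p2 := {A}) (hMle s) hgA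
      (@isPiSystem_measurableSet _ (M s)) (IsPiSystem.singleton A)
      (@generateFrom_measurableSet _ (M s)).symm rfl ?_
    rw [IndepSets_iff]
    rintro C t hC ht
    rw [Set.mem_singleton_iff.1 ht]
    have e1 : μ (C ∩ A) = μ (C ∩ B) :=
      measure_congr ((Filter.EventuallyEq.refl _ C).inter hae)
    have e2 : μ A = μ B := measure_congr hae
    rw [e1, e2]
    exact (Indep_iff _ _ _).1 hI C B hC hBM
  have hall : Indep (⨆ s, M s) (generateFrom {A}) μ :=
    indep_iSup_of_directed_le key hMle hgA hdir
  have hpi : (MeasurableSpace.pi : MeasurableSpace (ι → ℂ)) ≤ ⨆ s, M s := by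
    refine iSup_le fun i => ?_
    refine le_trans ?_ (le_iSup M {i})
    exact le_iSup₂_of_le (f := fun j (_ : j ∈ (({i} : Finset ι) : Set ι)) => m j) i (by simp) le_rfl
  have h1 : MeasurableSet[⨆ s, M s] A := hpi A hA
  have h2 : MeasurableSet[generateFrom {A}] A := measurableSet_generateFrom (Set.mem_singleton A)
  have h3 := (Indep_iff _ _ _).1 hall A A h1 h2
  rw [Set.inter_self] at h3
  have h4 : μ A ≠ ⊤ := measure_ne_top μ A
  rcases eq_or_ne (μ A) 0 with h0 | h0
  · exact Or.inl h0
  · right
    have h5 : μ A * 1 = μ A * μ A := by rw [mul_one]; exact h3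
    exact ((ENNReal.mul_right_inj h0 h4).1 h5).symm

end Vale.Agent.P139.R3.H156
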