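import Mathlib

/-!
# P139: zero-one law for sets that are tail sets up to null sets (row Z2)
-/

namespace Vale.Agent.P139.R3.H156

open MeasureTheory ProbabilityTheory Set

theorem zero_one_of_tail {ι : Type} [Countable ι] {γ : Measure ℂ} [IsProbabilityMeasure γ]
    {A : Set (ι → ℂ)} (hA : MeasurableSet A)
    (h : ∀ s : Finset ι, ∃ B : Set (ι → ℂ), MeasurableSet B ∧
      (∀ x y : ι → ℂ, (∀ n, n ∉ s → x n = y n) → (x ∈ B ↔ y ∈ B)) ∧
      (Measure.infinitePi fun _ : ι => γ) (symmDiff A B) = 0) :
    (Measure.infinitePi fun _ : ι => γ) A = 0 ∨ (Measure.infinitePi fun _ : ι => γ) A = 1 := by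
  classical
  set μ : Measure (ι → ℂ) := Measure.infinitePi fun _ : ι => γ with hμ
  let m : ι → MeasurableSpace (ι → ℂ) := fun i =>
    MeasurableSpace.comap (fun x : ι → ℂ => x i) inferInstance
  have hm : ∀ i, m i ≤ MeasurableSpace.pi := fun i => (measurable_pi_apply i).comap_le
  have hind : iIndep m μ := by
    have h1 := iIndepFun_infinitePi (P := fun _ : ι => γ) (X := fun _ (x : ℂ) => x)
      (fun _ => measurable_id)
    exact h1.iIndep
  have hcoord : ∀ (S : Set ι) (i : ι), i ∈ S →
      @Measurable _ _ (⨆ i ∈ S, m i) _ (fun x : ι → ℂ => x i) := by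
    intro S i hi
    have h1 : m i ≤ ⨆ i ∈ S, m i := le_iSup₂ (f := fun i (_ : i ∈ S) => m i) i hi
    exact Measurable.mono (comap_measurable _) h1 le_rfl
  -- independence of `A` from the cylinders
  have key : ∀ C ∈ squareCylinders (fun _ : ι => {t : Set ℂ | MeasurableSet t}),
      μ (A ∩ C) = μ A * μ C := by
    rintro C ⟨s, t, ht, rfl⟩
    obtain ⟨B, hB, hBs, hAB⟩ := h s
    have hAB' : A =ᵐ[μ] B := measure_symmDiff_eq_zero_iff.1 hAB
    have hI := indep_iSup_of_disjoint hm hind (S := ((s : Set ι))ᶜ) (T := (s : Set ι))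
      disjoint_compl_left
    have hB1 : MeasurableSet[⨆ i ∈ ((s : Set ι))ᶜ, m i] B := by
      have hΦ : @Measurable _ _ (⨆ i ∈ ((s : Set ι))ᶜ, m i) MeasurableSpace.pi
          (fun (x : ι → ℂ) (i : ι) => if i ∈ s then (0 : ℂ) else x i) := by
        refine @measurable_pi_lambda _ _ _ (⨆ i ∈ ((s : Set ι))ᶜ, m i) _ _ fun i => ?_
        by_cases hi : i ∈ s
        · simp only [hi, if_true]
          exact @measurable_const _ _ _ (_) _
        · simp only [hi, if_false]
          exact hcoord _ i (by simpa using hi)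
      have h1 : (fun (x : ι → ℂ) (i : ι) => if i ∈ s then (0 : ℂ) else x i) ⁻¹' B = B := by
        ext x
        rw [mem_preimage]
        refine hBs _ _ fun n hn => ?_
        simp [hn]
      rw [← h1]
      exact hΦ hB
    have hC1 : MeasurableSet[⨆ i ∈ (s : Set ι), m i] ((s : Set ι).pi t) := by
      rw [Set.pi_def]
      refine @Finset.measurableSet_biInter _ _ (⨆ i ∈ (s : Set ι), m i) _ s fun i hi => ?_
      exact hcoord _ i hi (ht i (mem_univ i))
    have h2 : μ (B ∩ (s : Set ι).pi t) = μ B * μ ((s : Set ι).pi t) :=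
      (Indep_iff _ _ _).1 hI _ _ hB1 hC1
    have h3 : μ (A ∩ (s : Set ι).pi t) = μ (B ∩ (s : Set ι).pi t) :=
      measure_congr (hAB'.inter (Filter.EventuallyEq.refl _ _))
    rw [h3, h2, measure_congr hAB']
  have hext : μ.restrict A = μ A • μ := by
    refine ext_of_generate_finite _ generateFrom_squareCylinders.symm
      (isPiSystem_squareCylinders (fun _ => MeasurableSpace.isPiSystem_measurableSet)
        (fun _ => by simp)) ?_ ?_
    · intro C hC
      have hCm : MeasurableSet C := by
        obtain ⟨s, t, ht, rfl⟩ := hC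
        exact MeasurableSet.pi s.countable_toSet fun i _ => ht i (mem_univ i)
      rw [Measure.restrict_apply hCm, inter_comm, key C hC]
      rfl
    · rw [Measure.restrict_apply MeasurableSet.univ, univ_inter, Measure.smul_apply, measure_univ]
      simp
  have h4 : μ A = μ A * μ A := by
    have := congrArg (fun ν : Measure (ι → ℂ) => ν A) hext
    simp only [Measure.restrict_apply hA, inter_self, Measure.smul_apply, smul_eq_mul] at this
    exact this
  rcases eq_or_ne (μ A) 0 with h0 | h0
  · exact Or.inl h0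
  · right
    have hfin : μ A ≠ ⊤ := measure_ne_top μ A
    have h5 : μ A * 1 = μ A * μ A := by rw [mul_one]; exact h4
    exact ((ENNReal.mul_right_inj h0 hfin).1 h5).symm

end Vale.Agent.P139.R3.H156
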