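import Vale.Agent.P139.R3.H156.Persist

/-! # P139: the lifespan is a measurable function of the Fourier coefficients -/

open Set Metric Filter Topology MeasureTheory
open scoped NNReal ENNReal

namespace Vale.Agent.P139.R3.H156

open Vale.Agent.P139.A Vale.Agent.P139.H203 Vale.Agent.P139.R3.H36 Vale.Agent.P139.R3.H36.HS

variable {d k : ℕ}

theorem z3_mem_single (n : Lat d) : MemSobolev k (Pi.single n (1 : ℂ)) := by
  refine summable_of_ne_finset_zero (s := {n}) fun n' hn' => ?_
  rw [Pi.single_eq_of_ne (by simpa using hn')]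
  simp

/-- the truncation to a finite set of frequencies -/
noncomputable def z3tr (k : ℕ) (s : Finset (Lat d)) (a : Lat d → ℂ) : HS d k :=
  ∑ n ∈ s, a n • toH k (Pi.single n (1 : ℂ))

theorem z3_continuous_tr (s : Finset (Lat d)) : Continuous (z3tr (d := d) k s) := by
  unfold z3tr
  exact continuous_finsetSum _ fun n _ => (continuous_apply n).smul continuous_const

theorem z3_co_tr (s : Finset (Lat d)) (a : Lat d → ℂ) (n : Lat d) :
    co (z3tr k s a) n = if n ∈ s then a n else 0 := by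
  have h1 : co (z3tr k s a) n = ∑ i ∈ s, co (a i • toH k (Pi.single i (1 : ℂ))) n := by
    unfold z3tr
    rw [← coR_apply, map_sum]
    rfl
  rw [h1]
  have h2 : ∀ i ∈ s, co (a i • toH k (Pi.single i (1 : ℂ))) n = if n = i then a n else 0 := by
    intro i _
    rw [co_smul, co_toH (z3_mem_single i)]
    by_cases h : n = i
    · subst h; simp
    · rw [Pi.single_eq_of_ne h, mul_zero, if_neg h]
  rw [Finset.sum_congr rfl h2, Finset.sum_ite_eq]

theorem z3_tendsto {a : Lat d → ℂ} (ha : MemSobolev k a) :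
    Tendsto (fun s : Finset (Lat d) => z3tr k s a) atTop (𝓝 (toH k a)) := by
  set F : Lat d → ℝ := fun n => (1 + sqNorm n) ^ k * ‖a n‖ ^ 2 with hF
  have hFs : Summable F := ha
  have h1 : ∀ s : Finset (Lat d), ‖z3tr k s a - toH k a‖ ^ 2 = (∑' n, F n) - ∑ n ∈ s, F n := by
    intro s
    rw [norm_sub_sq]
    unfold sobolevSq
    have h2 : ∀ n, (1 + sqNorm n) ^ k * ‖co (z3tr k s a) n - co (toH k a) n‖ ^ 2 =
        F n - if n ∈ s then F n else 0 := by
      intro n
      rw [z3_co_tr, co_toH ha]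
      by_cases h : n ∈ s
      · rw [if_pos h, if_pos h, sub_self, sub_self]; simp
      · rw [if_neg h, if_neg h, zero_sub, norm_neg, sub_zero]
    have h3 : Summable fun n => if n ∈ s then F n else 0 :=
      summable_of_ne_finset_zero (s := s) fun n hn => if_neg hn
    rw [tsum_congr h2, hFs.tsum_sub h3, tsum_eq_sum (s := s) fun n hn => if_neg hn]
    congr 1
    exact Finset.sum_congr rfl fun n hn => if_pos hn
  have h4 : Tendsto (fun s : Finset (Lat d) => (∑' n, F n) - ∑ n ∈ s, F n) atTop (𝓝 0) := by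
    have := (tendsto_const_nhds (x := ∑' n, F n)).sub hFs.hasSum
    rwa [sub_self] at this
  rw [tendsto_iff_norm_sub_tendsto_zero]
  have h5 : Tendsto (fun s : Finset (Lat d) => Real.sqrt (‖z3tr k s a - toH k a‖ ^ 2)) atTop
      (𝓝 0) := by
    simp_rw [h1]
    have := h4.sqrt
    rwa [Real.sqrt_zero] at this
  refine h5.congr fun s => ?_
  rw [Real.sqrt_sq (norm_nonneg _)]

theorem z3_measurableSet_mem : MeasurableSet {a : Lat d → ℂ | MemSobolev k a} := by
  have h1 : {a : Lat d → ℂ | MemSobolev k a} =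
      {a | ∑' n, ENNReal.ofReal ((1 + sqNorm n) ^ k * ‖a n‖ ^ 2) ≠ ∞} := by
    ext a
    show Summable _ ↔ _ ≠ _
    have hnn : ∀ n, 0 ≤ (1 + sqNorm n) ^ k * ‖a n‖ ^ 2 := fun n =>
      mul_nonneg (weight_pos k n).le (sq_nonneg _)
    constructor
    · intro h
      exact h.tsum_ofReal_ne_top
    · intro h
      have h2 := ENNReal.summable_toReal h
      refine h2.congr fun n => ?_
      rw [ENNReal.toReal_ofReal (hnn n)]
  rw [h1]
  have h2 : Measurable fun a : Lat d → ℂ =>
      ∑' n, ENNReal.ofReal ((1 + sqNorm n) ^ k * ‖a n‖ ^ 2) := by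
    refine Measurable.ennreal_tsum fun n => ?_
    have := measurable_pi_apply (X := fun _ : Lat d => ℂ) n
    fun_prop
  exact (measurableSet_singleton ∞).compl.preimage h2

theorem z3_measurable_open {O : Set (HS d k)} (hO : IsOpen O) :
    MeasurableSet {a : Lat d → ℂ | MemSobolev k a ∧ toH k a ∈ O} := by
  borelize (HS d k)
  have hg : Measurable fun a : {a : Lat d → ℂ // MemSobolev k a} => toH k a.1 := by
    refine measurable_of_tendsto_metrizable' (atTop : Filter (Finset (Lat d)))
      (f := fun s a => z3tr k s a.1) (fun s => ?_) ?_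
    · exact (z3_continuous_tr s).measurable.comp measurable_subtype_coe
    · rw [tendsto_pi_nhds]
      intro a
      exact z3_tendsto a.2
  have h1 := hg hO.measurableSet
  have h2 := (MeasurableEmbedding.subtype_coe (z3_measurableSet_mem (d := d) (k := k))).measurableSet_image.2 h1
  convert h2 using 1
  ext a
  constructor
  · rintro ⟨ha, h⟩
    exact ⟨⟨a, ha⟩, h, rfl⟩
  · rintro ⟨⟨b, hb⟩, h, rfl⟩
    exact ⟨hb, h⟩

theorem z3_measurable_sol {m : ℕ} (hk : d < 2 * k) {T : ℝ} (hT : 0 ≤ T) :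
    MeasurableSet {a : Lat d → ℂ | ∃ u, IsSolution d (2 * m + 1) k T u ∧ u 0 = a} := by
  have h := z3_measurable_open (isOpen_D (d := d) (k := k) hk (m := m) hT)
  convert h using 1
  ext a
  constructor
  · rintro ⟨u, hu, h0⟩
    have ha : MemSobolev k a := by
      rw [← h0]; exact hu.mem 0 ⟨le_rfl, hT⟩
    refine ⟨ha, (mem_D_iff hk hT _).2 ⟨u, hu, ?_⟩⟩
    rw [h0]
    funext n
    rw [co_toH ha]
  · rintro ⟨ha, h⟩
    obtain ⟨u, hu, h0⟩ := (mem_D_iff hk hT _).1 h
    refine ⟨u, hu, ?_⟩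
    rw [h0]
    funext n
    rw [co_toH ha]

/-- Row Z3. -/
theorem measurable_lifespan {d k m : ℕ} (hk : d < 2 * k) (S : ℝ≥0∞) :
    MeasurableSet {a : (Fin d → ℤ) → ℂ | S ≤ lifespan d (2 * m + 1) k a} := by
  have hm : Measurable fun a : (Fin d → ℤ) → ℂ => lifespan d (2 * m + 1) k a := by
    refine measurable_of_Ioi fun x => ?_
    rcases eq_or_ne x ∞ with rfl | hx
    · simp
    lift x to ℝ≥0 using hx
    have h1 : (fun a : (Fin d → ℤ) → ℂ => lifespan d (2 * m + 1) k a) ⁻¹' Ioi (x : ℝ≥0∞) =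
        ⋃ n : ℕ, {a | ∃ u, IsSolution d (2 * m + 1) k ((x : ℝ) + 1 / (n + 1)) u ∧ u 0 = a} := by
      ext a
      rw [mem_preimage, mem_Ioi, lt_lifespan_iff, mem_iUnion]
      constructor
      · rintro ⟨R, hR, hu⟩
        have hR' : 0 < (R : ℝ) - x := sub_pos.2 (by exact_mod_cast hR)
        obtain ⟨n, hn⟩ := exists_nat_one_div_lt hR'
        exact ⟨n, exists_of_le (by linarith) hu⟩
      · rintro ⟨n, hu⟩
        have hpos : (0 : ℝ) < 1 / ((n : ℝ) + 1) := by positivity
        have h0 : (0 : ℝ) ≤ (x : ℝ) + 1 / (n + 1) := by positivity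
        refine ⟨Real.toNNReal ((x : ℝ) + 1 / (n + 1)), ?_, ?_⟩
        · rw [← NNReal.coe_lt_coe, Real.coe_toNNReal _ h0]
          linarith
        · rw [Real.coe_toNNReal _ h0]
          exact hu
    rw [h1]
    exact MeasurableSet.iUnion fun n => z3_measurable_sol hk (by positivity)
  exact measurableSet_Ici.preimage hm

end Vale.Agent.P139.R3.H156
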