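import Vale.Agent.P139.R3.H36.Flow
import Vale.Agent.P139.R3.H156.Persist

/-! # P139: the lifespan is a measurable function of the datum -/

open Set Metric Filter Topology MeasureTheory
open scoped NNReal ENNReal

namespace Vale.Agent.P139.R3.H156

open Vale.Agent.P139.A Vale.Agent.P139.H203 Vale.Agent.P139.R3.H36 Vale.Agent.P139.R3.H36.HS

namespace Z3

variable {d k : ℕ}

instance : TopologicalSpace.SeparableSpace (HS d k) := by
  have h1 : TopologicalSpace.IsSeparable
      ((Submodule.span ℂ (range fun i : Lat d => (lp.single 2 i (1 : ℂ) :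
        lp (fun _ : Lat d => ℂ) 2))) : Set (lp (fun _ : Lat d => ℂ) 2)) :=
    (countable_range _).isSeparable.span
  have h2 : (univ : Set (lp (fun _ : Lat d => ℂ) 2)) ⊆
      closure ((Submodule.span ℂ (range fun i : Lat d => (lp.single 2 i (1 : ℂ) :
        lp (fun _ : Lat d => ℂ) 2))) : Set (lp (fun _ : Lat d => ℂ) 2)) := by
    intro f _
    have h3 := lp.hasSum_single (p := 2) (by norm_num) f
    refine mem_closure_of_tendsto h3 (Eventually.of_forall fun s => ?_)
    refine Submodule.sum_mem _ fun i _ => ?_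
    have h4 : (lp.single 2 i (f i) : lp (fun _ : Lat d => ℂ) 2) =
        (f i) • (lp.single 2 i (1 : ℂ) : lp (fun _ : Lat d => ℂ) 2) := by
      rw [← lp.single_smul, smul_eq_mul, mul_one]
    rw [h4]
    exact Submodule.smul_mem _ _ (Submodule.subset_span ⟨i, rfl⟩)
  have h5 : TopologicalSpace.IsSeparable (univ : Set (lp (fun _ : Lat d => ℂ) 2)) :=
    h1.closure.mono h2
  have h6 : TopologicalSpace.SeparableSpace (lp (fun _ : Lat d => ℂ) 2) :=
    TopologicalSpace.isSeparable_univ_iff.1 h5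
  exact h6

/-- the square of the Sobolev norm with values in `[0, ∞]` -/
noncomputable def F (k : ℕ) (a : Lat d → ℂ) : ℝ≥0∞ :=
  ∑' n, ENNReal.ofReal ((1 + sqNorm n) ^ k * ‖a n‖ ^ 2)

theorem measurable_F (k : ℕ) : Measurable (F k : (Lat d → ℂ) → ℝ≥0∞) := by
  unfold F
  refine Measurable.tsum fun n => ?_
  exact ENNReal.measurable_ofReal.comp
    (measurable_const.mul ((measurable_pi_apply n).norm.pow_const 2))

theorem nonneg (k : ℕ) (a : Lat d → ℂ) (n : Lat d) : 0 ≤ (1 + sqNorm n) ^ k * ‖a n‖ ^ 2 :=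
  mul_nonneg (weight_pos k n).le (sq_nonneg _)

theorem mem_iff (k : ℕ) (a : Lat d → ℂ) : MemSobolev k a ↔ F k a ≠ ⊤ := by
  constructor
  · intro h
    exact Summable.tsum_ofReal_ne_top h
  · intro h
    refine (ENNReal.summable_toReal h).congr fun n => ?_
    exact ENNReal.toReal_ofReal (nonneg k a n)

theorem sobolevSq_eq (k : ℕ) (a : Lat d → ℂ) : sobolevSq k a = (F k a).toReal := by
  unfold F sobolevSq
  rw [ENNReal.tsum_toReal_eq fun n => ENNReal.ofReal_ne_top]
  exact tsum_congr fun n => (ENNReal.toReal_ofReal (nonneg k a n)).symm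

theorem measurableSet_ball (c : HS d k) {r : ℝ} (hr : 0 < r) :
    MeasurableSet {a : Lat d → ℂ | MemSobolev k a ∧ ‖toH k a - c‖ < r} := by
  have h1 : {a : Lat d → ℂ | MemSobolev k a ∧ ‖toH k a - c‖ < r} =
      {a : Lat d → ℂ | F k a ≠ ⊤} ∩
        {a : Lat d → ℂ | (F k (fun n => a n - co c n)).toReal < r ^ 2} := by
    ext a
    simp only [mem_ofPred_eq, mem_inter_iff, ← mem_iff]
    refine and_congr_right fun ha => ?_
    have h2 : ‖toH k a - c‖ ^ 2 = (F k (fun n => a n - co c n)).toReal := by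
      rw [norm_sub_sq, sobolevSq_eq]
      simp only [co_toH ha]
    rw [← h2]
    exact (sq_lt_sq₀ (norm_nonneg _) hr.le).symm
  rw [h1]
  refine MeasurableSet.inter ?_ ?_
  · exact (measurable_F k) (measurableSet_singleton _).compl
  · refine measurableSet_lt ?_ measurable_const
    refine ENNReal.measurable_toReal.comp ((measurable_F k).comp ?_)
    exact measurable_pi_lambda _ fun n => (measurable_pi_apply n).sub_const _

theorem measurableSet_open {O : Set (HS d k)} (hO : IsOpen O) :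
    MeasurableSet {a : Lat d → ℂ | MemSobolev k a ∧ toH k a ∈ O} := by
  have h1 : {a : Lat d → ℂ | MemSobolev k a ∧ toH k a ∈ O} =
      ⋃ (i : ℕ) (j : ℕ) (_ : ball (TopologicalSpace.denseSeq (HS d k) i) (1 / ((j : ℝ) + 1)) ⊆ O),
        {a : Lat d → ℂ | MemSobolev k a ∧
          ‖toH k a - TopologicalSpace.denseSeq (HS d k) i‖ < 1 / ((j : ℝ) + 1)} := by
    ext a
    simp only [mem_ofPred_eq, mem_iUnion, exists_prop]
    constructor
    · rintro ⟨ha, hO'⟩
      obtain ⟨ε, hε, hball⟩ := Metric.isOpen_iff.1 hO _ hO'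
      obtain ⟨j, hj⟩ := exists_nat_one_div_lt (half_pos hε)
      obtain ⟨i, hi⟩ := (TopologicalSpace.denseRange_denseSeq (HS d k)).exists_dist_lt
        (toH k a) (Nat.one_div_pos_of_nat (α := ℝ) (n := j))
      refine ⟨i, j, ?_, ha, by rwa [← dist_eq_norm]⟩
      refine subset_trans ?_ hball
      intro x hx
      rw [mem_ball] at hx ⊢
      calc dist x (toH k a) ≤ dist x (TopologicalSpace.denseSeq (HS d k) i) +
            dist (TopologicalSpace.denseSeq (HS d k) i) (toH k a) := dist_triangle _ _ _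
        _ < ε / 2 + ε / 2 := by
            refine add_lt_add (hx.trans hj) ?_
            rw [dist_comm]
            exact hi.trans hj
        _ = ε := by ring
    · rintro ⟨i, j, hsub, ha, hlt⟩
      refine ⟨ha, hsub ?_⟩
      rw [mem_ball, dist_eq_norm]
      exact hlt
  rw [h1]
  refine MeasurableSet.iUnion fun i => MeasurableSet.iUnion fun j =>
    MeasurableSet.iUnion fun _ => measurableSet_ball _ ?_
  positivity

theorem measurableSet_exists {m : ℕ} (hk : d < 2 * k) {T : ℝ} (hT : 0 ≤ T) :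
    MeasurableSet {a : Lat d → ℂ | ∃ u, IsSolution d (2 * m + 1) k T u ∧ u 0 = a} := by
  have h1 : {a : Lat d → ℂ | ∃ u, IsSolution d (2 * m + 1) k T u ∧ u 0 = a} =
      {a : Lat d → ℂ | MemSobolev k a ∧ toH k a ∈ (D m T : Set (HS d k))} := by
    ext a
    simp only [mem_ofPred_eq]
    constructor
    · rintro ⟨u, hu, rfl⟩
      have h2 : MemSobolev k (u 0) := hu.mem 0 ⟨le_rfl, hT⟩
      exact ⟨h2, (mem_D_iff hk hT _).2 ⟨u, hu, (funext fun n => co_toH h2 n).symm⟩⟩
    · rintro ⟨h2, h3⟩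
      obtain ⟨u, hu, h0⟩ := (mem_D_iff hk hT _).1 h3
      exact ⟨u, hu, h0.trans (funext fun n => co_toH h2 n)⟩
  rw [h1]
  exact measurableSet_open (isOpen_D hk hT)

end Z3

theorem measurable_lifespan {d k m : ℕ} (hk : d < 2 * k) (S : ℝ≥0∞) :
    MeasurableSet {a : (Fin d → ℤ) → ℂ | S ≤ lifespan d (2 * m + 1) k a} := by
  have h1 : {a : (Fin d → ℤ) → ℂ | S ≤ lifespan d (2 * m + 1) k a} =
      ⋂ (q : ℚ) (_ : ((Real.toNNReal q : ℝ≥0) : ℝ≥0∞) < S),
        {a : (Fin d → ℤ) → ℂ |
          ∃ u, IsSolution d (2 * m + 1) k (Real.toNNReal q : ℝ≥0) u ∧ u 0 = a} := by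
    ext a
    simp only [mem_ofPred_eq, mem_iInter]
    constructor
    · intro h q hq
      obtain ⟨S', hS', hu⟩ := lt_lifespan_iff.1 (hq.trans_le h)
      exact exists_of_le (by exact_mod_cast hS'.le) hu
    · intro h
      by_contra hc
      rw [not_le] at hc
      obtain ⟨q, -, hq1, hq2⟩ := ENNReal.lt_iff_exists_rat_btwn.1 hc
      have h2 := h q hq2
      have h3 : ((Real.toNNReal q : ℝ≥0) : ℝ≥0∞) ≤ lifespan d (2 * m + 1) k a := by
        unfold lifespan
        exact le_iSup₂ (f := fun (T : ℝ≥0)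
          (_ : ∃ u, IsSolution d (2 * m + 1) k T u ∧ u 0 = a) => (T : ℝ≥0∞)) (Real.toNNReal q) h2
      exact absurd h3 (not_le.2 hq1)
  rw [h1]
  refine MeasurableSet.iInter fun q => MeasurableSet.iInter fun _ => ?_
  exact Z3.measurableSet_exists hk (Real.toNNReal q).2

end Vale.Agent.P139.R3.H156
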