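import Vale.Agent.P139.R3.H36.Flow
import Vale.Agent.P139.R3.H156.Persist
import Mathlib.MeasureTheory.Constructions.BorelSpace.Metrizable

/-! # P139: the lifespan is a measurable function of the Fourier coefficients -/

open Set Metric Filter Topology MeasureTheory
open scoped NNReal ENNReal

namespace Vale.Agent.P139.R3.H156

open Vale.Agent.P139.A Vale.Agent.P139.H203 Vale.Agent.P139.R3.H36 Vale.Agent.P139.R3.H36.HS

namespace Z3

variable {d k : ℕ}

theorem measurableSet_memSobolev :
    MeasurableSet {a : (Fin d → ℤ) → ℂ | MemSobolev k a} := by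
  let f : ((Fin d → ℤ) → ℂ) → (Fin d → ℤ) → ℝ≥0 := fun a n =>
    Real.toNNReal ((1 + sqNorm n) ^ k * ‖a n‖ ^ 2)
  have h : {a : (Fin d → ℤ) → ℂ | MemSobolev k a} =
      {a | ∑' n, ((f a n : ℝ≥0) : ℝ≥0∞) ≠ ⊤} := by
    ext a
    rw [mem_ofPred_eq, mem_ofPred_eq, ENNReal.tsum_coe_ne_top_iff_summable, ← NNReal.summable_coe]
    refine summable_congr fun n => ?_
    simp only [f]
    rw [Real.coe_toNNReal _ (mul_nonneg (weight_pos k n).le (sq_nonneg _))]
  rw [h]
  have hm : Measurable fun a : (Fin d → ℤ) → ℂ => ∑' n, ((f a n : ℝ≥0) : ℝ≥0∞) := by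
    refine Measurable.ennreal_tsum (fun n => ?_)
    refine measurable_coe_nnreal_ennreal.comp ?_
    refine measurable_real_toNNReal.comp ?_
    exact ((measurable_pi_apply n).norm.pow_const 2).const_mul _
  exact hm (measurableSet_singleton ⊤).compl

/-- The truncation to the finite set `s` of frequencies. -/
noncomputable def tr (k : ℕ) (s : Finset (Fin d → ℤ)) (a : (Fin d → ℤ) → ℂ) : HS d k :=
  ∑ n ∈ s, a n • (show HS d k from lp.single (E := fun _ : Lat d => ℂ) 2 n (V k n : ℂ))

theorem continuous_tr (s : Finset (Fin d → ℤ)) : Continuous (tr (d := d) k s) := by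
  unfold tr
  refine continuous_finsetSum _ fun n _ => ?_
  exact (continuous_apply n).smul continuous_const

theorem tendsto_tr {a : (Fin d → ℤ) → ℂ} (ha : MemSobolev k a) :
    Tendsto (fun s => tr k s a) atTop (𝓝 (toH k a)) := by
  have h := lp.hasSum_single (p := 2) (by norm_num)
    (show lp (fun _ : Lat d => ℂ) 2 from toH k a)
  refine Tendsto.congr (fun s => ?_) h
  unfold tr
  refine Finset.sum_congr rfl fun n _ => ?_
  have h1 : (show lp (fun _ : Lat d => ℂ) 2 from toH k a) n = a n • (V k n : ℂ) := by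
    have h2 := co_toH ha n
    unfold co at h2
    rw [div_eq_iff (V_ne n)] at h2
    exact h2
  show lp.single (E := fun _ : Lat d => ℂ) 2 n
    ((show lp (fun _ : Lat d => ℂ) 2 from toH k a) n) = _
  rw [h1, lp.single_smul]
  rfl

theorem measurableSet_D {D : Set (HS d k)} (hD : IsOpen D) :
    MeasurableSet {a : (Fin d → ℤ) → ℂ | MemSobolev k a ∧ toH k a ∈ D} := by
  classical
  let G : ((Fin d → ℤ) → ℂ) → ℝ≥0∞ := fun a =>
    if MemSobolev k a then Metric.infEDist (toH k a) Dᶜ else 0
  have hG : Measurable G := by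
    refine measurable_of_tendsto_metrizable' (f := fun (s : Finset (Fin d → ℤ)) a =>
      if MemSobolev k a then Metric.infEDist (tr k s a) Dᶜ else 0) atTop (fun s => ?_) ?_
    · exact Measurable.ite measurableSet_memSobolev
        (Metric.continuous_infEDist.comp (continuous_tr s)).measurable measurable_const
    · rw [tendsto_pi_nhds]
      intro a
      by_cases ha : MemSobolev k a
      · simp only [G, if_pos ha]
        exact (Metric.continuous_infEDist.tendsto _).comp (tendsto_tr ha)
      · simp only [G, if_neg ha]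
        exact tendsto_const_nhds
  have h : {a : (Fin d → ℤ) → ℂ | MemSobolev k a ∧ toH k a ∈ D} = G ⁻¹' {0}ᶜ := by
    ext a
    rw [mem_ofPred_eq, mem_preimage, mem_compl_iff, mem_singleton_iff]
    by_cases ha : MemSobolev k a
    · simp only [G, if_pos ha]
      rw [← Metric.mem_iff_infEDist_zero_of_closed hD.isClosed_compl, mem_compl_iff, not_not]
      exact ⟨fun h => h.2, fun h => ⟨ha, h⟩⟩
    · simp only [G, if_neg ha]
      exact ⟨fun h => absurd h.1 ha, fun h => (h trivial).elim⟩
  rw [h]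
  exact hG (measurableSet_singleton 0).compl

theorem measurableSet_exists (m : ℕ) (hk : d < 2 * k) {T : ℝ} (hT : 0 ≤ T) :
    MeasurableSet {a : (Fin d → ℤ) → ℂ | ∃ u, IsSolution d (2 * m + 1) k T u ∧ u 0 = a} := by
  have h : {a : (Fin d → ℤ) → ℂ | ∃ u, IsSolution d (2 * m + 1) k T u ∧ u 0 = a} =
      {a | MemSobolev k a ∧ toH k a ∈ (D m T : Set (HS d k))} := by
    ext a
    rw [mem_ofPred_eq, mem_ofPred_eq, mem_D_iff hk hT]
    constructor
    · rintro ⟨u, hu, rfl⟩
      have h1 : MemSobolev k (u 0) := hu.mem 0 ⟨le_rfl, hT⟩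
      exact ⟨h1, u, hu, (funext (co_toH h1)).symm⟩
    · rintro ⟨h1, u, hu, h0⟩
      exact ⟨u, hu, h0.trans (funext (co_toH h1))⟩
  rw [h]
  exact measurableSet_D (isOpen_D hk hT)

theorem measurable_lifespan' (m : ℕ) (hk : d < 2 * k) :
    Measurable fun a : (Fin d → ℤ) → ℂ => lifespan d (2 * m + 1) k a := by
  refine measurable_of_Ioi fun x => ?_
  rcases eq_or_ne x ⊤ with rfl | hx
  · rw [Ioi_top, preimage_empty]
    exact MeasurableSet.empty
  · lift x to ℝ≥0 using hx with T
    have h : (fun a : (Fin d → ℤ) → ℂ => lifespan d (2 * m + 1) k a) ⁻¹' Ioi (T : ℝ≥0∞) =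
        ⋃ n : ℕ, {a | ∃ u, IsSolution d (2 * m + 1) k ((T : ℝ) + 1 / (n + 1)) u ∧ u 0 = a} := by
      ext a
      rw [mem_preimage, mem_Ioi, lt_lifespan_iff, mem_iUnion]
      constructor
      · rintro ⟨S, hS, h⟩
        have hS' : (T : ℝ) < S := by exact_mod_cast hS
        obtain ⟨n, hn⟩ := exists_nat_one_div_lt (sub_pos.2 hS')
        exact ⟨n, exists_of_le (by linarith) h⟩
      · rintro ⟨n, h⟩
        have e : ((T + 1 / ((n : ℝ≥0) + 1) : ℝ≥0) : ℝ) = (T : ℝ) + 1 / (n + 1) := by
          push_cast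
          rfl
        refine ⟨T + 1 / ((n : ℝ≥0) + 1), lt_add_of_pos_right T (by positivity), ?_⟩
        rw [e]
        exact h
    rw [h]
    refine MeasurableSet.iUnion fun n => measurableSet_exists m hk (by positivity)

end Z3

theorem measurable_lifespan {d k m : ℕ} (hk : d < 2 * k) (S : ℝ≥0∞) :
    MeasurableSet {a : (Fin d → ℤ) → ℂ | S ≤ lifespan d (2 * m + 1) k a} :=
  Z3.measurable_lifespan' m hk measurableSet_Ici

end Vale.Agent.P139.R3.H156
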