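import Vale.Agent.P139.R3.H36.Flow
import Vale.Agent.P139.R3.H156.Persist
import Mathlib.MeasureTheory.Constructions.BorelSpace.Metrizable

/-! # P139: measurability of the lifespan -/

open Set Metric Filter Topology MeasureTheory
open scoped NNReal ENNReal

namespace Vale.Agent.P139.R3.H156

open Vale.Agent.P139.A Vale.Agent.P139.H203 Vale.Agent.P139.R3.H36 Vale.Agent.P139.R3.H36.HS

namespace Z3h422

variable {d k : ℕ}

theorem measurableSet_memSobolev : MeasurableSet {a : Lat d → ℂ | MemSobolev k a} := by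
  have h : {a : Lat d → ℂ | MemSobolev k a} =
      ⋃ M : ℕ, ⋂ F : Finset (Lat d), {a | ∑ n ∈ F, (1 + sqNorm n) ^ k * ‖a n‖ ^ 2 ≤ (M : ℝ)} := by
    ext a
    simp only [mem_ofPred_eq, mem_iUnion, mem_iInter]
    constructor
    · intro ha
      obtain ⟨M, hM⟩ := exists_nat_ge (∑' n, (1 + sqNorm n) ^ k * ‖a n‖ ^ 2)
      refine ⟨M, fun F => (ha.sum_le_tsum F fun n _ => ?_).trans hM⟩
      exact mul_nonneg (weight_pos k n).le (sq_nonneg _)
    · rintro ⟨M, hM⟩
      exact summable_of_sum_le (fun n => mul_nonneg (weight_pos k n).le (sq_nonneg _)) hM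
  rw [h]
  refine MeasurableSet.iUnion fun M => MeasurableSet.iInter fun F => ?_
  refine measurableSet_le ?_ measurable_const
  fun_prop

/-- the basis vectors -/
noncomputable def bv (k : ℕ) (n : Lat d) : HS d k := by
  classical
  exact (lp.single 2 n (V k n : ℂ) : lp (fun _ : Lat d => ℂ) 2)

theorem hasSum_toH {a : Lat d → ℂ} (ha : MemSobolev k a) :
    HasSum (fun n => a n • bv k n) (toH k a) := by
  classical
  have h := lp.hasSum_single (p := 2) (by norm_num) (show lp (fun _ : Lat d => ℂ) 2 from toH k a)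
  have e : (fun n => a n • bv k n) =
      fun n => (lp.single 2 n ((show lp (fun _ : Lat d => ℂ) 2 from toH k a) n) :
        lp (fun _ : Lat d => ℂ) 2) := by
    funext n
    have h1 : (show lp (fun _ : Lat d => ℂ) 2 from toH k a) n = a n • (V k n : ℂ) := by
      have h2 := co_toH ha n
      unfold co at h2
      rw [div_eq_iff (V_ne n)] at h2
      rw [h2, smul_eq_mul]
    rw [h1]
    show a n • (lp.single 2 n (V k n : ℂ) : lp (fun _ : Lat d => ℂ) 2) = _
    rw [lp.single_smul]
  rw [e]
  exact h

theorem measurableSet_img {G : Set (HS d k)} (hG : IsOpen G) :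
    MeasurableSet {a : Lat d → ℂ | MemSobolev k a ∧ toH k a ∈ G} := by
  classical
  let _ : MeasurableSpace (HS d k) := borel _
  have _ : BorelSpace (HS d k) := ⟨rfl⟩
  obtain ⟨F, hF⟩ := Filter.exists_seq_tendsto (atTop : Filter (Finset (Lat d)))
  have hm : Measurable fun a : Lat d → ℂ => if MemSobolev k a then toH k a else 0 := by
    refine measurable_of_tendsto_metrizable
      (f := fun j a => if MemSobolev k a then ∑ n ∈ F j, a n • bv k n else 0) (fun j => ?_) ?_
    · refine Measurable.ite measurableSet_memSobolev ?_ measurable_const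
      have hc : Continuous fun a : Lat d → ℂ => ∑ n ∈ F j, a n • bv k n := by
        refine continuous_finsetSum _ fun n _ => ?_
        exact (continuous_apply n).smul continuous_const
      exact hc.measurable
    · rw [tendsto_pi_nhds]
      intro a
      by_cases ha : MemSobolev k a
      · simp only [if_pos ha]
        exact (hasSum_toH ha).comp hF
      · simp only [if_neg ha]
        exact tendsto_const_nhds
  have h : {a : Lat d → ℂ | MemSobolev k a ∧ toH k a ∈ G} =
      {a | MemSobolev k a} ∩ (fun a : Lat d → ℂ => if MemSobolev k a then toH k a else 0) ⁻¹' G := by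
    ext a
    simp only [mem_ofPred_eq, mem_inter_iff, mem_preimage]
    constructor
    · rintro ⟨h1, h2⟩
      exact ⟨h1, by rw [if_pos h1]; exact h2⟩
    · rintro ⟨h1, h2⟩
      rw [if_pos h1] at h2
      exact ⟨h1, h2⟩
  rw [h]
  exact measurableSet_memSobolev.inter (hm hG.measurableSet)

theorem measurableSet_sol {m : ℕ} (hk : d < 2 * k) {T : ℝ} (hT : 0 ≤ T) :
    MeasurableSet {a : Lat d → ℂ | ∃ u, IsSolution d (2 * m + 1) k T u ∧ u 0 = a} := by
  have h : {a : Lat d → ℂ | ∃ u, IsSolution d (2 * m + 1) k T u ∧ u 0 = a} =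
      {a : Lat d → ℂ | MemSobolev k a ∧ toH k a ∈ D m T} := by
    ext a
    simp only [mem_ofPred_eq]
    constructor
    · rintro ⟨u, hu, rfl⟩
      have h1 := hu.mem 0 ⟨le_rfl, hT⟩
      refine ⟨h1, (mem_D_iff hk hT _).2 ⟨u, hu, ?_⟩⟩
      funext n
      exact (co_toH h1 n).symm
    · rintro ⟨h1, h2⟩
      obtain ⟨u, hu, h0⟩ := (mem_D_iff hk hT _).1 h2
      refine ⟨u, hu, ?_⟩
      rw [h0]
      funext n
      exact co_toH h1 n
  rw [h]
  exact measurableSet_img (isOpen_D hk hT)

end Z3h422

open Z3h422 in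
theorem measurable_lifespan {d k m : ℕ} (hk : d < 2 * k) (S : ℝ≥0∞) :
    MeasurableSet {a : (Fin d → ℤ) → ℂ | S ≤ lifespan d (2 * m + 1) k a} := by
  have hm : Measurable fun a : (Fin d → ℤ) → ℂ => lifespan d (2 * m + 1) k a := by
    refine measurable_of_Ioi fun x => ?_
    induction x with
    | top =>
      rw [Ioi_top, preimage_empty]
      exact MeasurableSet.empty
    | coe T =>
      have h : (fun a : (Fin d → ℤ) → ℂ => lifespan d (2 * m + 1) k a) ⁻¹' Ioi (T : ℝ≥0∞) =
          ⋃ q : ℚ, ⋃ _ : (T : ℝ) < q,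
            {a : Lat d → ℂ | ∃ u, IsSolution d (2 * m + 1) k (q : ℝ) u ∧ u 0 = a} := by
        ext a
        simp only [mem_preimage, mem_Ioi, mem_iUnion, mem_ofPred_eq, exists_prop]
        rw [lt_lifespan_iff]
        constructor
        · rintro ⟨S, hS, hu⟩
          obtain ⟨q, hq1, hq2⟩ := exists_rat_btwn (show (T : ℝ) < S from by exact_mod_cast hS)
          exact ⟨q, hq1, exists_of_le hq2.le hu⟩
        · rintro ⟨q, hq, hu⟩
          have hq0 : (0 : ℝ) ≤ q := T.2.trans hq.le
          have e : ((Real.toNNReal (q : ℝ) : ℝ≥0) : ℝ) = q := Real.coe_toNNReal _ hq0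
          refine ⟨Real.toNNReal (q : ℝ), ?_, by rw [e]; exact hu⟩
          rw [← NNReal.coe_lt_coe, e]
          exact hq
      rw [h]
      refine MeasurableSet.iUnion fun q => MeasurableSet.iUnion fun hq => ?_
      exact measurableSet_sol hk (T.2.trans (le_of_lt hq))
  exact hm measurableSet_Ici

end Vale.Agent.P139.R3.H156
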