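import Vale.Agent.P139.R3.H36.Flow
import Vale.Agent.P139.R3.H156.Persist
import Mathlib.MeasureTheory.Constructions.BorelSpace.Metrizable

/-! # P139: the lifespan is a measurable function of the Fourier coefficients of the datum -/

open Set Metric Filter Topology MeasureTheory
open scoped NNReal ENNReal

namespace Vale.Agent.P139.R3.H156

namespace Z3

open Vale.Agent.P139.A Vale.Agent.P139.H203 Vale.Agent.P139.R3.H36 Vale.Agent.P139.R3.H36.HS

variable {d k : ℕ}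

theorem measurableSet_mem : MeasurableSet {a : (Fin d → ℤ) → ℂ | MemSobolev k a} := by
  let h : ((Fin d → ℤ) → ℂ) → (Fin d → ℤ) → ℝ≥0 := fun a n =>
    ⟨(1 + sqNorm n) ^ k * ‖a n‖ ^ 2, mul_nonneg (weight_pos k n).le (sq_nonneg _)⟩
  have e : {a : (Fin d → ℤ) → ℂ | MemSobolev k a} = {a | ∑' n, (h a n : ℝ≥0∞) ≠ ⊤} := by
    ext a
    rw [mem_ofPred_eq, mem_ofPred_eq, ENNReal.tsum_coe_ne_top_iff_summable, ← NNReal.summable_coe]
    rfl
  rw [e]
  have hm : Measurable fun a => ∑' n, (h a n : ℝ≥0∞) := by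
    refine Measurable.ennreal_tsum fun n => ?_
    refine measurable_coe_nnreal_ennreal.comp ?_
    refine Measurable.subtype_mk ?_
    exact ((measurable_pi_apply n).norm.pow_const 2).const_mul _
  exact (hm (measurableSet_singleton ⊤)).compl

open Classical in
/-- truncation -/
noncomputable def tr (k : ℕ) (s : Finset (Fin d → ℤ)) (a : (Fin d → ℤ) → ℂ) : HS d k :=
  toH k (fun n => if n ∈ s then a n else 0)

open Classical in
theorem co_tr (s : Finset (Fin d → ℤ)) (a : (Fin d → ℤ) → ℂ) (n : Fin d → ℤ) :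
    co (tr k s a) n = if n ∈ s then a n else 0 := by
  refine co_toH ?_ n
  refine summable_of_ne_finset_zero (s := s) fun n hn => ?_
  simp [hn]

theorem norm_sub_tr (s : Finset (Fin d → ℤ)) (a b : (Fin d → ℤ) → ℂ) :
    ‖tr k s b - tr k s a‖ ^ 2 = ∑ n ∈ s, (1 + sqNorm n) ^ k * ‖b n - a n‖ ^ 2 := by
  classical
  rw [norm_sub_sq]
  unfold sobolevSq
  rw [tsum_eq_sum (s := s)]
  · refine Finset.sum_congr rfl fun n hn => ?_
    beta_reduce
    rw [co_tr, co_tr, if_pos hn, if_pos hn]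
  · intro n hn
    beta_reduce
    rw [co_tr, co_tr, if_neg hn, if_neg hn]
    simp

theorem continuous_tr (s : Finset (Fin d → ℤ)) : Continuous (tr (d := d) k s) := by
  rw [continuous_iff_continuousAt]
  intro a
  rw [ContinuousAt, tendsto_iff_norm_sub_tendsto_zero]
  have h : Tendsto (fun b : (Fin d → ℤ) → ℂ =>
      Real.sqrt (∑ n ∈ s, (1 + sqNorm n) ^ k * ‖b n - a n‖ ^ 2)) (𝓝 a) (𝓝 0) := by
    have hc : Continuous (fun b : (Fin d → ℤ) → ℂ =>
        Real.sqrt (∑ n ∈ s, (1 + sqNorm n) ^ k * ‖b n - a n‖ ^ 2)) := by fun_prop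
    have := hc.tendsto a
    simpa using this
  refine h.congr fun b => ?_
  rw [← norm_sub_tr, Real.sqrt_sq (norm_nonneg _)]

theorem tendsto_tr {a : (Fin d → ℤ) → ℂ} (ha : MemSobolev k a) :
    Tendsto (fun s : Finset (Fin d → ℤ) => tr k s a) atTop (𝓝 (toH k a)) := by
  classical
  rw [tendsto_iff_norm_sub_tendsto_zero]
  have hS : Summable fun n => (1 + sqNorm n) ^ k * ‖a n‖ ^ 2 := ha
  have key : ∀ s : Finset (Fin d → ℤ), ‖tr k s a - toH k a‖ ^ 2 =
      (∑' n, (1 + sqNorm n) ^ k * ‖a n‖ ^ 2) - ∑ n ∈ s, (1 + sqNorm n) ^ k * ‖a n‖ ^ 2 := by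
    intro s
    have h1 : ∑ n ∈ s, (1 + sqNorm n) ^ k * ‖a n‖ ^ 2 =
        ∑' n, if n ∈ s then (1 + sqNorm n) ^ k * ‖a n‖ ^ 2 else 0 := by
      rw [tsum_eq_sum (s := s)]
      · exact Finset.sum_congr rfl fun n hn => by rw [if_pos hn]
      · intro n hn
        rw [if_neg hn]
    have h2 : Summable fun n => if n ∈ s then (1 + sqNorm n) ^ k * ‖a n‖ ^ 2 else 0 :=
      summable_of_ne_finset_zero (s := s) fun n hn => by rw [if_neg hn]
    rw [h1, ← hS.tsum_sub h2, norm_sub_sq]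
    unfold sobolevSq
    refine tsum_congr fun n => ?_
    beta_reduce
    rw [co_tr, co_toH ha]
    by_cases hn : n ∈ s
    · rw [if_pos hn, if_pos hn]
      simp
    · rw [if_neg hn, if_neg hn]
      simp
  have h3 : Tendsto (fun s : Finset (Fin d → ℤ) =>
      (∑' n, (1 + sqNorm n) ^ k * ‖a n‖ ^ 2) - ∑ n ∈ s, (1 + sqNorm n) ^ k * ‖a n‖ ^ 2)
      atTop (𝓝 0) := by
    have h4 : Tendsto (fun s : Finset (Fin d → ℤ) => ∑ n ∈ s, (1 + sqNorm n) ^ k * ‖a n‖ ^ 2)
        atTop (𝓝 (∑' n, (1 + sqNorm n) ^ k * ‖a n‖ ^ 2)) := hS.hasSum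
    have h6 := (tendsto_const_nhds (x := ∑' n, (1 + sqNorm n) ^ k * ‖a n‖ ^ 2)).sub h4
    rwa [sub_self] at h6
  have h5 := (Real.continuous_sqrt.tendsto 0).comp h3
  rw [Real.sqrt_zero] at h5
  refine h5.congr fun s => ?_
  change Real.sqrt ((∑' n, (1 + sqNorm n) ^ k * ‖a n‖ ^ 2) -
    ∑ n ∈ s, (1 + sqNorm n) ^ k * ‖a n‖ ^ 2) = _
  rw [← key, Real.sqrt_sq (norm_nonneg _)]

theorem measurableSet_open {O : Set (HS d k)} (hO : IsOpen O) :
    MeasurableSet {a : (Fin d → ℤ) → ℂ | MemSobolev k a ∧ toH k a ∈ O} := by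
  classical
  have hlim : Measurable (indicator {a : (Fin d → ℤ) → ℂ | MemSobolev k a}
      fun a => infEDist (toH k a) Oᶜ) := by
    refine measurable_of_tendsto_metrizable' atTop (f := fun s : Finset (Fin d → ℤ) =>
      indicator {a : (Fin d → ℤ) → ℂ | MemSobolev k a} fun a => infEDist (tr k s a) Oᶜ)
      (fun s => ?_) ?_
    · exact ((continuous_infEDist.comp (continuous_tr s)).measurable).indicator measurableSet_mem
    · rw [tendsto_pi_nhds]
      intro a
      by_cases ha : MemSobolev k a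
      · simp only [indicator_of_mem (show a ∈ {a : (Fin d → ℤ) → ℂ | MemSobolev k a} from ha)]
        exact (continuous_infEDist.tendsto _).comp (tendsto_tr ha)
      · simp only [indicator_of_notMem (show a ∉ {a : (Fin d → ℤ) → ℂ | MemSobolev k a} from ha)]
        exact tendsto_const_nhds
  have e : {a : (Fin d → ℤ) → ℂ | MemSobolev k a ∧ toH k a ∈ O} =
      {a : (Fin d → ℤ) → ℂ | MemSobolev k a} ∩
        (indicator {a : (Fin d → ℤ) → ℂ | MemSobolev k a}
          fun a => infEDist (toH k a) Oᶜ) ⁻¹' {0}ᶜ := by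
    ext a
    simp only [mem_ofPred_eq, mem_inter_iff, mem_preimage, mem_compl_iff, mem_singleton_iff]
    refine and_congr_right fun ha => ?_
    rw [indicator_of_mem (show a ∈ {a : (Fin d → ℤ) → ℂ | MemSobolev k a} from ha),
      ← mem_iff_infEDist_zero_of_closed hO.isClosed_compl, mem_compl_iff, not_not]
  rw [e]
  exact measurableSet_mem.inter (hlim (measurableSet_singleton 0).compl)

theorem measurableSet_sol (hk : d < 2 * k) {m : ℕ} {T : ℝ} (hT : 0 ≤ T) :
    MeasurableSet {a : (Fin d → ℤ) → ℂ | ∃ u, IsSolution d (2 * m + 1) k T u ∧ u 0 = a} := by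
  have e : {a : (Fin d → ℤ) → ℂ | ∃ u, IsSolution d (2 * m + 1) k T u ∧ u 0 = a} =
      {a : (Fin d → ℤ) → ℂ | MemSobolev k a ∧ toH k a ∈ (D m T : Set (HS d k))} := by
    ext a
    simp only [mem_ofPred_eq]
    have hco : MemSobolev k a → co (toH k a) = a := fun h => funext fun n => co_toH h n
    constructor
    · rintro ⟨u, hu, h0⟩
      have ha : MemSobolev k a := h0 ▸ hu.mem 0 ⟨le_rfl, hT⟩
      refine ⟨ha, (mem_D_iff hk hT _).2 ⟨u, hu, ?_⟩⟩
      rw [hco ha, h0]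
    · rintro ⟨ha, hD⟩
      obtain ⟨u, hu, h0⟩ := (mem_D_iff hk hT _).1 hD
      exact ⟨u, hu, by rw [h0, hco ha]⟩
  rw [e]
  exact measurableSet_open (isOpen_D hk hT)

theorem measurableSet_lt (hk : d < 2 * k) {m : ℕ} (s : ℝ≥0) :
    MeasurableSet {a : (Fin d → ℤ) → ℂ | (s : ℝ≥0∞) < lifespan d (2 * m + 1) k a} := by
  have e : {a : (Fin d → ℤ) → ℂ | (s : ℝ≥0∞) < lifespan d (2 * m + 1) k a} =
      ⋃ (T : ℚ) (_ : (s : ℝ) < T),
        {a : (Fin d → ℤ) → ℂ | ∃ u, IsSolution d (2 * m + 1) k (T : ℝ) u ∧ u 0 = a} := by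
    ext a
    simp only [mem_ofPred_eq, mem_iUnion, lt_lifespan_iff]
    constructor
    · rintro ⟨S, hS, hu⟩
      obtain ⟨T, h1, h2⟩ := exists_rat_btwn (NNReal.coe_lt_coe.2 hS)
      exact ⟨T, h1, exists_of_le h2.le hu⟩
    · rintro ⟨T, h1, hu⟩
      have hT : (0 : ℝ) ≤ T := s.2.trans h1.le
      exact ⟨⟨T, hT⟩, NNReal.coe_lt_coe.1 h1, hu⟩
  rw [e]
  refine MeasurableSet.iUnion fun T => MeasurableSet.iUnion fun h => ?_
  exact measurableSet_sol hk (s.2.trans h.le)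

end Z3

open Vale.Agent.P139.A Vale.Agent.P139.H203 Vale.Agent.P139.R3.H36 Vale.Agent.P139.R3.H36.HS in
/-- ROW Z3 -/
theorem measurable_lifespan {d k m : ℕ} (hk : d < 2 * k) (S : ℝ≥0∞) :
    MeasurableSet {a : (Fin d → ℤ) → ℂ | S ≤ lifespan d (2 * m + 1) k a} := by
  have e : {a : (Fin d → ℤ) → ℂ | S ≤ lifespan d (2 * m + 1) k a} =
      ⋂ (q : ℚ) (_ : ((Real.toNNReal q : ℝ≥0) : ℝ≥0∞) < S),
        {a : (Fin d → ℤ) → ℂ | ((Real.toNNReal q : ℝ≥0) : ℝ≥0∞) <
          lifespan d (2 * m + 1) k a} := by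
    ext a
    simp only [mem_ofPred_eq, mem_iInter]
    constructor
    · intro h q hq
      exact hq.trans_le h
    · intro h
      by_contra hc
      obtain ⟨q, -, h1, h2⟩ := ENNReal.lt_iff_exists_rat_btwn.1 (not_le.1 hc)
      exact lt_asymm h1 (h q h2)
  rw [e]
  exact MeasurableSet.iInter fun q => MeasurableSet.iInter fun _ => Z3.measurableSet_lt hk _

end Vale.Agent.P139.R3.H156
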