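import Vale.Agent.P139.R3.H156.EP

/-! # P139: tail sets from invariance under rational shifts -/

open Set Filter Topology MeasureTheory ProbabilityTheory
open scoped NNReal ENNReal

namespace Vale.Agent.P139.R3.H156

open Vale.Agent.P139.A Vale.Agent.P139.H203

attribute [local instance] prob_std

variable {d : ℕ}

/-- Extension by zero from a finite block. -/
noncomputable def ext0 (s : Finset (Lat d)) (z : s → ℂ) (n : Lat d) : ℂ :=
  open Classical in if h : n ∈ s then z ⟨n, h⟩ else 0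

theorem ext0_add (s : Finset (Lat d)) (z w : s → ℂ) (n : Lat d) :
    ext0 s (z + w) n = ext0 s z n + ext0 s w n := by
  unfold ext0
  split_ifs <;> simp

theorem measurable_ext0 (s : Finset (Lat d)) : Measurable (ext0 s) := by
  rw [measurable_pi_iff]
  intro n
  unfold ext0
  split_ifs with h
  · exact measurable_pi_apply _
  · exact measurable_const

theorem ext0_profile (s : Finset (Lat d)) (z : s → ℂ) :
    Summable fun n => ‖ext0 s z n‖ ^ 2 := by
  refine summable_of_ne_finset_zero (s := s) fun n hn => ?_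
  simp [ext0, hn]

theorem dense_scaled {w : ℝ} (hw : w ≠ 0) :
    Dense {z : ℂ | ∃ q : ℚ × ℚ, z = ((((q.1 : ℝ) : ℂ) + ((q.2 : ℝ) : ℂ) * Complex.I)) * (w : ℂ)} := by
  rw [Metric.dense_iff]
  intro x ε hε
  have hw' : 0 < |w| := abs_pos.2 hw
  obtain ⟨q, hq⟩ := exists_rat_near (-(x / (w : ℂ))) (η := (ε / |w|) ^ 2) (by positivity)
  refine ⟨((((q.1 : ℝ) : ℂ) + ((q.2 : ℝ) : ℂ) * Complex.I)) * (w : ℂ), ?_, q, rfl⟩
  rw [Metric.mem_ball, dist_eq_norm]
  have h1 := lt_of_pow_lt_pow_left₀ 2 (by positivity) hq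
  rw [lt_div_iff₀ hw'] at h1
  have h2 : ((((q.1 : ℝ) : ℂ) + ((q.2 : ℝ) : ℂ) * Complex.I)) * (w : ℂ) - x =
      (((((q.1 : ℝ) : ℂ) + ((q.2 : ℝ) : ℂ) * Complex.I)) + -(x / (w : ℂ))) * (w : ℂ) := by
    have : (w : ℂ) ≠ 0 := Complex.ofReal_ne_zero.2 hw
    field_simp
    ring
  rw [h2, norm_mul, Complex.norm_real, Real.norm_eq_abs]
  exact h1

/-- The rational shifts supported in a finite block are dense in the block. -/
theorem dense_block (α : ℝ) (s : Finset (Lat d)) :
    Dense {z : s → ℂ | ∃ r : (Fin d → ℤ) →₀ ℚ × ℚ, ∀ n, ext0 s z n = scl α (ratSeq r) n} := by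
  classical
  have h1 : Dense (Set.pi univ fun n : s => {z : ℂ | ∃ q : ℚ × ℚ,
      z = ((((q.1 : ℝ) : ℂ) + ((q.2 : ℝ) : ℂ) * Complex.I)) *
        ((Real.sqrt (1 + sqNorm n.1) ^ α : ℝ) : ℂ)}) :=
    dense_pi univ fun n _ => dense_scaled (Real.rpow_pos_of_pos (sqrt_pos' n.1) α).ne'
  refine h1.mono fun z hz => ?_
  have hz' : ∀ n : s, ∃ q : ℚ × ℚ, z n = ((((q.1 : ℝ) : ℂ) + ((q.2 : ℝ) : ℂ) * Complex.I)) *
        ((Real.sqrt (1 + sqNorm n.1) ^ α : ℝ) : ℂ) := fun n => hz n (mem_univ n)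
  choose q hq using hz'
  refine ⟨Finsupp.onFinset s (fun n => if h : n ∈ s then q ⟨n, h⟩ else 0) (fun n hn => by
      by_contra h
      exact hn (by simp [h])), fun n => ?_⟩
  unfold ext0 scl ratSeq
  by_cases h : n ∈ s
  · simp only [h, dif_pos, Finsupp.onFinset_apply]
    exact hq ⟨n, h⟩
  · simp [h]

theorem tail_of_invariant (α : ℝ)
    (hZ1 : ∀ (s : Finset (Lat d)) (L : Set (s → ℂ)), Dense L → ∀ N : Set (s → ℂ), MeasurableSet N →
      (∀ z : s → ℂ, ∀ l ∈ L, (z + l ∈ N ↔ z ∈ N)) → volume N = 0 ∨ volume Nᶜ = 0)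
    {A : Set (Lat d → ℂ)} (hA : MeasurableSet A)
    (hinv : ∀ (r : (Fin d → ℤ) →₀ ℚ × ℚ) (x : Lat d → ℂ),
      ((fun n => x n + scl α (ratSeq r) n) ∈ A ↔ x ∈ A)) (s : Finset (Lat d)) :
    ∃ B : Set (Lat d → ℂ), MeasurableSet B ∧
      (∀ x y : Lat d → ℂ, (∀ n, n ∉ s → x n = y n) → (x ∈ B ↔ y ∈ B)) ∧
      (Measure.infinitePi fun _ : Lat d => stdComplexGaussian) (symmDiff A B) = 0 := by
  set μ := Measure.infinitePi fun _ : Lat d => stdComplexGaussian with hμ
  set T : Set ((Lat d → ℂ) × (s → ℂ)) := {q | (fun n => q.1 n + ext0 s q.2 n) ∉ A} with hT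
  have hadd : Measurable fun q : (Lat d → ℂ) × (s → ℂ) => (fun n => q.1 n + ext0 s q.2 n) := by
    rw [measurable_pi_iff]
    intro n
    exact ((measurable_pi_apply n).comp measurable_fst).add
      ((measurable_pi_apply n).comp ((measurable_ext0 s).comp measurable_snd))
  have hTm : MeasurableSet T := hadd hA.compl
  set B : Set (Lat d → ℂ) := {x | volume (Prod.mk x ⁻¹' T) = 0} with hB
  have hBm : MeasurableSet B := by
    have h1 : Measurable fun x => (volume : Measure (s → ℂ)) (Prod.mk x ⁻¹' T) :=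
      measurable_measure_prodMk_left hTm
    exact h1 (measurableSet_singleton 0)
  have htail : ∀ x y : Lat d → ℂ, (∀ n, n ∉ s → x n = y n) → (x ∈ B ↔ y ∈ B) := by
    intro x y hxy
    have h1 : (Prod.mk x ⁻¹' T : Set (s → ℂ)) =
        (fun z => z + fun n => x n.1 - y n.1) ⁻¹' (Prod.mk y ⁻¹' T) := by
      ext z
      have e1 : (fun n => x n + ext0 s z n) =
          fun n => y n + ext0 s (z + fun n => x n.1 - y n.1) n := by
        funext n
        by_cases h : n ∈ s
        · simp only [ext0, h, dif_pos, Pi.add_apply]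
          ring
        · simp [ext0, h, hxy n h]
      change (fun n => x n + ext0 s z n) ∉ A ↔
        (fun n => y n + ext0 s (z + fun n => x n.1 - y n.1) n) ∉ A
      rw [e1]
    change volume (Prod.mk x ⁻¹' T) = 0 ↔ volume (Prod.mk y ⁻¹' T) = 0
    rw [h1, measure_preimage_add_right]
  refine ⟨B, hBm, htail, ?_⟩
  -- sections
  have hsec : ∀ x, volume {z : s → ℂ | ¬ ((fun n => x n + ext0 s z n) ∈ A ↔ x ∈ B)} = 0 := by
    intro x
    have hN : MeasurableSet {z : s → ℂ | (fun n => x n + ext0 s z n) ∈ A} :=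
      (hadd.comp (measurable_const.prodMk measurable_id)) hA
    have h1 := hZ1 s _ (dense_block α s) {z | (fun n => x n + ext0 s z n) ∈ A} hN (by
      rintro z l ⟨r, hr⟩
      change (fun n => x n + ext0 s (z + l) n) ∈ A ↔ (fun n => x n + ext0 s z n) ∈ A
      rw [← hinv r (fun n => x n + ext0 s z n)]
      have e2 : (fun n => x n + ext0 s (z + l) n) =
          fun n => x n + ext0 s z n + scl α (ratSeq r) n := by
        funext n
        rw [ext0_add, hr n, add_assoc]
      rw [e2])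
    have h2 : ({z : s → ℂ | (fun n => x n + ext0 s z n) ∈ A}ᶜ : Set (s → ℂ)) = Prod.mk x ⁻¹' T := rfl
    by_cases hx : x ∈ B
    · have h3 : {z : s → ℂ | ¬ ((fun n => x n + ext0 s z n) ∈ A ↔ x ∈ B)} = Prod.mk x ⁻¹' T := by
        ext z
        simp [hx, hT]
      rw [h3]
      exact hx
    · have h3 : {z : s → ℂ | ¬ ((fun n => x n + ext0 s z n) ∈ A ↔ x ∈ B)} =
          {z : s → ℂ | (fun n => x n + ext0 s z n) ∈ A} := by
        ext z
        simp [hx]
      rw [h3]
      rcases h1 with h1 | h1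
      · exact h1
      · exact absurd (show x ∈ B by rw [h2] at h1; exact h1) hx
  -- Fubini
  set E : Set ((Lat d → ℂ) × (s → ℂ)) :=
    {q | ¬ ((fun n => q.1 n + ext0 s q.2 n) ∈ A ↔ q.1 ∈ B)} with hE
  have hEm : MeasurableSet E := by
    have h1 : MeasurableSet {q : (Lat d → ℂ) × (s → ℂ) | (fun n => q.1 n + ext0 s q.2 n) ∈ A} :=
      hadd hA
    have h2 : MeasurableSet {q : (Lat d → ℂ) × (s → ℂ) | q.1 ∈ B} := measurable_fst hBm
    have : E = symmDiff {q : (Lat d → ℂ) × (s → ℂ) | (fun n => q.1 n + ext0 s q.2 n) ∈ A}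
        {q : (Lat d → ℂ) × (s → ℂ) | q.1 ∈ B} := by
      ext q
      rw [Set.mem_symmDiff]
      change ¬ ((fun n => q.1 n + ext0 s q.2 n) ∈ A ↔ q.1 ∈ B) ↔
        ((fun n => q.1 n + ext0 s q.2 n) ∈ A ∧ ¬ q.1 ∈ B) ∨
          (q.1 ∈ B ∧ ¬ (fun n => q.1 n + ext0 s q.2 n) ∈ A)
      tauto
    rw [this]
    exact h1.symmDiff h2
  have hE0 : (μ.prod (volume : Measure (s → ℂ))) E = 0 := by
    rw [Measure.measure_prod_null hEm]
    exact Eventually.of_forall fun x => hsec x
  have hE1 : ((volume : Measure (s → ℂ)).prod μ) (Prod.swap ⁻¹' E) = 0 := by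
    rw [← Measure.prod_swap, Measure.map_apply measurable_swap (measurable_swap hEm)]
    exact hE0
  rw [Measure.measure_prod_null (measurable_swap hEm)] at hE1
  obtain ⟨z, hz⟩ := hE1.exists
  have hz' : μ {x | ¬ ((fun n => x n + ext0 s z n) ∈ A ↔ x ∈ B)} = 0 := hz
  have hz2 : μ {x | (fun n => x n + ext0 s z n) ∈ symmDiff A B} = 0 := by
    refine le_antisymm ((measure_mono fun x hx => ?_).trans hz'.le) bot_le
    have hxB : (fun n => x n + ext0 s z n) ∈ B ↔ x ∈ B := by
      refine htail _ _ fun n hn => ?_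
      simp [ext0, hn]
    change ¬ ((fun n => x n + ext0 s z n) ∈ A ↔ x ∈ B)
    rw [← hxB]
    have := (Set.mem_symmDiff).1 hx
    tauto
  have hac := shift_ac Vale.Agent.P139.R3.H597.map_add_std (b := fun n => ext0 s (-z) n)
    (ext0_profile s (-z))
  have h5 := hac hz2
  have hm5 : MeasurableSet {x : Lat d → ℂ | (fun n => x n + ext0 s z n) ∈ symmDiff A B} :=
    (hadd.comp (measurable_id.prodMk measurable_const)) (hA.symmDiff hBm)
  rw [Measure.map_apply (by fun_prop) hm5] at h5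
  convert h5 using 2
  ext x
  change x ∈ symmDiff A B ↔ (fun n => x n + ext0 s (-z) n + ext0 s z n) ∈ symmDiff A B
  have : (fun n => x n + ext0 s (-z) n + ext0 s z n) = x := by
    funext n
    rw [add_assoc, ← ext0_add, neg_add_cancel]
    simp [ext0]
  rw [this]

end Vale.Agent.P139.R3.H156
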