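import Vale.Agent.P139.R3.H156.ZOL
import Vale.Agent.P139.R3.H156.Z1
import Vale.Agent.P139.R3.H156.Z3

/-! # P139: the zero-one law for the lifespan -/

open Set Filter Topology MeasureTheory ProbabilityTheory
open scoped NNReal ENNReal

namespace Vale.Agent.P139.R3.H156

open Vale.Agent.P139.A Vale.Agent.P139.H203

attribute [local instance] prob_std

variable {d : ℕ}

/-- The zero-one law for a measurable set of sequences: failure of the almost sure statement is
the almost sure existence of a bad rational shift, around every profile of a countable family. -/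
theorem zo_iff (α : ℝ) {A₀ : Set (Lat d → ℂ)} (hA₀ : MeasurableSet A₀) :
    (¬ ∀ (Ω : Type) [MeasurableSpace Ω] (P : Measure Ω) (g : (Fin d → ℤ) → Ω → ℂ),
      StdFamily P g → ∀ᵐ ω ∂P, datum g α ω ∈ A₀) ↔
    ∀ C : Set ((Fin d → ℤ) → ℂ), C.Countable → (∀ v ∈ C, Profile α v) →
      ∀ (Ω : Type) [MeasurableSpace Ω] (P : Measure Ω) (g : (Fin d → ℤ) → Ω → ℂ),
        StdFamily P g → ∀ᵐ ω ∂P, ∀ v ∈ C, ∃ r : (Fin d → ℤ) →₀ ℚ × ℚ,
          (fun n => v n + ratSeq r n + datum g α ω n) ∉ A₀ := by
  constructor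
  · intro hnot C hC hCv Ω _ P g hg
    rw [ae_ball_iff hC]
    intro v hv
    rcases zero_one_law α (fun s L hL N hN hinv => null_or_conull hL hN hinv) hA₀ with h1 | h2
    · refine absurd ?_ hnot
      intro Ω' _ P' g' hg'
      filter_upwards [h1 Ω' P' g' hg'] with ω hω
      have := hω 0
      simpa only [ratSeq_zero, zero_add] using this
    · have h3 := transfer_det (α := α) {x : (Fin d → ℤ) → ℂ | ∃ r : (Fin d → ℤ) →₀ ℚ × ℚ,
        (fun n => ratSeq r n + x n) ∉ A₀} h2 hg (hCv v hv)
      filter_upwards [h3] with ω hω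
      obtain ⟨r, hr⟩ := hω
      refine ⟨r, ?_⟩
      have e : (fun n => v n + ratSeq r n + datum g α ω n) =
          fun n => ratSeq r n + (v n + datum g α ω n) := by
        funext n
        ring
      rw [e]
      exact hr
  · intro h hQ
    have h1 := h {fun _ => 0} (countable_singleton _) (by
      intro v hv
      rw [mem_singleton_iff] at hv
      subst hv
      unfold Profile
      simp) (Lat d → ℂ)
      (Measure.infinitePi fun _ : Lat d => stdComplexGaussian) (fun n x => x n) stdFamily_canonical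
    have h2 : ∀ᵐ x ∂(Measure.infinitePi fun _ : Lat d => stdComplexGaussian),
        ∀ r : (Fin d → ℤ) →₀ ℚ × ℚ,
          (fun n => ratSeq r n + datum (fun n (x : Lat d → ℂ) => x n) α x n) ∈ A₀ := by
      rw [ae_all_iff]
      intro r
      exact transfer_det A₀ hQ stdFamily_canonical (profile_ratSeq α r)
    obtain ⟨x, hx1, hx2⟩ := (h1.and h2).exists
    obtain ⟨r, hr⟩ := hx1 _ (mem_singleton _)
    refine hr ?_
    have := hx2 r
    simpa only [zero_add] using this

/-- The zero-one law for the lifespan. -/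
theorem lifespan_zo {k m : ℕ} (hk : d < 2 * k) (α : ℝ) (S : ℝ≥0∞) :
    (¬ ∀ (Ω : Type) [MeasurableSpace Ω] (P : Measure Ω) (g : (Fin d → ℤ) → Ω → ℂ),
      StdFamily P g → ∀ᵐ ω ∂P, S ≤ lifespan d (2 * m + 1) k (datum g α ω)) ↔
    ∀ C : Set ((Fin d → ℤ) → ℂ), C.Countable → (∀ v ∈ C, Profile α v) →
      ∀ (Ω : Type) [MeasurableSpace Ω] (P : Measure Ω) (g : (Fin d → ℤ) → Ω → ℂ),
        StdFamily P g → ∀ᵐ ω ∂P, ∀ v ∈ C, ∃ r : (Fin d → ℤ) →₀ ℚ × ℚ,
          lifespan d (2 * m + 1) k (fun n => v n + ratSeq r n + datum g α ω n) < S := by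
  have h := zo_iff (d := d) α (measurable_lifespan (d := d) (k := k) (m := m) hk S)
  simp only [mem_ofPred_eq, not_le] at h
  exact h

end Vale.Agent.P139.R3.H156
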