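import Vale.Agent.P139.R3.H156.ZO
import Vale.Agent.P139.R3.H156.Z2

/-! # P139: the zero-one law -/

open Set Filter Topology MeasureTheory ProbabilityTheory
open scoped NNReal ENNReal

namespace Vale.Agent.P139.R3.H156

open Vale.Agent.P139.A Vale.Agent.P139.H203

attribute [local instance] prob_std

variable {d : ℕ}

theorem ratSeq_add (r r' : (Fin d → ℤ) →₀ ℚ × ℚ) (n : Fin d → ℤ) :
    ratSeq (r + r') n = ratSeq r n + ratSeq r' n := by
  unfold ratSeq
  simp only [Finsupp.add_apply, Prod.fst_add, Prod.snd_add]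
  push_cast
  ring

theorem ratSeq_zero (n : Fin d → ℤ) : ratSeq (0 : (Fin d → ℤ) →₀ ℚ × ℚ) n = 0 := by
  simp [ratSeq]

/-- The datum from the sequence of Gaussians. -/
noncomputable def dat (α : ℝ) (x : Lat d → ℂ) (n : Lat d) : ℂ :=
  x n * ((Real.sqrt (1 + sqNorm n) ^ (-α) : ℝ) : ℂ)

theorem measurable_dat (α : ℝ) : Measurable (dat α : (Lat d → ℂ) → Lat d → ℂ) := by
  unfold dat
  fun_prop

theorem datum_eq {Ω : Type*} (g : Lat d → Ω → ℂ) (α : ℝ) (ω : Ω) :
    datum g α ω = dat α fun n => g n ω := rfl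

theorem dat_shift (α : ℝ) (x : Lat d → ℂ) (r : (Fin d → ℤ) →₀ ℚ × ℚ) (n : Lat d) :
    dat α (fun n => x n + scl α (ratSeq r) n) n = ratSeq r n + dat α x n := by
  unfold dat
  rw [add_mul, scl_mul, add_comm]

/-- The zero-one law for a measurable set of sequences. -/
theorem zero_one_law (α : ℝ)
    (hZ1 : ∀ (s : Finset (Lat d)) (L : Set (s → ℂ)), Dense L → ∀ N : Set (s → ℂ), MeasurableSet N →
      (∀ z : s → ℂ, ∀ l ∈ L, (z + l ∈ N ↔ z ∈ N)) → volume N = 0 ∨ volume Nᶜ = 0)
    {A₀ : Set (Lat d → ℂ)} (hA₀ : MeasurableSet A₀) :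
    (∀ (Ω : Type) [MeasurableSpace Ω] (P : Measure Ω) (g : (Fin d → ℤ) → Ω → ℂ),
      StdFamily P g → ∀ᵐ ω ∂P, ∀ r : (Fin d → ℤ) →₀ ℚ × ℚ,
        (fun n => ratSeq r n + datum g α ω n) ∈ A₀) ∨
    (∀ (Ω : Type) [MeasurableSpace Ω] (P : Measure Ω) (g : (Fin d → ℤ) → Ω → ℂ),
      StdFamily P g → ∀ᵐ ω ∂P, ∃ r : (Fin d → ℤ) →₀ ℚ × ℚ,
        (fun n => ratSeq r n + datum g α ω n) ∉ A₀) := by
  set μ := Measure.infinitePi fun _ : Lat d => stdComplexGaussian with hμ
  set A : Set (Lat d → ℂ) :=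
    {x | ∀ r : (Fin d → ℤ) →₀ ℚ × ℚ, (fun n => ratSeq r n + dat α x n) ∈ A₀} with hA
  have hAm : MeasurableSet A := by
    have : A = ⋂ r : (Fin d → ℤ) →₀ ℚ × ℚ,
        {x | (fun n => ratSeq r n + dat α x n) ∈ A₀} := by
      ext x
      simp [hA]
    rw [this]
    refine MeasurableSet.iInter fun r => ?_
    have h1 : Measurable fun x : Lat d → ℂ => (fun n => ratSeq r n + dat α x n) := by
      rw [measurable_pi_iff]
      intro n
      exact measurable_const.add ((measurable_pi_apply n).comp (measurable_dat α))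
    exact h1 hA₀
  have hinv : ∀ (r : (Fin d → ℤ) →₀ ℚ × ℚ) (x : Lat d → ℂ),
      ((fun n => x n + scl α (ratSeq r) n) ∈ A ↔ x ∈ A) := by
    intro r x
    have key : ∀ r' : (Fin d → ℤ) →₀ ℚ × ℚ,
        (fun n => ratSeq r' n + dat α (fun n => x n + scl α (ratSeq r) n) n) =
          fun n => ratSeq (r' + r) n + dat α x n := by
      intro r'
      funext n
      rw [dat_shift, ratSeq_add]
      ring
    constructor
    · intro h r'
      have h1 := h (r' - r)
      rw [key, sub_add_cancel] at h1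
      exact h1
    · intro h r'
      rw [key]
      exact h _
  rcases zero_one_of_tail hAm (tail_of_invariant α hZ1 hAm hinv) with h0 | h1
  · right
    intro Ω _ P g hg
    have hgm : Measurable fun ω n => g n ω := measurable_pi_iff.2 hg.meas
    have h2 : P {ω | (fun n => g n ω) ∈ A} = 0 := by
      have := hg.map_eq
      rw [← this, Measure.map_apply hgm hAm] at h0
      exact h0
    have h3 : ∀ᵐ ω ∂P, (fun n => g n ω) ∉ A := by
      rw [ae_iff]
      simpa using h2
    filter_upwards [h3] with ω hω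
    simp only [hA] at hω
    by_contra hc
    push Not at hc
    exact hω fun r => hc r
  · left
    intro Ω _ P g hg
    have hgm : Measurable fun ω n => g n ω := measurable_pi_iff.2 hg.meas
    have h2 : μ Aᶜ = 0 := by
      rw [prob_compl_eq_zero_iff hAm]
      exact h1
    have h3 : P {ω | (fun n => g n ω) ∈ Aᶜ} = 0 := by
      have := hg.map_eq
      rw [hμ, ← this, Measure.map_apply hgm hAm.compl] at h2
      exact h2
    have h4 : ∀ᵐ ω ∂P, (fun n => g n ω) ∈ A := by
      rw [ae_iff]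
      exact h3
    filter_upwards [h4] with ω hω r
    exact hω r

end Vale.Agent.P139.R3.H156
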